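import Vale.Agent.P080.Defs

/-!
# P080: elementary facts on the sup-convolution and on averages
-/

namespace Vale.Agent.P080

open scoped RealInnerProductSpace

section
variable {E : Type*} [NormedAddCommGroup E] [InnerProductSpace ℝ E]
variable {u : E → ℝ} {L C R ρ ρ1 D s κ : ℝ} {x p a : E}

omit [InnerProductSpace ℝ E] in
theorem Lip.neg (h : Lip u L) : Lip (-u) L := by
  intro x y
  have := h y x
  rw [norm_sub_rev] at this
  simp only [Pi.neg_apply]
  linarith

omit [InnerProductSpace ℝ E] in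
theorem Lip.abs_le (h : Lip u L) (x y : E) : |u x - u y| ≤ L * ‖x - y‖ := by
  have h1 := h x y
  have h2 := h y x
  rw [norm_sub_rev] at h2
  exact _root_.abs_le.2 ⟨by linarith, h1⟩

omit [InnerProductSpace ℝ E] in
theorem Lip.add_le (h : Lip u L) (x y : E) : u (x + y) - u x ≤ L * ‖y‖ := by
  simpa using h (x + y) x

omit [InnerProductSpace ℝ E] in
theorem Lip.continuous (h : Lip u L) (hL : 0 ≤ L) : Continuous u := by
  have : LipschitzWith ⟨L, hL⟩ u := LipschitzWith.of_dist_le_mul fun x y => by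
    rw [Real.dist_eq, dist_eq_norm]
    exact h.abs_le x y
  exact this.continuous

theorem Lip.step_le (h : Lip u L) (hs : 0 < s) (x a : E) :
    u (x + s • a) - s * ‖a‖ ^ 2 / 2 ≤ u x + s * L ^ 2 / 2 := by
  have h1 := h.add_le x (s • a)
  rw [norm_smul, Real.norm_eq_abs, abs_of_pos hs] at h1
  nlinarith [mul_nonneg hs.le (sq_nonneg (‖a‖ - L))]

theorem Lip.le_Tp (h : Lip u L) (hs : 0 < s) (x a : E) :
    u (x + s • a) - s * ‖a‖ ^ 2 / 2 ≤ Tp u s x := by
  have hb : BddAbove (Set.range fun a : E => u (x + s • a) - s * ‖a‖ ^ 2 / 2) :=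
    ⟨u x + s * L ^ 2 / 2, by rintro _ ⟨a, rfl⟩; exact h.step_le hs x a⟩
  exact le_ciSup hb a

theorem Tp_le {m : ℝ} (h : ∀ a : E, u (x + s • a) - s * ‖a‖ ^ 2 / 2 ≤ m) : Tp u s x ≤ m :=
  ciSup_le h

theorem Lip.Tp_le (h : Lip u L) (hs : 0 < s) (x : E) : Tp u s x ≤ u x + s * L ^ 2 / 2 :=
  P080.Tp_le (h.step_le hs x)

theorem Lip.self_le_Tp (h : Lip u L) (hs : 0 < s) (x : E) : u x ≤ Tp u s x := by
  simpa using h.le_Tp hs x 0

theorem Tp_eq (hs : 0 < s) (u : E → ℝ) (x : E) : Tp u s x = u x + s * ep u s x := by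
  unfold ep
  field_simp
  ring

theorem Lip.le_ep (h : Lip u L) (hs : 0 < s) (x a : E) :
    u (x + s • a) - u x - s * ‖a‖ ^ 2 / 2 ≤ s * ep u s x := by
  have := h.le_Tp hs x a
  rw [Tp_eq hs] at this
  linarith

theorem Opt.eq (h : Opt u s x a) (hs : 0 < s) :
    s * ep u s x = u (x + s • a) - u x - s * ‖a‖ ^ 2 / 2 := by
  unfold Opt at h
  rw [Tp_eq hs] at h
  linarith

theorem ep_le_of {m : ℝ} (hs : 0 < s)
    (h : ∀ a : E, u (x + s • a) - u x - s * ‖a‖ ^ 2 / 2 ≤ s * m) : ep u s x ≤ m := by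
  have h1 : Tp u s x ≤ u x + s * m := Tp_le fun a => by linarith [h a]
  rw [Tp_eq hs] at h1
  exact le_of_mul_le_mul_left (by linarith) hs

theorem Opt.norm_le (h : Opt u s x a) (hu : Lip u L) (hL : 0 ≤ L) (hs : 0 < s) :
    ‖a‖ ≤ 2 * L := by
  have h1 := hu.self_le_Tp hs x
  unfold Opt at h
  have h2 := hu.add_le x (s • a)
  rw [norm_smul, Real.norm_eq_abs, abs_of_pos hs] at h2
  have h3 : s * (‖a‖ * (‖a‖ - 2 * L)) ≤ 0 := by nlinarith
  have h4 : ‖a‖ * (‖a‖ - 2 * L) ≤ 0 := by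
    by_contra hc
    push Not at hc
    nlinarith [mul_pos hs hc]
  by_contra hc
  push Not at hc
  have : 0 < ‖a‖ := by linarith
  nlinarith [mul_pos this (sub_pos.2 hc)]

theorem Lip.exists_opt [FiniteDimensional ℝ E] (hu : Lip u L) (hL : 0 ≤ L) (hs : 0 < s) (x : E) :
    ∃ a, Opt u s x a := by
  have : ProperSpace E := FiniteDimensional.proper ℝ E
  have hc : Continuous fun a : E => u (x + s • a) - s * ‖a‖ ^ 2 / 2 := by
    have := hu.continuous hL
    fun_prop
  obtain ⟨a, -, ha⟩ := (isCompact_closedBall (0 : E) (2 * L)).exists_isMaxOn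
    ⟨0, Metric.mem_closedBall_self (by linarith)⟩ hc.continuousOn
  refine ⟨a, le_antisymm (P080.Tp_le fun b => ?_) (hu.le_Tp hs x a)⟩
  by_cases hb : ‖b‖ ≤ 2 * L
  · exact ha (by simpa using hb)
  · push Not at hb
    have h0 : u (x + s • (0 : E)) - s * ‖(0 : E)‖ ^ 2 / 2 ≤ u (x + s • a) - s * ‖a‖ ^ 2 / 2 :=
      ha (Metric.mem_closedBall_self (by linarith))
    simp only [smul_zero, add_zero, norm_zero] at h0
    have h2 := hu.add_le x (s • b)
    rw [norm_smul, Real.norm_eq_abs, abs_of_pos hs] at h2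
    have : 0 ≤ s * (‖b‖ * (‖b‖ - 2 * L)) :=
      mul_nonneg hs.le (mul_nonneg (norm_nonneg _) (by linarith))
    nlinarith

theorem mono_of_sub [FiniteDimensional ℝ E] {rad s0 : ℝ} (hu : Lip u L) (hL : 0 ≤ L)
    (hS : Sub u D rad) (hr : 2 * L * s0 ≤ rad) : Mono u D s0 := by
  have : ProperSpace E := FiniteDimensional.proper ℝ E
  intro x hx s s' hs hss hs0
  have hs' : 0 < s' := lt_of_lt_of_le hs hss
  obtain ⟨a, ha⟩ := hu.exists_opt hL hs x
  have hn := ha.norm_le hu hL hs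
  have he := ha.eq hs
  rcases eq_or_lt_of_le (norm_nonneg a) with h0 | h0
  · have ha0 : a = 0 := norm_eq_zero.1 h0.symm
    subst ha0
    have h1 := hu.le_ep hs' x 0
    simp only [smul_zero, add_zero, norm_zero, sub_self] at he h1
    have h2 : ep u s x = 0 := by
      have : s * ep u s x = 0 := by rw [he]; ring
      rcases mul_eq_zero.1 this with h | h
      · exact absurd h hs.ne'
      · exact h
    rw [h2]
    by_contra hc
    push Not at hc
    nlinarith [mul_pos hs' (neg_pos.2 hc)]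
  · have hr0 : 0 < s' * ‖a‖ := mul_pos hs' h0
    have hrr : s' * ‖a‖ ≤ rad := by
      calc s' * ‖a‖ ≤ s0 * (2 * L) := mul_le_mul hs0 hn h0.le (by linarith)
        _ ≤ rad := by linarith
    have hm : ∀ z, ‖z - x‖ ≤ s' * ‖a‖ →
        u z ≤ u x + s' * ep u s' x + s' * ‖a‖ ^ 2 / 2 := by
      intro z hz
      have h1 := hu.le_ep hs' x (s'⁻¹ • (z - x))
      rw [smul_smul, mul_inv_cancel₀ hs'.ne', one_smul, add_sub_cancel] at h1
      have h2 : ‖s'⁻¹ • (z - x)‖ ≤ ‖a‖ := by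
        rw [norm_smul, Real.norm_eq_abs, abs_of_pos (inv_pos.2 hs'), inv_mul_le_iff₀ hs']
        exact hz
      have h3 : ‖s'⁻¹ • (z - x)‖ ^ 2 ≤ ‖a‖ ^ 2 := pow_le_pow_left₀ (norm_nonneg _) h2 2
      nlinarith [mul_le_mul_of_nonneg_left h3 hs'.le]
    have hy : ‖x + s • a - x‖ = s * ‖a‖ := by
      rw [add_sub_cancel_left, norm_smul, Real.norm_eq_abs, abs_of_pos hs]
    have h5 := hS x hx _ hr0 hrr _ hm (x + s • a)
      (by rw [hy]; exact mul_le_mul_of_nonneg_right hss h0.le)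
    rw [hy] at h5
    have h6 : u (x + s • a) - u x = s * ep u s x + s * ‖a‖ ^ 2 / 2 := by linarith
    rw [h6] at h5
    have h7 : (s * s' * ‖a‖) * ep u s x ≤ (s * s' * ‖a‖) * ep u s' x := by nlinarith
    exact le_of_mul_le_mul_left h7 (by positivity)

theorem Mono.two_Tp_le {s0 : ℝ} (h : Mono u D s0) (hx : ‖x‖ ≤ D) (hs : 0 < s)
    (h2 : 2 * s ≤ s0) : 2 * Tp u s x ≤ u x + Tp u (2 * s) x := by
  have h1 := h x hx s (2 * s) hs (by linarith) h2
  rw [Tp_eq hs, Tp_eq (by linarith : 0 < 2 * s)]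
  nlinarith

theorem Cyl.neg (h : Cyl u C R ρ x p κ) : Cyl (-u) C R ρ x (-p) κ := by
  intro t y ht
  have h1 := h (-t) y (by rwa [abs_neg])
  rw [← abs_neg]
  convert h1 using 2
  simp only [Pi.neg_apply, smul_neg, neg_smul, inner_neg_left, norm_neg]
  ring

theorem Pk.neg (h : Pk u L C R ρ1 D) : Pk (-u) L C R ρ1 D where
  lip := h.lip.neg
  hL := h.hL
  hC := h.hC
  hR := h.hR
  mono := h.monoN
  monoN := by rw [neg_neg]; exact h.mono
  cyl := fun x hx ρ h0 h1 => by
    obtain ⟨p, κ, hc⟩ := h.cyl x hx ρ h0 h1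
    exact ⟨-p, κ, hc.neg⟩

theorem Pk.four_le (h : Pk u L C R ρ1 D) : 4 ≤ R := by linarith [h.hC, h.hR]

/-- A vector whose pairing with all vectors of norm `r` is at most `m` has norm `≤ m / r`. -/
theorem norm_le_of_inner {v : E} {r m : ℝ} (hr : 0 < r) (hm : 0 ≤ m)
    (h : ∀ y : E, ‖y‖ = r → ⟪v, y⟫ ≤ m) : r * ‖v‖ ≤ m := by
  rcases eq_or_lt_of_le (norm_nonneg v) with h0 | h0
  · rw [← h0]; simpa using hm
  · have h1 := h ((r / ‖v‖) • v) (by
      rw [norm_smul, Real.norm_eq_abs, abs_of_pos (div_pos hr h0)]; field_simp)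
    rw [inner_smul_right, real_inner_self_eq_norm_sq] at h1
    have : r / ‖v‖ * ‖v‖ ^ 2 = r * ‖v‖ := by field_simp
    linarith

theorem Cyl.zero (h : Cyl u C R ρ x p κ) (hρ : 0 < ρ) (hR : 0 < R) (y : E) :
    |u (x + y) - u x - ⟪p, y⟫| ≤ C * (ρ + ‖y‖ ^ 2 / ρ) := by
  have := h 0 y (by rw [abs_zero]; positivity)
  simpa using this

theorem Cyl.norm_le (h : Cyl u C R ρ x p κ) (hu : Lip u L) (hL : 0 ≤ L) (hC : 0 ≤ C)
    (hρ : 0 < ρ) (hR : 0 < R) : ‖p‖ ≤ L + 2 * C := by
  have h1 : ρ * ‖p‖ ≤ ρ * (L + 2 * C) := by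
    refine norm_le_of_inner hρ (by positivity) fun y hy => ?_
    have h2 := (abs_le.1 (h.zero hρ hR y)).1
    have h3 := hu.add_le x y
    rw [hy] at h2 h3
    have : ρ ^ 2 / ρ = ρ := by field_simp
    rw [this] at h2
    linarith
  exact le_of_mul_le_mul_left h1 hρ

end

section
variable {E : Type*} [NormedAddCommGroup E] [InnerProductSpace ℝ E]
variable {ι : Type} [Fintype ι]

theorem card_pos' [Nonempty ι] : (0 : ℝ) < Fintype.card ι := by
  exact_mod_cast Fintype.card_pos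

theorem av_add (f g : ι → ℝ) : av (fun i => f i + g i) = av f + av g := by
  unfold av; rw [Finset.sum_add_distrib]; ring

theorem av_sub (f g : ι → ℝ) : av (fun i => f i - g i) = av f - av g := by
  unfold av; rw [Finset.sum_sub_distrib]; ring

theorem av_mul (c : ℝ) (f : ι → ℝ) : av (fun i => c * f i) = c * av f := by
  unfold av; rw [← Finset.mul_sum]; ring

theorem av_neg (f : ι → ℝ) : av (fun i => -f i) = -av f := by
  unfold av; rw [Finset.sum_neg_distrib]; ring

theorem av_const [Nonempty ι] (c : ℝ) : av (fun _ : ι => c) = c := by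
  unfold av
  have := card_pos' (ι := ι)
  simp only [Finset.sum_const, Finset.card_univ, nsmul_eq_mul]
  field_simp

theorem av_mono {f g : ι → ℝ} (h : ∀ i, f i ≤ g i) : av f ≤ av g := by
  unfold av
  exact div_le_div_of_nonneg_right (Finset.sum_le_sum fun i _ => h i) (Nat.cast_nonneg _)

theorem av_nonneg {f : ι → ℝ} (h : ∀ i, 0 ≤ f i) : 0 ≤ av f :=
  div_nonneg (Finset.sum_nonneg fun i _ => h i) (Nat.cast_nonneg _)

theorem av_inner (v : E) (B : ι → E) : av (fun i => ⟪v, B i⟫) = ⟪v, cen B⟫ := by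
  unfold av cen
  rw [inner_smul_right, inner_sum]
  ring

theorem cen_add (B B' : ι → E) : cen (fun i => B i + B' i) = cen B + cen B' := by
  unfold cen; rw [Finset.sum_add_distrib, smul_add]

theorem cen_sub (B B' : ι → E) : cen (fun i => B i - B' i) = cen B - cen B' := by
  unfold cen; rw [Finset.sum_sub_distrib, smul_sub]

theorem cen_smul (c : ℝ) (B : ι → E) : cen (fun i => c • B i) = c • cen B := by
  unfold cen; rw [← Finset.smul_sum, smul_comm]

theorem cen_const [Nonempty ι] (v : E) : cen (fun _ : ι => v) = v := by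
  unfold cen
  have := card_pos' (ι := ι)
  rw [Finset.sum_const, Finset.card_univ, ← Nat.cast_smul_eq_nsmul ℝ, smul_smul,
    inv_mul_cancel₀ this.ne', one_smul]

theorem cen_sub_cen [Nonempty ι] (B : ι → E) : cen (fun i => B i - cen B) = 0 := by
  rw [cen_sub, cen_const, sub_self]

omit [InnerProductSpace ℝ E] in
theorem nrm_nonneg (B : ι → E) : 0 ≤ nrm B := Real.sqrt_nonneg _

omit [InnerProductSpace ℝ E] in
theorem nrm_sq (B : ι → E) : nrm B ^ 2 = av fun i => ‖B i‖ ^ 2 :=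
  Real.sq_sqrt (av_nonneg fun _ => sq_nonneg _)

theorem rms_nonneg (B : ι → E) : 0 ≤ rms B := nrm_nonneg _

theorem rms_sq (B : ι → E) : rms B ^ 2 = av fun i => ‖B i - cen B‖ ^ 2 := nrm_sq _

omit [InnerProductSpace ℝ E] in
theorem nrm_le_of_sq {B : ι → E} {m : ℝ} (hm : 0 ≤ m) (h : (av fun i => ‖B i‖ ^ 2) ≤ m ^ 2) :
    nrm B ≤ m := by
  rw [← nrm_sq] at h
  exact (pow_le_pow_iff_left₀ (nrm_nonneg B) hm two_ne_zero).1 h

/-- Pythagoras: mean square distance to any point. -/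
theorem av_sq_sub [Nonempty ι] (B : ι → E) (v : E) :
    (av fun i => ‖B i - v‖ ^ 2) = rms B ^ 2 + ‖cen B - v‖ ^ 2 := by
  have h1 : ∀ i, ‖B i - v‖ ^ 2
      = ‖B i - cen B‖ ^ 2 + (2 * ⟪cen B - v, B i - cen B⟫ + ‖cen B - v‖ ^ 2) := by
    intro i
    have : B i - v = (B i - cen B) + (cen B - v) := by abel
    rw [this, norm_add_sq_real, real_inner_comm]
    ring
  simp only [h1]
  rw [av_add, av_add, av_mul, av_inner, cen_sub_cen, av_const, rms_sq]
  simp

theorem nrm_sub_sq [Nonempty ι] (B : ι → E) (v : E) :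
    nrm (fun i => B i - v) ^ 2 = rms B ^ 2 + ‖cen B - v‖ ^ 2 := by
  rw [nrm_sq, av_sq_sub]

theorem rms_le_nrm_sub [Nonempty ι] (B : ι → E) (v : E) : rms B ≤ nrm fun i => B i - v := by
  have h := nrm_sub_sq B v
  exact (pow_le_pow_iff_left₀ (rms_nonneg B) (nrm_nonneg _) two_ne_zero).1
    (by nlinarith [sq_nonneg ‖cen B - v‖])

theorem norm_cen_sub_le [Nonempty ι] (B : ι → E) (v : E) :
    ‖cen B - v‖ ≤ nrm fun i => B i - v := by
  have h := nrm_sub_sq B v
  exact (pow_le_pow_iff_left₀ (norm_nonneg _) (nrm_nonneg _) two_ne_zero).1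
    (by nlinarith [sq_nonneg (rms B)])

/-- Cauchy-Schwarz for averages. -/
theorem av_mul_le (f g : ι → ℝ) :
    (av fun i => f i * g i) ≤ √(av fun i => f i ^ 2) * √(av fun i => g i ^ 2) := by
  rw [← Real.sqrt_mul (av_nonneg fun _ => sq_nonneg _)]
  refine Real.le_sqrt_of_sq_le ?_
  unfold av
  have := Finset.sum_mul_sq_le_sq_mul_sq Finset.univ f g
  rw [div_pow, div_mul_div_comm, ← sq]
  exact div_le_div_of_nonneg_right this (sq_nonneg _)

theorem av_inner_le (B B' : ι → E) : (av fun i => ⟪B i, B' i⟫) ≤ nrm B * nrm B' :=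
  (av_mono fun i => real_inner_le_norm (B i) (B' i)).trans
    (av_mul_le (fun i => ‖B i‖) fun i => ‖B' i‖)

omit [InnerProductSpace ℝ E] in
theorem av_norm_le [Nonempty ι] (B : ι → E) : (av fun i => ‖B i‖) ≤ nrm B := by
  have := av_mul_le (fun i => ‖B i‖) (fun _ => 1)
  simpa [av_const, nrm] using this

theorem nrm_add_le (B B' : ι → E) : nrm (fun i => B i + B' i) ≤ nrm B + nrm B' := by
  refine nrm_le_of_sq (add_nonneg (nrm_nonneg _) (nrm_nonneg _)) ?_
  have h1 : ∀ i, ‖B i + B' i‖ ^ 2 = ‖B i‖ ^ 2 + (2 * ⟪B i, B' i⟫ + ‖B' i‖ ^ 2) := by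
    intro i; rw [norm_add_sq_real]; ring
  simp only [h1]
  rw [av_add, av_add, av_mul, ← nrm_sq, ← nrm_sq]
  nlinarith [av_inner_le B B']

theorem nrm_smul (c : ℝ) (B : ι → E) : nrm (fun i => c • B i) = |c| * nrm B := by
  unfold nrm
  simp only [norm_smul, mul_pow, Real.norm_eq_abs]
  rw [av_mul, Real.sqrt_mul (sq_nonneg _), Real.sqrt_sq (abs_nonneg c)]

omit [InnerProductSpace ℝ E] in
theorem nrm_const [Nonempty ι] (v : E) : nrm (fun _ : ι => v) = ‖v‖ := by
  unfold nrm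
  rw [av_const, Real.sqrt_sq (norm_nonneg v)]

omit [InnerProductSpace ℝ E] in
theorem nrm_le_of_forall [Nonempty ι] {B : ι → E} {m : ℝ} (hm : 0 ≤ m) (h : ∀ i, ‖B i‖ ≤ m) :
    nrm B ≤ m := by
  refine nrm_le_of_sq hm ?_
  rw [← av_const (ι := ι) (m ^ 2)]
  exact av_mono fun i => pow_le_pow_left₀ (norm_nonneg _) (h i) 2

omit [InnerProductSpace ℝ E] in
theorem norm_le_nrm [Nonempty ι] (B : ι → E) (i : ι) :
    ‖B i‖ ≤ √(Fintype.card ι : ℝ) * nrm B := by
  have hN := card_pos' (ι := ι)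
  unfold nrm
  rw [← Real.sqrt_mul hN.le]
  refine Real.le_sqrt_of_sq_le ?_
  unfold av
  rw [mul_div_cancel₀ _ hN.ne']
  exact Finset.single_le_sum (f := fun i => ‖B i‖ ^ 2) (fun j _ => sq_nonneg _)
    (Finset.mem_univ i)

theorem rms_add_smul (B a : ι → E) (c : ℝ) :
    rms (fun i => B i + c • a i) = nrm fun i => (B i - cen B) + c • (a i - cen a) := by
  unfold rms
  congr 1
  funext i
  rw [cen_add, cen_smul]
  beta_reduce
  module

theorem rms_add_smul_le (B a : ι → E) (c : ℝ) :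
    rms (fun i => B i + c • a i) ≤ rms B + |c| * rms a := by
  rw [rms_add_smul]
  refine (nrm_add_le _ _).trans ?_
  rw [nrm_smul]
  exact le_rfl

theorem le_rms_add_smul (B a : ι → E) (c : ℝ) :
    rms B - |c| * rms a ≤ rms (fun i => B i + c • a i) := by
  have h := rms_add_smul_le (fun i => B i + c • a i) a (-c)
  have h1 : (fun i => B i + c • a i + (-c) • a i) = B := by
    funext i; simp
  rw [h1, abs_neg] at h
  linarith

/-- Rescaled configuration: barycenter. -/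
theorem cen_affine [Nonempty ι] (x : E) (c : ℝ) (B : ι → E) :
    cen (fun i => x + c • B i) = x + c • cen B := by
  rw [cen_add, cen_const, cen_smul]

/-- Rescaled configuration: root mean square radius. -/
theorem rms_affine [Nonempty ι] (x : E) (c : ℝ) (B : ι → E) :
    rms (fun i => x + c • B i) = |c| * rms B := by
  unfold rms
  rw [← nrm_smul, cen_affine]
  congr 1
  funext i
  beta_reduce
  module

theorem GN_neg (u : E → ℝ) (B : ι → E) : GN (-u) B = -GN u B := by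
  unfold GN
  simp only [Pi.neg_apply]
  rw [av_neg]
  ring

theorem Lip.GN_le [Nonempty ι] {u : E → ℝ} {L : ℝ} (h : Lip u L) (hL : 0 ≤ L) (B : ι → E) :
    GN u B ≤ L * rms B := by
  unfold GN
  have h1 : av (fun i => u (B i)) ≤ av fun i => u (cen B) + L * ‖B i - cen B‖ :=
    av_mono fun i => by linarith [h (B i) (cen B)]
  rw [av_add, av_const, av_mul] at h1
  have h2 : (av fun i => ‖B i - cen B‖) ≤ rms B := av_norm_le _
  nlinarith [mul_le_mul_of_nonneg_left h2 hL]

theorem GN_eq_zero [Nonempty ι] (u : E → ℝ) {B : ι → E} (h : rms B = 0) : GN u B = 0 := by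
  have h1 : ∀ i, B i = cen B := by
    intro i
    have h2 := norm_le_nrm (fun i => B i - cen B) i
    have h3 : nrm (fun i => B i - cen B) = 0 := h
    rw [h3, mul_zero] at h2
    exact sub_eq_zero.1 (norm_le_zero_iff.1 h2)
  unfold GN
  have : (fun i => u (B i)) = fun _ => u (cen B) := by funext i; rw [← h1 i]
  rw [this, av_const, sub_self]

end

end Vale.Agent.P080
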