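import Vale.Agent.P080.Coh0

/-!
# P080: coherence of the slopes along the gradient direction
-/

namespace Vale.Agent.P080

open scoped RealInnerProductSpace

section
variable {E : Type*} [NormedAddCommGroup E] [InnerProductSpace ℝ E]
variable {u : E → ℝ} {L C0 W Dst rad θ z z' τ n : ℝ}

/-- local and global slope at scale `ρ` -/
def Sl (u : E → ℝ) (C0 ρ z : ℝ) (x q : E) : Prop :=
  Loc u x ρ (C0 * z) q ∧ Glo u x ρ (7 * (C0 * z)) q

/-- existence and coherence of slopes at scale `θ ^ 2` -/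
structure St (u : E → ℝ) (C0 Dst θ z : ℝ) : Prop where
  ex : ∀ x : E, ‖x‖ ≤ Dst * (1 + 3 / 2 * θ) → ∃ q, Sl u C0 (θ ^ 2) z x q
  co : ∀ (x p q : E) (τ : ℝ), ‖x‖ ≤ Dst * (1 + θ) → Sl u C0 (θ ^ 2) z x p →
    (278 * C0) ^ 2 * z * |τ| ≤ θ ^ 2 → Sl u C0 (θ ^ 2) z (x + τ • p) q → ‖q - p‖ ≤ 172 * C0 * z

theorem shift_le (hC : 1 ≤ C0) (hθ : 0 < θ) (hW : θ ≤ W) (hz : 0 < z) (hL : 0 ≤ L)
    (hLθ : L * θ ≤ z * W) (hn : n ≤ L + 2 * C0 * z)
    (hτ : (278 * C0) ^ 2 * z * |τ| ≤ θ ^ 2) : 2 * |τ| * n ≤ θ * W := by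
  have h0 := abs_nonneg τ
  have hA : 0 ≤ L + 2 * C0 * z := by positivity
  have h1 : 2 * |τ| * n ≤ 2 * |τ| * (L + 2 * C0 * z) :=
    mul_le_mul_of_nonneg_left hn (by positivity)
  have h2 : 6 * C0 * z * |τ| ≤ θ ^ 2 := by
    refine le_trans ?_ hτ
    have : 6 * C0 ≤ (278 * C0) ^ 2 := by nlinarith
    exact mul_le_mul_of_nonneg_right (mul_le_mul_of_nonneg_right this hz.le) h0
  have h3 := mul_le_mul_of_nonneg_right h2 hA
  have h4 : θ ^ 2 * (L + 2 * C0 * z) ≤ 3 * C0 * z * (θ * W) := by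
    have k1 := mul_le_mul_of_nonneg_left hLθ hθ.le
    have k2 : θ ^ 2 ≤ θ * W := by nlinarith
    have k3 := mul_le_mul_of_nonneg_left k2 (by positivity : 0 ≤ 2 * C0 * z)
    have k4 : 0 ≤ (C0 - 1) * (z * (θ * W)) :=
      mul_nonneg (by linarith) (mul_nonneg hz.le (mul_nonneg hθ.le (by linarith)))
    nlinarith
  have h5 : (3 * C0 * z) * (2 * |τ| * (L + 2 * C0 * z)) ≤ (3 * C0 * z) * (θ * W) := by nlinarith
  exact h1.trans (le_of_mul_le_mul_left h5 (by positivity))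

theorem h16_of (hC : 1 ≤ C0) (hz : 0 < z) (hτ : (278 * C0) ^ 2 * z * |τ| ≤ θ ^ 2) :
    16 * (7 * (C0 * z)) * |τ| ≤ θ ^ 2 := by
  refine le_trans ?_ hτ
  have h1 : 112 * C0 ≤ (278 * C0) ^ 2 := by nlinarith
  have := mul_le_mul_of_nonneg_right h1 (by positivity : 0 ≤ z * |τ|)
  linarith

theorem hr_of (hθ : 0 < θ) (hW : θ ≤ W) (hrad : 2 * W ^ 2 ≤ rad) (h : 2 * |τ| * L ≤ θ * W) :
    2 * L * (2 * |τ|) ≤ rad := by
  have : θ * W ≤ W ^ 2 := by nlinarith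
  linarith

theorem small_of (hθ : 0 < θ) (hW : θ ≤ W) (hD : 8 * W ≤ Dst) :
    θ * W ≤ Dst * θ / 8 ∧ θ ^ 2 ≤ Dst * θ / 8 := by
  constructor <;> nlinarith

theorem St.base (hu : Lip u L) (hL : 0 ≤ L) (hC : 1 ≤ C0) (hθ : 0 < θ) (hz : L ≤ z) :
    St u C0 Dst θ z := by
  have hz0 : 0 ≤ z := hL.trans hz
  have hρ : 0 < θ ^ 2 := by positivity
  have hzC : z ≤ C0 * z := by nlinarith
  constructor
  · intro x _
    have key : ∀ y : E, |u (x + y) - u x - ⟪(0 : E), y⟫| ≤ C0 * z * ‖y‖ := by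
      intro y
      have := hu.abs_le (x + y) x
      rw [add_sub_cancel_left] at this
      rw [inner_zero_left, sub_zero]
      exact this.trans (mul_le_mul_of_nonneg_right (by linarith) (norm_nonneg _))
    refine ⟨0, fun y hy => (key y).trans (mul_le_mul_of_nonneg_left hy (by positivity)),
      fun y => (key y).trans ?_⟩
    exact mul_le_mul (by nlinarith) (norm_le_add_sq_div hρ y) (norm_nonneg _) (by positivity)
  · intro x p q τ _ hp _ hq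
    have h1 := hp.1.norm_le hu hL (by positivity) hρ
    have h2 := hq.1.norm_le hu hL (by positivity) hρ
    have := norm_sub_le q p
    nlinarith

theorem norm_add_smul_le (x p : E) (τ : ℝ) : ‖x + τ • p‖ ≤ ‖x‖ + |τ| * ‖p‖ := by
  have := norm_add_le x (τ • p)
  rwa [norm_smul, Real.norm_eq_abs] at this

variable [FiniteDimensional ℝ E]

theorem St.step (hu : Lip u L) (hL : 0 ≤ L) (hC : 1 ≤ C0) (hθ : 0 < θ) (hW : 2 * θ ≤ W)
    (hD : 8 * W ≤ Dst) (hrad : 2 * W ^ 2 ≤ rad) (hS : Sub u (Dst * (1 + W)) rad)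
    (hS' : Sub (-u) (Dst * (1 + W)) rad) (hz : 0 < z) (hz' : 0 ≤ z') (hzz : z' ≤ 3 / 2 * z)
    (hLθ : L * θ ≤ z * W) (h : St u C0 Dst (2 * θ) z')
    (hl : ∀ x : E, ‖x‖ ≤ Dst * (1 + 3 / 2 * θ) → ∃ q, Loc u x (θ ^ 2) (C0 * z) q) :
    St u C0 Dst θ z := by
  have hρ : 0 < θ ^ 2 := by positivity
  have e4 : (2 * θ) ^ 2 = 4 * θ ^ 2 := by ring
  have hD0 : 0 ≤ Dst := by linarith
  have hθD : 0 ≤ Dst * θ := by positivity
  have hCz : C0 * z' ≤ 3 / 2 * (C0 * z) := by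
    linarith [mul_le_mul_of_nonneg_left hzz (by linarith : 0 ≤ C0)]
  have hCz0 : 0 ≤ C0 * z' := by positivity
  have hCz1 : 0 ≤ C0 * z := by positivity
  have hex : ∀ x : E, ‖x‖ ≤ Dst * (1 + 3 / 2 * θ) → ∃ q, Sl u C0 (θ ^ 2) z x q := by
    intro x hx
    obtain ⟨q, hq⟩ := hl x hx
    obtain ⟨Q, hQ⟩ := h.ex x (by linarith)
    rw [e4] at hQ
    exact ⟨q, hq, hq.glo hQ.1 hQ.2 hCz0 hCz hρ⟩
  refine ⟨hex, fun x p p1 τ hx hp hτ hp1 => ?_⟩
  have hτ0 := abs_nonneg τ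
  obtain ⟨hθW, hρW⟩ := small_of hθ (by linarith : θ ≤ W) hD
  have np := hp.1.norm_le hu hL hCz1 hρ
  have sp := shift_le hC hθ (by linarith) hz hL hLθ (n := ‖p‖) (by linarith) hτ
  have sL := shift_le hC hθ (by linarith) hz hL hLθ (n := L) (by linarith) hτ
  have a2 : |2 * τ| = 2 * |τ| := by rw [abs_mul, abs_two]
  have n2 : ‖x + (2 * τ) • p‖ ≤ Dst * (1 + θ) + Dst * θ / 8 := by
    have := norm_add_smul_le x p (2 * τ)
    rw [a2] at this
    linarith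
  obtain ⟨p2, hp2⟩ := hex (x + (2 * τ) • p) (by linarith)
  obtain ⟨P, hP⟩ := h.ex x (by linarith)
  have nP := hP.1.norm_le hu hL hCz0 (by positivity)
  have sP := shift_le hC hθ (by linarith) hz hL hLθ (n := ‖P‖) (by linarith) hτ
  have N2 : ‖x + (2 * τ) • P‖ ≤ Dst * (1 + θ) + Dst * θ / 8 := by
    have := norm_add_smul_le x P (2 * τ)
    rw [a2] at this
    linarith
  obtain ⟨P2, hP2⟩ := h.ex (x + (2 * τ) • P) (by linarith)
  have c1 : ‖P2 - P‖ ≤ 172 * C0 * z' := by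
    refine h.co x P P2 (2 * τ) (by linarith) hP ?_ hP2
    rw [a2, e4]
    have := mul_le_mul_of_nonneg_right hzz (by positivity : 0 ≤ (278 * C0) ^ 2 * |τ|)
    linarith
  rw [e4] at hP hP2
  have c2 : ‖P - p‖ ≤ 7 * (C0 * z) := by linarith [hp.1.sub_le0 hP.1 hCz1 hCz0 hρ]
  have h16 := h16_of hC hz hτ
  have c3 : ‖P2 - p2‖ ≤ 13 * (C0 * z) := by
    have e : x + (2 * τ) • p = x + (2 * τ) • P + (2 * τ) • (p - P) := by module
    have k := hp2.1
    rw [e] at k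
    have hd : ‖(2 * τ) • (p - P)‖ ≤ θ ^ 2 := by
      rw [norm_smul, Real.norm_eq_abs, a2, norm_sub_rev]
      have := mul_le_mul_of_nonneg_left c2 (by positivity : 0 ≤ 2 * |τ|)
      linarith [mul_nonneg hCz1 hτ0]
    linarith [k.sub_le hP2.1 hd hCz1 hCz0 hρ]
  have c4 : ‖p2 - p‖ ≤ 278 * C0 * z := by
    have e : p2 - p = (P2 - P) + (P - p) - (P2 - p2) := by abel
    rw [e]
    have k1 := norm_sub_le ((P2 - P) + (P - p)) (P2 - p2)
    have k2 := norm_add_le (P2 - P) (P - p)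
    linarith
  have hr := hr_of hθ (by linarith : θ ≤ W) hrad sL
  have hDW : Dst * (2 * θ) ≤ Dst * W := mul_le_mul_of_nonneg_left hW hD0
  have T := (three (x0 := x) (x1 := x + τ • p) (x2 := x + (2 * τ) • p) (v := p) (τ := τ)
    (c := 278 * C0 * z) hu (mono_of_sub hu hL hS hr) (mono_of_sub hu.neg hL hS' hr) le_rfl hρ
    (by positivity) h16 (by module) (by module) hp.2 hp1.2 hp2.2
    (by rw [sub_self, norm_zero]; positivity) c4 (by linarith) (by linarith)).2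
  have c5 : ‖p1 + p1 - p - p2‖ ≤ 65 * C0 * z := by
    have k1 := mul_le_mul_of_nonneg_right hτ (by positivity : 0 ≤ 2 * z)
    have k2 : θ ^ 2 * z ≤ θ ^ 2 * (C0 * z) :=
      mul_le_mul_of_nonneg_left (le_mul_of_one_le_left hz.le hC) hρ.le
    have : θ ^ 2 * ‖p1 + p1 - p - p2‖ ≤ θ ^ 2 * (65 * C0 * z) := by linarith
    exact le_of_mul_le_mul_left this hρ
  have e : (p1 - p) + (p1 - p) = (p2 - p) + (p1 + p1 - p - p2) := by abel
  have k1 := norm_add_le (p2 - p) (p1 + p1 - p - p2)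
  rw [← e, ← two_smul ℝ, norm_smul, Real.norm_eq_abs, abs_two] at k1
  linarith

theorem St.cyl (hu : Lip u L) (hL : 0 ≤ L) (hC : 1 ≤ C0) (hθ : 0 < θ) (hW : θ ≤ W)
    (hD : 8 * W ≤ Dst) (hrad : 2 * W ^ 2 ≤ rad) (hS : Sub u (Dst * (1 + W)) rad)
    (hS' : Sub (-u) (Dst * (1 + W)) rad) (hz : 0 < z) (hz3 : z ≤ 3)
    (hLθ : L * θ ≤ z * W) (h : St u C0 Dst θ z) {x : E} (hx : ‖x‖ ≤ Dst) :
    ∃ p κ, Cyl u (717 * C0) (3 * (278 * C0) ^ 2) (θ ^ 2) x p κ := by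
  have hρ : 0 < θ ^ 2 := by positivity
  have hD0 : 0 ≤ Dst := by linarith
  have hθD : 0 ≤ Dst * θ := by positivity
  have hCz1 : 0 ≤ C0 * z := by positivity
  obtain ⟨hθW, hρW⟩ := small_of hθ hW hD
  have hDW : Dst * θ ≤ Dst * W := mul_le_mul_of_nonneg_left hW hD0
  obtain ⟨a, ha⟩ : ∃ a, a = θ ^ 2 / (3 * (278 * C0) ^ 2) := ⟨_, rfl⟩
  have ha0 : 0 < a := by rw [ha]; positivity
  have hτ : ∀ t : ℝ, |t| ≤ a → (278 * C0) ^ 2 * z * |t| ≤ θ ^ 2 := by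
    intro t ht
    have e : 3 * (278 * C0) ^ 2 * a = θ ^ 2 := by rw [ha]; field_simp
    have k1 := mul_le_mul hz3 ht (abs_nonneg t) (by norm_num)
    have k2 := mul_le_mul_of_nonneg_left k1 (by positivity : 0 ≤ (278 * C0) ^ 2)
    linarith
  obtain ⟨p, hp⟩ := h.ex x (by linarith)
  have np := hp.1.norm_le hu hL hCz1 hρ
  have nt : ∀ t : ℝ, |t| ≤ a → ‖x + t • p‖ ≤ Dst + Dst * θ / 8 := by
    intro t ht
    have sp := shift_le hC hθ hW hz hL hLθ (n := ‖p‖) (by linarith) (hτ t ht)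
    have := norm_add_smul_le x p t
    linarith [mul_nonneg (abs_nonneg t) (norm_nonneg p)]
  have hq : ∀ t : ℝ, |t| ≤ a →
      ∃ q, Glo u (x + t • p) (θ ^ 2) (7 * (C0 * z)) q ∧ ‖q - p‖ ≤ 172 * C0 * z := by
    intro t ht
    obtain ⟨q, hq⟩ := h.ex (x + t • p) (by linarith [nt t ht])
    exact ⟨q, hq.2, h.co x p q t (by linarith) hp (hτ t ht) hq⟩
  have hg : ContinuousOn (fun t : ℝ => u (x + t • p)) (Set.Icc (-a) a) := by
    have := hu.continuous hL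
    fun_prop
  have hch := chord (M := 30 * (C0 * z) * θ ^ 2) (by linarith : -a < a) hg (by
    intro s t ht h1 h2
    have t0 : |s - t| ≤ a := abs_le.2 ⟨h1, by linarith⟩
    have t1 : |s| ≤ a := abs_le.2 ⟨by linarith, by linarith⟩
    have t2 : |s + t| ≤ a := abs_le.2 ⟨by linarith, h2⟩
    have t3 : |t| ≤ a := abs_le.2 ⟨by linarith, by linarith⟩
    obtain ⟨q0, g0, b0⟩ := hq _ t0
    obtain ⟨q1, g1, -⟩ := hq _ t1
    obtain ⟨q2, g2, b2⟩ := hq _ t2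
    have k := hτ t t3
    have ht0 := abs_nonneg t
    have sL := shift_le hC hθ hW hz hL hLθ (n := L) (by linarith) k
    have hr := hr_of hθ hW hrad sL
    have h16 := h16_of hC hz k
    have T := (three (v := p) (τ := t) hu (mono_of_sub hu hL hS hr)
      (mono_of_sub hu.neg hL hS' hr) le_rfl hρ (by positivity) h16 (by module) (by module)
      g0 g1 g2 b0 b2 (by linarith [nt _ t0]) (by linarith [nt _ t2])).1
    refine T.trans ?_
    have k1 := mul_le_mul_of_nonneg_right k (by positivity : 0 ≤ 2 * z)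
    have k2 : θ ^ 2 * z ≤ θ ^ 2 * (C0 * z) :=
      mul_le_mul_of_nonneg_left (le_mul_of_one_le_left hz.le hC) hρ.le
    have k3 : 0 ≤ |t| * (C0 * z) ^ 2 := by positivity
    linarith)
  obtain ⟨sl, hsl⟩ : ∃ sl, sl = (u (x + a • p) - u (x + (-a) • p)) / (2 * a) := ⟨_, rfl⟩
  refine ⟨p, sl - ‖p‖ ^ 2 / 2, fun t y ht => ?_⟩
  rw [← ha] at ht
  obtain ⟨q, g, b⟩ := hq t ht
  have k0 := abs_le.1 (hch 0 ⟨by linarith, ha0.le⟩)
  have k1 := abs_le.1 (hch t (abs_le.1 ht))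
  have e : ∀ s : ℝ, (s - -a) / (a - -a) * (u (x + a • p) - u (x + (-a) • p)) = (s + a) * sl := by
    intro s
    rw [hsl]
    field_simp
    ring
  simp only [e, zero_smul, add_zero, zero_add] at k0 k1
  have k2 := abs_le.1 (g y)
  have k3 : |⟪q - p, y⟫| ≤ 172 * C0 * z * (θ ^ 2 + ‖y‖ ^ 2 / θ ^ 2) :=
    (abs_real_inner_le_norm _ _).trans
      (mul_le_mul b (norm_le_add_sq_div hρ y) (norm_nonneg _) (by positivity))
  rw [inner_sub_left] at k3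
  have k4 := abs_le.1 k3
  obtain ⟨N, hN⟩ : ∃ N, N = ‖y‖ ^ 2 / θ ^ 2 := ⟨_, rfl⟩
  have hN0 : 0 ≤ N := by rw [hN]; positivity
  rw [← hN] at k2 k4 ⊢
  have k5 : C0 * z * N ≤ C0 * 3 * N :=
    mul_le_mul_of_nonneg_right (mul_le_mul_of_nonneg_left hz3 (by linarith)) hN0
  have k6 : C0 * z * θ ^ 2 ≤ C0 * 3 * θ ^ 2 :=
    mul_le_mul_of_nonneg_right (mul_le_mul_of_nonneg_left hz3 (by linarith)) hρ.le
  have k7 : 0 ≤ C0 * N := by positivity
  rw [abs_le]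
  constructor <;> linarith [k0.1, k0.2, k1.1, k1.2, k2.1, k2.2, k4.1, k4.2]

end

/-- Zygmund bounds at all scales and comparison with cones give the package `Pk`. -/
theorem pk_of (E : Type*) [NormedAddCommGroup E] [InnerProductSpace ℝ E]
    [FiniteDimensional ℝ E] :
    ∃ C R : ℝ, 1 ≤ C ∧ 4 * C ≤ R ∧ ∀ (u : E → ℝ) (L γ Dst ρ1 rad : ℝ) (K i1 : ℕ),
      Lip u L → 0 ≤ L → 1 ≤ γ → γ ^ (i1 + 1) ≤ 3 / 2 → L ≤ γ ^ K → i1 ≤ K → ρ1 ≤ 4 ^ i1 →
      R * 2 ^ K ≤ Dst → 4 * 4 ^ K ≤ rad → 2 * L * ρ1 ≤ rad →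
      Sub u (Dst * (1 + 2 ^ K)) rad → Sub (-u) (Dst * (1 + 2 ^ K)) rad →
      (∀ i : ℕ, 1 ≤ i → i ≤ K + 1 → ∀ x h : E, ‖x‖ ≤ Dst * (1 + 2 ^ i) → ‖h‖ ≤ 4 ^ i →
        |u (x + h) + u (x - h) - 2 * u x| ≤ 2 * γ ^ i * ‖h‖) →
      Pk u L C R ρ1 Dst := by
  obtain ⟨C0, hC, hZ⟩ := slope_of_zyg E
  refine ⟨717 * C0, 3 * (278 * C0) ^ 2, by linarith, by nlinarith, ?_⟩
  intro u L γ Dst ρ1 rad K i1 hu hL hγ hγ2 hLK hi hρ1 hR hrad hr hS hS' hz
  have hW : (0 : ℝ) < 2 ^ K := by positivity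
  have hD : 8 * (2 : ℝ) ^ K ≤ Dst :=
    le_trans (mul_le_mul_of_nonneg_right (by nlinarith) hW.le) hR
  have hD0 : 0 ≤ Dst := by linarith
  have e4 : ∀ i : ℕ, (4 : ℝ) ^ i = (2 ^ i) ^ 2 := by
    intro i; rw [← pow_mul, mul_comm, pow_mul]; norm_num
  have hrad' : 2 * ((2 : ℝ) ^ K) ^ 2 ≤ rad := by rw [e4] at hrad; nlinarith
  have hγ3 : γ ≤ 3 / 2 := le_trans (le_self_pow₀ hγ (by omega)) hγ2
  have hLθ : ∀ (m i : ℕ) (θ : ℝ), m + i = K → 0 < θ → θ ≤ 2 ^ i →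
      L * θ ≤ 2 * γ ^ (i + 1) * 2 ^ K := by
    intro m i θ e h0 h1
    have k1 : γ ^ m ≤ 2 ^ m := pow_le_pow_left₀ (by linarith) (by linarith) m
    have k2 : γ ^ i ≤ 2 * γ ^ (i + 1) := by
      have : 0 < γ ^ i := by positivity
      rw [pow_succ]; nlinarith
    calc L * θ ≤ γ ^ K * 2 ^ i := mul_le_mul hLK h1 h0.le (by positivity)
      _ = γ ^ i * (γ ^ m * 2 ^ i) := by rw [← e, pow_add]; ring
      _ ≤ (2 * γ ^ (i + 1)) * (2 ^ m * 2 ^ i) :=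
          mul_le_mul k2 (mul_le_mul_of_nonneg_right k1 (by positivity)) (by positivity)
            (by positivity)
      _ = _ := by rw [← e, pow_add (2 : ℝ)]
  have hSt : ∀ m i : ℕ, m + i = K → ∀ θ : ℝ, 0 < θ → θ ≤ 2 ^ i →
      St u C0 Dst θ (2 * γ ^ (i + 1)) := by
    intro m
    induction m with
    | zero =>
      intro i e θ h0 _
      obtain rfl : i = K := by omega
      refine St.base hu hL hC h0 (hLK.trans ?_)
      have : 0 < γ ^ i := by positivity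
      rw [pow_succ]; nlinarith
    | succ m ih =>
      intro i e θ h0 h1
      have h2 : 2 * θ ≤ 2 ^ (i + 1) := by rw [pow_succ]; linarith
      have h3 : (2 : ℝ) ^ (i + 1) ≤ 2 ^ K := pow_le_pow_right₀ (by norm_num) (by omega)
      have hp : 0 < γ ^ (i + 1) := by positivity
      refine St.step hu hL hC h0 (h2.trans h3) hD hrad' hS hS' (by positivity) (by positivity) ?_
        (hLθ (m + 1) i θ e h0 h1) (ih (i + 1) (by omega) (2 * θ) (by linarith) h2) ?_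
      · rw [pow_succ γ (i + 1)]; nlinarith
      · intro x hx
        refine hZ u x (θ ^ 2) _ (hu.continuous hL) (by positivity) (by positivity)
          fun x' h hx' hh => hz (i + 1) (by omega) (by omega) x' h ?_ ?_
        · have k1 := norm_add_le x (x' - x)
          rw [add_sub_cancel] at k1
          have k2 : θ ^ 2 ≤ Dst * θ / 8 := by nlinarith
          have k3 := mul_le_mul_of_nonneg_left h2 hD0
          nlinarith [mul_nonneg hD0 h0.le]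
        · rw [e4]
          refine hh.trans (pow_le_pow_left₀ h0.le (by linarith) 2)
  have hDle : Dst ≤ Dst * (1 + 2 ^ K) := by nlinarith
  refine ⟨hu, hL, by linarith, by nlinarith,
    fun x hx => mono_of_sub hu hL hS hr x (hx.trans hDle),
    fun x hx => mono_of_sub hu.neg hL hS' hr x (hx.trans hDle), fun x hx ρ h0 h1 => ?_⟩
  have hθ : 0 < √ρ := Real.sqrt_pos.2 h0
  have hθ1 : √ρ ≤ 2 ^ i1 := by
    rw [Real.sqrt_le_left (by positivity), ← e4]; linarith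
  have h3 : (2 : ℝ) ^ i1 ≤ 2 ^ K := pow_le_pow_right₀ (by norm_num) hi
  have := (hSt (K - i1) i1 (by omega) _ hθ hθ1).cyl hu hL hC hθ (hθ1.trans h3) hD hrad' hS hS'
    (by positivity) (by linarith) (hLθ (K - i1) i1 _ (by omega) hθ hθ1) hx
  rwa [Real.sq_sqrt h0.le] at this

end Vale.Agent.P080
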