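import Vale.Agent.P080.Zyg

/-!
# P080: local and global slopes, the three point lemma
-/

namespace Vale.Agent.P080

open scoped RealInnerProductSpace

section
variable {E : Type*} [NormedAddCommGroup E] [InnerProductSpace ℝ E]
variable {u : E → ℝ} {L D s0 τ ρ c c' c1 : ℝ} {x x0 x1 x2 v p q q0 q1 q2 : E}

/-- `q` is a slope of `u` on the ball of radius `ρ` around `x`. -/
def Loc (u : E → ℝ) (x : E) (ρ c : ℝ) (q : E) : Prop :=
  ∀ y, ‖y‖ ≤ ρ → |u (x + y) - u x - ⟪q, y⟫| ≤ c * ρ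

/-- `q` is a slope of `u` at `x` with a global quadratic error. -/
def Glo (u : E → ℝ) (x : E) (ρ c : ℝ) (q : E) : Prop :=
  ∀ y, |u (x + y) - u x - ⟪q, y⟫| ≤ c * (ρ + ‖y‖ ^ 2 / ρ)

theorem Glo.neg (h : Glo u x ρ c q) : Glo (-u) x ρ c (-q) := by
  intro y
  have h1 := h y
  rw [← abs_neg] at h1
  convert h1 using 2
  simp only [Pi.neg_apply, inner_neg_left]
  ring

omit [InnerProductSpace ℝ E] in
theorem norm_le_add_sq_div (hρ : 0 < ρ) (y : E) : ‖y‖ ≤ ρ + ‖y‖ ^ 2 / ρ := by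
  have h : ‖y‖ * ρ ≤ (ρ + ‖y‖ ^ 2 / ρ) * ρ := by
    rw [add_mul, div_mul_cancel₀ _ hρ.ne']
    nlinarith [sq_nonneg (‖y‖ - ρ), mul_nonneg (norm_nonneg y) hρ.le]
  exact le_of_mul_le_mul_right h hρ

theorem Loc.norm_le (h : Loc u x ρ c q) (hu : Lip u L) (hL : 0 ≤ L) (hc : 0 ≤ c) (hρ : 0 < ρ) :
    ‖q‖ ≤ L + c := by
  have h1 : ρ * ‖q‖ ≤ ρ * (L + c) := by
    refine norm_le_of_inner hρ (by positivity) fun y hy => ?_
    have h2 := (abs_le.1 (h y hy.le)).1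
    have h3 := hu.add_le x y
    rw [hy] at h3
    linarith
  exact le_of_mul_le_mul_left h1 hρ

/-- slopes at two nearby points and two scales -/
theorem Loc.sub_le {d : E} (h : Loc u (x + d) ρ c q) (h' : Loc u x (4 * ρ) c' p) (hd : ‖d‖ ≤ ρ)
    (hc : 0 ≤ c) (hc' : 0 ≤ c') (hρ : 0 < ρ) : ‖p - q‖ ≤ c + 8 * c' := by
  have h1 : ρ * ‖p - q‖ ≤ ρ * (c + 8 * c') := by
    refine norm_le_of_inner hρ (by positivity) fun y hy => ?_
    have h2 := (abs_le.1 (h y hy.le)).2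
    have h3 := (abs_le.1 (h' (d + y) (by linarith [norm_add_le d y]))).1
    have h4 := (abs_le.1 (h' d (by linarith))).2
    rw [← add_assoc, inner_add_right] at h3
    rw [inner_sub_left]
    linarith
  exact le_of_mul_le_mul_left h1 hρ

/-- slopes at one point and two scales -/
theorem Loc.sub_le0 (h : Loc u x ρ c q) (h' : Loc u x (4 * ρ) c' p)
    (hc : 0 ≤ c) (hc' : 0 ≤ c') (hρ : 0 < ρ) : ‖p - q‖ ≤ c + 4 * c' := by
  have h1 : ρ * ‖p - q‖ ≤ ρ * (c + 4 * c') := by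
    refine norm_le_of_inner hρ (by positivity) fun y hy => ?_
    have h2 := (abs_le.1 (h y hy.le)).2
    have h3 := (abs_le.1 (h' y (by linarith))).1
    rw [inner_sub_left]
    linarith
  exact le_of_mul_le_mul_left h1 hρ

theorem Loc.glo (h : Loc u x ρ c q) (h' : Loc u x (4 * ρ) c' p) (g : Glo u x (4 * ρ) (7 * c') p)
    (hc' : 0 ≤ c') (hcc : c' ≤ 3 / 2 * c) (hρ : 0 < ρ) : Glo u x ρ (7 * c) q := by
  have hc : 0 ≤ c := by linarith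
  have hpq : ‖p - q‖ ≤ 7 * c := by linarith [h.sub_le0 h' hc hc' hρ]
  intro y
  obtain ⟨N, hN⟩ : ∃ N, N = ‖y‖ ^ 2 / ρ := ⟨_, rfl⟩
  have hN0 : 0 ≤ N := by rw [hN]; positivity
  have hNρ : N * ρ = ‖y‖ ^ 2 := by rw [hN]; field_simp
  rw [← hN]
  by_cases h1 : ‖y‖ ≤ ρ
  · refine (h y h1).trans ?_
    nlinarith [mul_nonneg hc hN0, mul_nonneg hc hρ.le]
  push Not at h1
  have hi : |⟪p - q, y⟫| ≤ 7 * c * ‖y‖ :=
    (abs_real_inner_le_norm _ _).trans (mul_le_mul_of_nonneg_right hpq (norm_nonneg _))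
  have e : u (x + y) - u x - ⟪q, y⟫ = (u (x + y) - u x - ⟪p, y⟫) + ⟪p - q, y⟫ := by
    rw [inner_sub_left]; ring
  rw [e]
  refine (abs_add_le _ _).trans ?_
  by_cases h2 : ‖y‖ ≤ 4 * ρ
  · have h3 := h' y h2
    have h4 : ‖y‖ ≤ N := by
      have : ‖y‖ * ρ ≤ N * ρ := by rw [hNρ]; nlinarith
      exact le_of_mul_le_mul_right this hρ
    have h5 := mul_le_mul_of_nonneg_left h4 hc
    have h6 := mul_le_mul_of_nonneg_right hcc hρ.le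
    nlinarith [mul_nonneg hc hρ.le]
  · push Not at h2
    have h3 := g y
    have e2 : ‖y‖ ^ 2 / (4 * ρ) = N / 4 := by rw [hN]; field_simp
    rw [e2] at h3
    have h4 : 5 * ρ + ‖y‖ ≤ 5 / 8 * N := by
      have : (5 * ρ + ‖y‖) * ρ ≤ (5 / 8 * N) * ρ := by
        rw [mul_assoc, hNρ]; nlinarith
      exact le_of_mul_le_mul_right this hρ
    have h5 := mul_le_mul_of_nonneg_left h4 hc
    have h6 := mul_le_mul_of_nonneg_right hcc (by positivity : 0 ≤ 4 * ρ + N / 4)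
    nlinarith

theorem three_one (hu : Lip u L) (hM : Mono u D s0) (hτ : 0 < τ) (hs : 2 * τ ≤ s0) (hρ : 0 < ρ)
    (hc1 : 0 ≤ c1) (h16 : 16 * c1 * τ ≤ ρ) (e1 : x1 = x0 + τ • v) (e2 : x2 = x0 + (2 * τ) • v)
    (g0 : Glo u x0 ρ c1 q0) (g1 : Glo u x1 ρ c1 q1) (g2 : Glo u x2 ρ c1 q2) (hq : ‖q2 - v‖ ≤ c)
    (y : E) (hy : ‖x0 + y‖ ≤ D) :
    2 * u x1 - u x0 - u x2 + (2 * ⟪q1, y⟫ - ⟪q0, y⟫ - ⟪q2, y⟫) ≤
      2 * τ * c ^ 2 + c1 * (4 * ρ + 5 * (‖y‖ ^ 2 / ρ)) := by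
  have h1 := hM.two_Tp_le hy hτ hs
  have h2 := hu.le_Tp hτ (x0 + y) v
  have e3 : x0 + y + τ • v = x1 + y := by rw [e1]; abel
  rw [e3] at h2
  have h3 : Tp u (2 * τ) (x0 + y) ≤ u x2 + ⟪q2, y⟫ + c1 * (ρ + 2 * (‖y‖ ^ 2 / ρ)) -
      τ * ‖v‖ ^ 2 + 2 * τ * c ^ 2 := by
    refine Tp_le fun a => ?_
    obtain ⟨b, rfl⟩ : ∃ b, a = v + b := ⟨a - v, by abel⟩
    have e4 : x0 + y + (2 * τ) • (v + b) = x2 + (y + (2 * τ) • b) := by rw [e2, smul_add]; abel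
    rw [e4]
    have k1 := (abs_le.1 (g2 (y + (2 * τ) • b))).2
    rw [inner_add_right, inner_smul_right] at k1
    have k2 : ‖y + (2 * τ) • b‖ ^ 2 ≤ 2 * ‖y‖ ^ 2 + 8 * τ ^ 2 * ‖b‖ ^ 2 := by
      have k3 := norm_add_le y ((2 * τ) • b)
      rw [norm_smul, Real.norm_eq_abs, abs_of_pos (by linarith)] at k3
      have k4 := pow_le_pow_left₀ (norm_nonneg _) k3 2
      nlinarith [sq_nonneg (‖y‖ - 2 * τ * ‖b‖)]
    have k5 : c1 * (‖y + (2 * τ) • b‖ ^ 2 / ρ) ≤ c1 * (2 * (‖y‖ ^ 2 / ρ)) + τ / 2 * ‖b‖ ^ 2 := by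
      have k6 : c1 * (8 * τ ^ 2 * ‖b‖ ^ 2 / ρ) ≤ τ / 2 * ‖b‖ ^ 2 := by
        rw [← mul_div_assoc, div_le_iff₀ hρ]
        nlinarith [mul_le_mul_of_nonneg_right h16 (by positivity : 0 ≤ τ / 2 * ‖b‖ ^ 2)]
      have k7 : ‖y + (2 * τ) • b‖ ^ 2 / ρ ≤ 2 * (‖y‖ ^ 2 / ρ) + 8 * τ ^ 2 * ‖b‖ ^ 2 / ρ := by
        rw [← mul_div_assoc, ← add_div]
        exact div_le_div_of_nonneg_right k2 hρ.le
      nlinarith [mul_le_mul_of_nonneg_left k7 hc1]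
    have k8 : ⟪q2, b⟫ - ⟪v, b⟫ ≤ c * ‖b‖ := by
      rw [← inner_sub_left]
      exact (real_inner_le_norm _ _).trans (mul_le_mul_of_nonneg_right hq (norm_nonneg _))
    rw [norm_add_sq_real]
    have k9 := mul_le_mul_of_nonneg_left k8 hτ.le
    nlinarith [mul_nonneg hτ.le (sq_nonneg (‖b‖ - 2 * c))]
  have h4 := (abs_le.1 (g1 y)).1
  have h5 := (abs_le.1 (g0 y)).2
  nlinarith

theorem three_pos (hu : Lip u L) (hM : Mono u D s0) (hM' : Mono (-u) D s0) (hτ : 0 < τ)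
    (hs : 2 * τ ≤ s0) (hρ : 0 < ρ) (hc1 : 0 ≤ c1) (h16 : 16 * c1 * τ ≤ ρ)
    (e0 : x0 = x1 - τ • v) (e2 : x2 = x1 + τ • v)
    (g0 : Glo u x0 ρ c1 q0) (g1 : Glo u x1 ρ c1 q1) (g2 : Glo u x2 ρ c1 q2) (hq0 : ‖q0 - v‖ ≤ c)
    (hq2 : ‖q2 - v‖ ≤ c) (n0 : ‖x0‖ + ρ ≤ D) (n2 : ‖x2‖ + ρ ≤ D) :
    |u x2 + u x0 - 2 * u x1| ≤ 2 * τ * c ^ 2 + 4 * c1 * ρ ∧
      ρ * ‖q1 + q1 - q0 - q2‖ ≤ 2 * τ * c ^ 2 + 9 * c1 * ρ := by
  have A := fun (y : E) (hy : ‖y‖ ≤ ρ) => three_one (x1 := x1) (x2 := x2) (v := v) hu hM hτ hs hρ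
    hc1 h16 (by rw [e0]; abel) (by rw [e0, e2]; module) g0 g1 g2 hq2 y
    (by linarith [norm_add_le x0 y])
  have B := fun (y : E) (hy : ‖y‖ ≤ ρ) => three_one (x1 := x1) (x2 := x0) (v := -v) (c := c)
    hu.neg hM' hτ hs hρ hc1 h16 (by rw [e2]; module) (by rw [e0, e2]; module) g2.neg g1.neg g0.neg
    (by rwa [neg_sub_neg, norm_sub_rev]) y (by linarith [norm_add_le x2 y])
  constructor
  · have A0 := A 0 (by simpa using hρ.le)
    have B0 := B 0 (by simpa using hρ.le)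
    have e : (0 : ℝ) ^ 2 / ρ = 0 := by simp
    simp only [inner_zero_right, norm_zero, Pi.neg_apply, e] at A0 B0
    rw [abs_le]
    constructor <;> nlinarith
  · refine norm_le_of_inner hρ (by positivity) fun y hy => ?_
    have A0 := A y hy.le
    have B0 := B (-y) (by rw [norm_neg]; exact hy.le)
    have e : ρ ^ 2 / ρ = ρ := by field_simp
    simp only [inner_neg_right, inner_neg_left, norm_neg, Pi.neg_apply, hy, e] at A0 B0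
    simp only [inner_sub_left, inner_add_left]
    nlinarith

theorem three (hu : Lip u L) (hM : Mono u D s0) (hM' : Mono (-u) D s0)
    (hs : 2 * |τ| ≤ s0) (hρ : 0 < ρ) (hc1 : 0 ≤ c1) (h16 : 16 * c1 * |τ| ≤ ρ)
    (e0 : x0 = x1 - τ • v) (e2 : x2 = x1 + τ • v)
    (g0 : Glo u x0 ρ c1 q0) (g1 : Glo u x1 ρ c1 q1) (g2 : Glo u x2 ρ c1 q2) (hq0 : ‖q0 - v‖ ≤ c)
    (hq2 : ‖q2 - v‖ ≤ c) (n0 : ‖x0‖ + ρ ≤ D) (n2 : ‖x2‖ + ρ ≤ D) :
    |u x2 + u x0 - 2 * u x1| ≤ 2 * |τ| * c ^ 2 + 4 * c1 * ρ ∧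
      ρ * ‖q1 + q1 - q0 - q2‖ ≤ 2 * |τ| * c ^ 2 + 9 * c1 * ρ := by
  rcases lt_trichotomy τ 0 with h | h | h
  · rw [abs_of_neg h] at hs h16 ⊢
    have := three_pos (x0 := x2) (x2 := x0) (v := v) hu hM hM' (neg_pos.2 h) hs hρ hc1 h16
      (by rw [e2]; module) (by rw [e0]; module) g2 g1 g0 hq2 hq0 n2 n0
    rwa [add_comm (u x0), sub_right_comm (q1 + q1)] at this
  · subst h
    simp only [zero_smul, sub_zero, add_zero] at e0 e2
    subst e0 e2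
    simp only [abs_zero, mul_zero, zero_mul, zero_add]
    constructor
    · have : u x2 + u x2 - 2 * u x2 = 0 := by ring
      rw [this, abs_zero]; positivity
    · refine norm_le_of_inner hρ (by positivity) fun y hy => ?_
      have e : ρ ^ 2 / ρ = ρ := by field_simp
      have h0 := (abs_le.1 (g0 y)).2
      have h1 := (abs_le.1 (g1 y)).1
      have h2 := (abs_le.1 (g2 y)).2
      rw [hy, e] at h0 h1 h2
      simp only [inner_sub_left, inner_add_left]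
      nlinarith [mul_nonneg hc1 hρ.le]
  · rw [abs_of_pos h] at hs h16 ⊢
    exact three_pos hu hM hM' h hs hρ hc1 h16 e0 e2 g0 g1 g2 hq0 hq2 n0 n2

end

end Vale.Agent.P080
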