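import Vale.Agent.P080.Elem

/-!
# P080: the growth rates at an almost extremal configuration
-/

namespace Vale.Agent.P080

open scoped RealInnerProductSpace

section
variable {E : Type*} [NormedAddCommGroup E] [InnerProductSpace ℝ E]

/-- Greedy selection of displacements. -/
theorem ref_greedy {ι : Type} [DecidableEq ι] (v : ι → E → ℝ) {s c : ℝ} (hs : 0 < s) (hc : 0 ≤ c)
    (S : Finset ι) (hS : ∀ i ∈ S, ∀ l : E, ∃ x, ‖x‖ ≤ s ∧ c * s ≤ v i x - ⟪l, x⟫) :
    ∃ X : ι → E, (∀ i, ‖X i‖ ≤ s) ∧ (∀ i, i ∉ S → X i = 0) ∧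
      S.card * (c * s / 2) ≤ ∑ i ∈ S, v i (X i) - c / (2 * s) * ‖∑ i ∈ S, X i‖ ^ 2 := by
  induction S using Finset.induction_on with
  | empty => exact ⟨fun _ => 0, fun _ => by simpa using hs.le, fun _ _ => rfl, by simp⟩
  | insert j S hj ih =>
    obtain ⟨X, h1, h2, h3⟩ := ih fun i hi => hS i (Finset.mem_insert_of_mem hi)
    obtain ⟨x, hx, hx'⟩ := hS j (Finset.mem_insert_self _ _) ((c / s) • ∑ i ∈ S, X i)
    have e : ∀ i ∈ S, Function.update X j x i = X i := fun i hi =>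
      Function.update_of_ne (by rintro rfl; exact hj hi) _ _
    refine ⟨Function.update X j x, fun i => ?_, fun i hi => ?_, ?_⟩
    · by_cases h : i = j
      · subst h; simpa using hx
      · rw [Function.update_of_ne h]; exact h1 i
    · rw [Finset.mem_insert, not_or] at hi
      rw [Function.update_of_ne hi.1]; exact h2 i hi.2
    · rw [Finset.sum_insert hj, Finset.sum_insert hj, Finset.card_insert_of_notMem hj,
        Function.update_self, Finset.sum_congr rfl e,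
        Finset.sum_congr rfl fun i hi => congrArg (v i) (e i hi), norm_add_sq_real]
      rw [inner_smul_left, real_inner_comm] at hx'
      have h4 : c / (2 * s) * ‖x‖ ^ 2 ≤ c * s / 2 := by
        calc c / (2 * s) * ‖x‖ ^ 2 ≤ c / (2 * s) * s ^ 2 := by gcongr
          _ = c * s / 2 := by field_simp
      have h5 : c / (2 * s) * (2 * ⟪x, ∑ i ∈ S, X i⟫) = c / s * ⟪x, ∑ i ∈ S, X i⟫ := by
        field_simp
      simp only [conj_trivial] at hx'
      push_cast
      rw [mul_add, mul_add, h5]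
      linarith

theorem ref_arith {C J c s N γ m k : ℝ} (hC : 1 ≤ C) (hJ : 1 ≤ J) (hc : 0 < c) (hs : 0 < s)
    (hNp : 0 < N) (hN : 16 * C ^ 2 * J ≤ c ^ 2 * N) (hsc : 8 * J * s ≤ c)
    (hγ' : 16 * J * (γ - 1) ≤ c * s)
    (h : k * (c * s / 2) ≤ (γ - 1 + s ^ 2 + C * (c * s / (8 * C * J) + m ^ 2 / (c * s / (8 * C * J))))
      * N - c / (2 * s) * (N * m) ^ 2) : J * k ≤ N := by
  set r := c * s / (8 * C * J) with hr'
  have h10 : C * (m ^ 2 / r) * N ≤ c / (2 * s) * (N * m) ^ 2 := by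
    have : C / r ≤ c / (2 * s) * N := by
      rw [hr', div_div_eq_mul_div, div_mul_eq_mul_div, div_le_div_iff₀ (by positivity)
        (by positivity)]
      nlinarith [mul_le_mul_of_nonneg_left hN hs.le]
    calc C * (m ^ 2 / r) * N = C / r * (m ^ 2 * N) := by ring
      _ ≤ c / (2 * s) * N * (m ^ 2 * N) := by gcongr
      _ = _ := by ring
  have h11 : 8 * J * (C * r) = c * s := by rw [hr']; field_simp
  have h12 : k * (c * s / 2) ≤ (γ - 1 + s ^ 2 + C * r) * N := by linarith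
  have h13 : J * (γ - 1 + s ^ 2 + C * r) ≤ c * s / 2 := by
    linarith [mul_pos hc hs, mul_le_mul_of_nonneg_right hsc hs.le]
  have h14 : J * k * (c * s / 2) ≤ N * (c * s / 2) := by
    calc J * k * (c * s / 2) = J * (k * (c * s / 2)) := by ring
      _ ≤ J * ((γ - 1 + s ^ 2 + C * r) * N) := by gcongr
      _ = J * (γ - 1 + s ^ 2 + C * r) * N := by ring
      _ ≤ c * s / 2 * N := by gcongr
      _ = _ := by ring
  exact le_of_mul_le_mul_right h14 (by positivity)

variable {ι : Type} [Fintype ι] [Nonempty ι]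

theorem ref_av_sq {B : ι → E} (hB : cen B = 0) (hr : rms B = 1) :
    (av fun i => ‖B i‖ ^ 2) = 1 := by
  simpa [hB, hr] using av_sq_sub B 0

/-- Few particles fail to be touched from above by an affine function. -/
theorem ref_window {u : E → ℝ} {L C R ρ1 D γ s c : ℝ} {J : ℝ} {B : ι → E}
    (hP : Pk u L C R ρ1 D) (hρ1 : 1 ≤ ρ1) (hD : 1 ≤ D) (hγ : 1 ≤ γ) (hG : Gb ι u γ D 4)
    (hJ : 1 ≤ J) (hc : 0 < c) (hc1 : c ≤ 1)
    (hN : 16 * C ^ 2 * J ≤ c ^ 2 * (Fintype.card ι : ℝ)) (hs : 0 < s) (hsc : 8 * J * s ≤ c)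
    (hγ' : 16 * J * (γ - 1) ≤ c * s) (hB : cen B = 0) (hr : rms B = 1) (hGB : 1 ≤ GN u B) :
    ∃ S : Finset ι, J * S.card ≤ Fintype.card ι ∧ ∀ i, i ∉ S →
      ∃ l : E, ∀ x, ‖x‖ ≤ s → u (B i + x) - u (B i) ≤ ⟪l, x⟫ + c * s := by
  classical
  have hC := hP.hC
  have hR := hP.four_le
  have hNp := card_pos' (ι := ι)
  have hs1 : s ≤ 1 := by nlinarith
  have hcs : c * s ≤ 1 := by nlinarith
  have hγ2 : γ ≤ 2 := by nlinarith
  set r := c * s / (8 * C * J) with hr'
  have hr0 : 0 < r := by positivity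
  have hCJ : 1 ≤ C * J := by nlinarith
  have hr1 : r ≤ ρ1 := by
    rw [hr', div_le_iff₀ (by positivity)]
    nlinarith
  obtain ⟨q, κ, hq⟩ := hP.cyl 0 (by simpa using (by linarith : (0 : ℝ) ≤ D)) r hr0 hr1
  set S : Finset ι := Finset.univ.filter fun i =>
    ¬ ∃ l : E, ∀ x, ‖x‖ ≤ s → u (B i + x) - u (B i) ≤ ⟪l, x⟫ + c * s with hS
  refine ⟨S, ?_, fun i hi => by simpa [hS] using hi⟩
  obtain ⟨X, h1, h2, h3⟩ := ref_greedy
    (fun i x => u (B i + x) - u (B i) - ⟪q + γ • B i, x⟫) hs hc.le S fun i hi l => by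
      have := (Finset.mem_filter.1 hi).2
      push Not at this
      obtain ⟨x, hx, hx'⟩ := this (l + (q + γ • B i))
      refine ⟨x, hx, ?_⟩
      rw [inner_add_left] at hx'
      linarith
  rw [Finset.sum_subset (Finset.subset_univ S) fun i _ hi => by simp [h2 i hi],
    Finset.sum_subset (Finset.subset_univ S) fun i _ hi => h2 i hi] at h3
  have e1 : ∑ i, X i = (Fintype.card ι : ℝ) • cen X := by
    rw [cen, smul_smul, mul_inv_cancel₀ hNp.ne', one_smul]
  have hX : nrm X ≤ s := nrm_le_of_forall hs.le h1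
  have hX2 : (av fun i => ‖X i‖ ^ 2) ≤ s ^ 2 := by
    rw [← nrm_sq]; exact pow_le_pow_left₀ (nrm_nonneg _) hX 2
  have hcen : cen (fun i => B i + X i) = cen X := by rw [cen_add, hB, zero_add]
  have hcX : ‖cen X‖ ≤ s := by
    have := norm_cen_sub_le X 0
    simp only [sub_zero] at this
    exact this.trans hX
  have hn2 : nrm (fun i => B i + X i) ^ 2 ≤ 1 + 2 * (av fun i => ⟪B i, X i⟫) + s ^ 2 := by
    rw [nrm_sq]
    simp only [norm_add_sq_real]
    rw [av_add, av_add, av_mul, ref_av_sq hB hr]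
    linarith
  have hrn : rms (fun i => B i + X i) ≤ nrm fun i => B i + X i := by
    simpa using rms_le_nrm_sub (fun i => B i + X i) 0
  have hr4 : rms (fun i => B i + X i) ≤ 4 := by
    have := rms_add_smul_le B X 1
    simp only [one_smul, abs_one, one_mul] at this
    have h4 := rms_le_nrm_sub X 0
    simp only [sub_zero] at h4
    linarith
  have h5 := hG _ (by rw [hcen]; linarith) hr4
  have h6 : rms (fun i => B i + X i) ≤ 1 + (av fun i => ⟪B i, X i⟫) + s ^ 2 / 2 := by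
    linarith [sq_nonneg (nrm (fun i => B i + X i) - 1)]
  have h7 := (abs_le.1 (hq.zero hr0 (by linarith) (cen X))).2
  rw [zero_add] at h7
  have h8 : (av fun i => u (B i + X i) - u (B i) - ⟪q + γ • B i, X i⟫)
      = (av fun i => u (B i + X i)) - (av fun i => u (B i)) - ⟪q, cen X⟫
        - γ * av fun i => ⟪B i, X i⟫ := by
    simp only [inner_add_left, real_inner_smul_left]
    rw [av_sub, av_sub, av_add, av_mul, av_inner]
    ring
  unfold GN at h5 hGB
  rw [hcen] at h5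
  rw [hB] at hGB
  have h9 : (av fun i => u (B i + X i) - u (B i) - ⟪q + γ • B i, X i⟫)
      ≤ γ - 1 + s ^ 2 + C * (r + ‖cen X‖ ^ 2 / r) := by
    rw [h8]
    linarith [mul_le_mul_of_nonneg_left h6 (by linarith : 0 ≤ γ),
      mul_le_mul_of_nonneg_right hγ2 (sq_nonneg s)]
  rw [av, div_le_iff₀ hNp] at h9
  rw [e1, norm_smul, Real.norm_eq_abs, abs_of_pos hNp] at h3
  exact ref_arith hC hJ hc hs hNp hN hsc hγ' (h3.trans (sub_le_sub_right h9 _))

end

section
variable {E : Type*} [NormedAddCommGroup E] [InnerProductSpace ℝ E] [FiniteDimensional ℝ E]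
variable {ι : Type} [Fintype ι] [Nonempty ι]

/-- One window of scales loses a bounded amount on average. -/
theorem ref_step {u : E → ℝ} {L C R ρ1 D γ a : ℝ} {J : ℕ} {B : ι → E}
    (hP : Pk u L C R ρ1 D) (hρ1 : 1 ≤ ρ1) (hD : 1 ≤ D) (hBD : ∀ i, ‖B i‖ + (L + 1) ≤ D)
    (hγ : 1 ≤ γ) (hG : Gb ι u γ D 4) (hJ : 1 ≤ J)
    (hN : 16 * C ^ 2 * J * 4 ^ J ≤ (Fintype.card ι : ℝ)) (ha : 0 < a)
    (haJ : 32 * R * J * 2 ^ J * a ≤ 1) (hγ' : 4 * J * (γ - 1) ≤ a / 2 ^ J)
    (hB : cen B = 0) (hr : rms B = 1) (hGB : 1 ≤ GN u B) :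
    (av fun i => ep (-u) a (B i)) - 12 * R ^ 2 ≤ av fun i => ep (-u) (a / 2 ^ J) (B i) := by
  classical
  have hR := hP.four_le
  have hL := hP.hL
  have hNp := card_pos' (ι := ι)
  have hJ' : (1 : ℝ) ≤ J := by exact_mod_cast hJ
  have h2 : (1 : ℝ) ≤ 2 ^ J := one_le_pow₀ one_le_two
  have h2' : (0 : ℝ) < 2 ^ J := by positivity
  have hRa : 0 < R * a := by positivity
  have hs1 : 4 * R * a ≤ 1 := by
    have : 1 ≤ (J : ℝ) * 2 ^ J := by nlinarith
    nlinarith
  obtain ⟨S, hS, hS'⟩ := ref_window (s := 4 * R * a) (c := 1 / 2 ^ J) (J := J) hP hρ1 hD hγ hG hJ'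
    (by positivity) (by rw [div_le_one h2']; exact h2)
    (by
      rw [div_pow, one_pow, ← pow_mul, mul_comm J 2, pow_mul, div_mul_eq_mul_div, one_mul,
        le_div_iff₀ (by positivity)]
      norm_num
      exact hN)
    (by positivity) (by rw [le_div_iff₀ h2']; linarith)
    (by
      have : 1 / 2 ^ J * (4 * R * a) = 4 * R * (a / 2 ^ J) := by ring
      have h3 : 0 < a / 2 ^ J := by positivity
      rw [this]
      nlinarith) hB hr hGB
  have key : ∀ i, ep (-u) a (B i) ≤ ep (-u) (a / 2 ^ J) (B i)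
      + (6 * R ^ 2 + 6 * R ^ 2 * J * if i ∈ S then 1 else 0) := by
    intro i
    split_ifs with hi
    · have := ep_dy hP.neg (x := B i) (by linarith [hBD i]) ha (by linarith) J
      nlinarith [sq_nonneg R]
    · obtain ⟨l, hl⟩ := hS' i hi
      have h3 := good hP (s := 4 * R * a) (τ := a / 2 ^ J) (by positivity) (by linarith)
        (by nlinarith [hBD i]) (by positivity)
        (by rw [div_mul_eq_mul_div, one_mul, div_le_iff₀ h2']; nlinarith) hl (by positivity)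
        (by
          rw [mul_div_cancel_left₀ _ (by positivity)]
          exact div_le_self ha.le h2)
      rw [mul_div_cancel_left₀ _ (by positivity)] at h3
      have : 1 / 2 ^ J * (4 * R * a) / (a / 2 ^ J) = 4 * R := by field_simp
      rw [this] at h3
      nlinarith
  have h4 := av_mono key
  rw [av_add, av_add, av_const, av_mul] at h4
  have h5 : (J : ℝ) * av (fun i => if i ∈ S then (1 : ℝ) else 0) ≤ 1 := by
    rw [av, ← mul_div_assoc, div_le_one hNp]
    simpa using hS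
  nlinarith [mul_le_mul_of_nonneg_left h5 (sq_nonneg R)]

/-- The growth rate at the centre dominates the mean growth rate. -/
theorem ref_centre {u : E → ℝ} {L D γ σ l : ℝ} {B A : ι → E}
    (hu : Lip u L) (hL : 0 ≤ L) (hσ : 0 < σ) (hD : σ * (2 * L) ≤ D) (hγ : 0 ≤ γ)
    (hG : Gb ι u γ D 4) (hA : ∀ i, Opt u σ (B i) (A i)) (hl : rms A ≤ l) (hσl : σ * l ≤ 1)
    (hB : cen B = 0) (hr : rms B = 1) (hGB : 1 ≤ GN u B) :
    σ * (av fun i => ep u σ (B i)) ≤ σ * ep u σ 0 + (γ - 1) + σ * γ ^ 2 / 2 := by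
  have hcen : cen (fun i => B i + σ • A i) = σ • cen A := by rw [cen_add, hB, zero_add, cen_smul]
  have hcA : ‖cen A‖ ≤ 2 * L := by
    have := norm_cen_sub_le A 0
    simp only [sub_zero] at this
    exact this.trans (nrm_le_of_forall (by linarith) fun i => (hA i).norm_le hu hL hσ)
  have h1 := rms_add_smul_le B A σ
  rw [abs_of_pos hσ, hr] at h1
  have h2 := hG _ (by
    rw [hcen, norm_smul, Real.norm_eq_abs, abs_of_pos hσ]
    exact (mul_le_mul_of_nonneg_left hcA hσ.le).trans hD)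
    (by nlinarith [mul_le_mul_of_nonneg_left hl hσ.le] : rms (fun i => B i + σ • A i) ≤ 4)
  have h3 := av_sq_sub A 0
  simp only [sub_zero] at h3
  have h4 := hu.le_ep hσ 0 (cen A)
  rw [zero_add] at h4
  have h5 : σ * (av fun i => ep u σ (B i)) = (av fun i => u (B i + σ • A i))
      - (av fun i => u (B i)) - σ / 2 * av fun i => ‖A i‖ ^ 2 := by
    rw [← av_mul, ← av_mul, ← av_sub, ← av_sub]
    congr 1
    funext i
    rw [(hA i).eq hσ]
    ring
  unfold GN at h2 hGB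
  rw [hcen] at h2
  rw [hB] at hGB
  rw [h5, h3]
  nlinarith [mul_le_mul_of_nonneg_left h1 hγ, mul_nonneg hσ.le (sq_nonneg (rms A - γ))]

theorem ref_iter {u : E → ℝ} {L C R ρ1 D γ σ : ℝ} {n J : ℕ} {B : ι → E}
    (hP : Pk u L C R ρ1 D) (hρ1 : 1 ≤ ρ1) (hD : 1 ≤ D) (hBD : ∀ i, ‖B i‖ + (L + 1) ≤ D)
    (hγ : 1 ≤ γ) (hG : Gb ι u γ D 4) (hJ : 1 ≤ J)
    (hN : 16 * C ^ 2 * J * 4 ^ J ≤ (Fintype.card ι : ℝ))
    (hn : 32 * R * J * 2 ^ J ≤ 2 ^ n) (hσ : σ = 1 / 2 ^ (n + n * J))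
    (hγJ : 4 * J * (γ - 1) ≤ σ) (hB : cen B = 0) (hr : rms B = 1) (hGB : 1 ≤ GN u B) :
    ∀ j ≤ n, (av fun i => ep (-u) (1 / 2 ^ n) (B i)) - 12 * R ^ 2 * j
      ≤ av fun i => ep (-u) (1 / 2 ^ (n + j * J)) (B i) := by
  intro j hj
  induction j with
  | zero => simp
  | succ j ih =>
    have e : (1 : ℝ) / 2 ^ (n + (j + 1) * J) = 1 / 2 ^ (n + j * J) / 2 ^ J := by
      rw [div_div, ← pow_add]; congr 2; ring
    have h1 := ref_step (a := 1 / 2 ^ (n + j * J)) hP hρ1 hD hBD hγ hG hJ hN (by positivity)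
      (by
        rw [mul_one_div, div_le_one (by positivity)]
        exact hn.trans (pow_le_pow_right₀ one_le_two (by omega)))
      (by
        rw [← e]
        refine hγJ.trans ?_
        rw [hσ]
        exact one_div_le_one_div_of_le (by positivity) (pow_le_pow_right₀ one_le_two
          (Nat.add_le_add_left (Nat.mul_le_mul_right J hj) n))) hB hr hGB
    have h2 := ih (by omega)
    rw [e]
    push_cast
    linarith

theorem ref_es {u : E → ℝ} {L C R ρ1 D γ κ σ : ℝ} {p : E} {n J : ℕ} {B : ι → E}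
    (hP : Pk u L C R ρ1 D) (hc : Cyl u C R (2 * R * 2 ^ n) 0 p κ) (hρ1 : 2 * R * 2 ^ n ≤ ρ1)
    (hD : 2 * UU ι L ρ1 ≤ D) (hγ : 1 ≤ γ) (hG : Gb ι u γ D 4) (hJ : 1 ≤ J)
    (hN : 16 * C ^ 2 * J * 4 ^ J ≤ (Fintype.card ι : ℝ))
    (hn : 32 * R * J * 2 ^ J ≤ 2 ^ n) (hσ : σ = 1 / 2 ^ (n + n * J))
    (hσA : σ * (16 * R * (2 * n + n * J + 1)) ≤ 1) (hγ' : γ ≤ 1 + σ / (4 * J))
    (hB : cen B = 0) (hr : rms B = 1) (hGB : 1 ≤ GN u B) :
    3 * κ - 75 * R ^ 2 * (n + 1) ≤ es u σ B := by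
  have hR := hP.four_le
  have hL := hP.hL
  have hR0 : 0 < R := by linarith
  have hJ' : (1 : ℝ) ≤ J := by exact_mod_cast hJ
  have h2n : (1 : ℝ) ≤ 2 ^ n := one_le_pow₀ one_le_two
  have h2J : (1 : ℝ) ≤ 2 ^ J := one_le_pow₀ one_le_two
  have hρ : 0 < 2 * R * 2 ^ n := by positivity
  have hR2 : 4 * 1 ≤ R * 2 ^ n := mul_le_mul hR h2n zero_le_one hR0.le
  have hρ8 : 8 ≤ ρ1 := by linarith
  have hUU : ρ1 * (L + 2) ≤ UU ι L ρ1 := le_add_of_nonneg_right (by positivity)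
  have hUL : 8 * (L + 2) ≤ UU ι L ρ1 :=
    (mul_le_mul_of_nonneg_right hρ8 (by linarith)).trans hUU
  have hD0 : ‖(0 : E)‖ + UU ι L ρ1 ≤ D := by rw [norm_zero]; linarith
  have hdiv : 2 * R * 2 ^ n / (2 * R) = 2 ^ n := mul_div_cancel_left₀ _ (by positivity)
  have hNear : Near R (2 * R * 2 ^ n) 0 p B :=
    ⟨0, 0, by rw [abs_zero]; positivity, by rw [norm_zero]; positivity, by simp [hB],
      by rw [hr]; linarith, by rw [hr]; norm_num⟩
  have hBD : ∀ i, ‖B i‖ + (L + 1) ≤ D := fun i => by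
    have := hNear.norm_le hP hc hρ hρ1 i
    rw [norm_zero] at this
    linarith [mul_nonneg (by linarith : 0 ≤ ρ1) hL]
  have hσ0 : 0 < σ := by rw [hσ]; positivity
  have hσn : σ ≤ 1 / 2 ^ n := by
    rw [hσ]
    exact one_div_le_one_div_of_le (by positivity) (pow_le_pow_right₀ one_le_two (by omega))
  have hn1 : (1 : ℝ) / 2 ^ n ≤ 1 := by rw [div_le_one (by positivity)]; exact h2n
  have hσ1 : σ ≤ 1 := hσn.trans hn1
  have hγJ : 4 * J * (γ - 1) ≤ σ := by
    have : γ - 1 ≤ σ / (4 * J) := by linarith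
    rwa [le_div_iff₀ (by positivity), mul_comm] at this
  have hlow : ∀ m : ℕ, 2 * R * 2 ^ n / (R * 2 ^ (n + m + 2)) ≤ 1 / 2 ^ m := fun m => by
    rw [div_le_div_iff₀ (by positivity) (by positivity), pow_add, pow_add]
    have : 0 < R * 2 ^ n * 2 ^ m := by positivity
    linarith
  have hit := ref_iter hP (by linarith) (by linarith) hBD hγ hG hJ hN hn hσ hγJ hB hr hGB
  have h0 := hNear.le_av_ep_neg (n := n + n) hP hc hρ hρ1 hD0 (hlow n) (by rw [hdiv]; linarith)
  have h1 := hit n le_rfl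
  rw [← hσ] at h1
  push_cast at h0
  have hRσ : 4 * R * σ ≤ ρ1 := by
    rw [le_div_iff₀ (by positivity)] at hσn
    have h4 : 1 ≤ (J : ℝ) * 2 ^ J := one_le_mul_of_one_le_of_one_le hJ' h2J
    linarith [mul_le_mul_of_nonneg_left h4 (mul_pos hR0 hσ0).le,
      mul_le_mul_of_nonneg_left hn hσ0.le, mul_pos hR0 hσ0]
  have h2 : (av fun i => ep (-u) σ (B i)) ≤ av fun i => ep u σ (B i) + 6 * R ^ 2 :=
    av_mono fun i => by
      have := ep_near_neg hP.neg (x := B i) (by linarith [hBD i]) hσ0 hRσ le_rfl (by linarith)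
        le_rfl (by linarith)
      rwa [neg_neg] at this
  rw [av_add, av_const] at h2
  choose A hA using fun i => hP.lip.exists_opt hL hσ0 (B i)
  have h3 := hNear.vel (n := n + (n + n * J)) hP hc hρ hρ1 hD0 (by rw [hσ]; exact hlow _)
    (by rw [hdiv]; linarith) hA
  have h4 := ref_centre hP.lip hL hσ0
    (by linarith [mul_le_mul_of_nonneg_right hσ1 hL]) (by linarith) hG hA
    ((rms_le_nrm_sub A p).trans h3) (by push_cast; linarith) hB hr hGB
  have h5 := ep_near_neg hP (x := 0) (by rw [norm_zero]; linarith) hσ0 hRσ le_rfl (by linarith)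
    (by linarith : σ ≤ 2 * σ) le_rfl
  have h6 : γ - 1 ≤ σ := by linarith [mul_le_mul_of_nonneg_right hJ' (sub_nonneg.2 hγ)]
  have h7 : γ ^ 2 ≤ 2 ^ 2 := pow_le_pow_left₀ (by linarith) (by linarith) 2
  have h8 : (av fun i => ep u σ (B i)) ≤ ep u σ 0 + 3 := by
    refine le_of_mul_le_mul_left ?_ hσ0
    linarith [mul_le_mul_of_nonneg_left h7 hσ0.le]
  have h9 : 4 ^ 2 ≤ R ^ 2 := pow_le_pow_left₀ (by norm_num) hR 2
  unfold es
  rw [hB]
  linarith [mul_nonneg (sq_nonneg R) (Nat.cast_nonneg (α := ℝ) n)]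

end

end Vale.Agent.P080
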