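import Vale.Agent.P080.Flat
import Vale.Agent.P080.Ref

/-!
# P080: improvement of the Jensen gap at the unit scale
-/

namespace Vale.Agent.P080

open scoped RealInnerProductSpace

theorem core_exists_n {K : ℝ} (hK : 0 < K) : ∃ n : ℕ, 1 ≤ n ∧ K * ((n : ℝ) + 1) ^ 3 ≤ 2 ^ n := by
  have h := tendsto_pow_const_div_const_pow_of_one_lt 3 (by norm_num : (1 : ℝ) < 2)
  have h1 := (h.eventually (gt_mem_nhds (by positivity : (0 : ℝ) < 1 / (2 * K)))).and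
    (Filter.eventually_ge_atTop 2)
  obtain ⟨m, hm, hm2⟩ := h1.exists
  obtain ⟨n, rfl⟩ : ∃ n, m = n + 1 := ⟨m - 1, by omega⟩
  refine ⟨n, by omega, ?_⟩
  rw [div_lt_div_iff₀ (by positivity) (by positivity), pow_succ (2 : ℝ) n] at hm
  push_cast at hm
  linarith

theorem core_num2 {a y Y X P : ℝ} (ha : 16 ≤ a) (hy : 0 ≤ y) (hyY : y ≤ 25 * Y) (hY : 1 ≤ Y)
    (h1 : a ^ 2 ≤ X) (h2 : a * Y ^ 2 ≤ X) (hP : 10 ^ 7 * X ≤ P) :
    8 * (192 * a + 12) ^ 2 + 4 * (192 * a + 12) * (y ^ 2 + 1) < (P / 2) ^ 2 := by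
  have b1 : 192 * a + 12 ≤ 193 * a := by linarith
  have b2 : y ^ 2 + 1 ≤ 626 * Y ^ 2 := by
    have h3 := pow_le_pow_left₀ hy hyY 2
    have h4 : 1 ≤ Y ^ 2 := one_le_pow₀ hY
    linarith
  have b3 : (192 * a + 12) ^ 2 ≤ (193 * a) ^ 2 := pow_le_pow_left₀ (by linarith) b1 2
  have b4 : (192 * a + 12) * (y ^ 2 + 1) ≤ 193 * a * (626 * Y ^ 2) :=
    mul_le_mul b1 b2 (by positivity) (by linarith)
  have b6 : 1 ≤ X := by nlinarith
  have b5 : 4 * P ≤ P * P := mul_le_mul_of_nonneg_right (by linarith) (by linarith)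
  linarith

theorem core_num {R J T n P : ℝ} (hR : 4 ≤ R) (hJ : 1 ≤ J) (hT : 1 ≤ T) (hn : 1 ≤ n)
    (h : 10 ^ 7 * R ^ 4 * (J + 2) ^ 2 * T * (n + 1) ^ 3 ≤ P) :
    32 * R * J * T ≤ P ∧ 50 * R * (2 * n + n * J + 1) ≤ P ∧ 768 * R ^ 2 * (n + 1) + 30 ≤ P ∧
    8 * (192 * (R ^ 2 * (n + 1)) + 12) ^ 2 + 4 * (192 * (R ^ 2 * (n + 1)) + 12)
      * ((25 * R * (2 * n + n * J + 1)) ^ 2 + 1) < (P / 2) ^ 2 := by
  obtain ⟨W, hW⟩ : ∃ W, W = n + 1 := ⟨_, rfl⟩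
  obtain ⟨G, hG⟩ : ∃ G, G = J + 2 := ⟨_, rfl⟩
  have hW1 : 1 ≤ W := by linarith
  have hG1 : 1 ≤ G := by linarith
  have hR1 : 1 ≤ R := by linarith
  have e1 : 2 * n + n * J + 1 ≤ G * W := by rw [hG, hW]; nlinarith
  have e0 : 0 ≤ 2 * n + n * J + 1 := by positivity
  rw [← hW, ← hG] at h
  rw [← hW]
  have hX : R ^ 4 * G ^ 2 * W ^ 3 ≤ R ^ 4 * G ^ 2 * T * W ^ 3 := by
    have : R ^ 4 * G ^ 2 ≤ R ^ 4 * G ^ 2 * T := le_mul_of_one_le_right (by positivity) hT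
    exact mul_le_mul_of_nonneg_right this (by positivity)
  have hR4 : R ≤ R ^ 4 := le_self_pow₀ hR1 (by norm_num)
  have hR24 : R ^ 2 ≤ R ^ 4 := pow_le_pow_right₀ hR1 (by norm_num)
  have hG2 : G ≤ G ^ 2 := le_self_pow₀ hG1 (by norm_num)
  have hW3 : W ≤ W ^ 3 := le_self_pow₀ hW1 (by norm_num)
  have hW23 : W ^ 2 ≤ W ^ 3 := pow_le_pow_right₀ hW1 (by norm_num)
  have hG21 : 1 ≤ G ^ 2 := by linarith
  have hW31 : 1 ≤ W ^ 3 := by linarith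
  have a1 : R * G * W ≤ R ^ 4 * G ^ 2 * W ^ 3 := by gcongr
  have a2 : R ^ 2 * W ≤ R ^ 4 * G ^ 2 * W ^ 3 := by
    calc R ^ 2 * W = R ^ 2 * 1 * W := by ring
      _ ≤ _ := by gcongr
  have a3 : R * J * T ≤ R ^ 4 * G ^ 2 * T * W ^ 3 := by
    have hJG : J ≤ G ^ 2 := by linarith
    calc R * J * T = R * J * T * 1 := by ring
      _ ≤ _ := by gcongr
  have a4 : R ^ 4 * W ^ 2 ≤ R ^ 4 * G ^ 2 * W ^ 3 := by
    calc R ^ 4 * W ^ 2 = R ^ 4 * 1 * W ^ 2 := by ring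
      _ ≤ _ := by gcongr
  have a5 : 16 ≤ R ^ 2 * W := by nlinarith
  have a6 : 0 ≤ R * J * T := by positivity
  have a7 : R * (2 * n + n * J + 1) ≤ R * (G * W) := mul_le_mul_of_nonneg_left e1 (by linarith)
  have a8 : 0 ≤ R * G * W := by positivity
  have hP : 10 ^ 7 * (R ^ 4 * G ^ 2 * W ^ 3) ≤ P := by linarith
  refine ⟨by linarith, by linarith, by linarith, ?_⟩
  exact core_num2 (Y := R * G * W) a5 (by positivity) (by linarith) (by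
    calc (1 : ℝ) = 1 * 1 * 1 := by ring
      _ ≤ _ := by gcongr) (by linarith) (by linarith) hP

section
variable {E : Type*} [NormedAddCommGroup E] [InnerProductSpace ℝ E]

theorem core_chain {v : E → ℝ} {x : E} {δ r0 : ℝ} {J1 m : ℕ} (hr0 : 0 < r0)
    (h1 : 2 ^ (J1 * m) * r0 ≤ 1)
    (h : ∀ τ : ℝ, r0 ≤ τ → 2 ^ J1 * τ ≤ 1 → δ ≤ ep v (2 ^ J1 * τ) x - ep v τ x) :
    ∀ j : ℕ, j ≤ m → ep v r0 x + j * δ ≤ ep v (2 ^ (J1 * j) * r0) x := by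
  intro j
  induction j with
  | zero => intro _; simp
  | succ j ih =>
    intro hj
    have e : (2 : ℝ) ^ (J1 * (j + 1)) * r0 = 2 ^ J1 * (2 ^ (J1 * j) * r0) := by ring
    have h2 : (2 : ℝ) ^ (J1 * (j + 1)) * r0 ≤ 2 ^ (J1 * m) * r0 :=
      mul_le_mul_of_nonneg_right (pow_le_pow_right₀ (by norm_num) (Nat.mul_le_mul_left _ hj)) hr0.le
    have h3 := h (2 ^ (J1 * j) * r0)
      (le_mul_of_one_le_left hr0.le (one_le_pow₀ (by norm_num))) (by rw [← e]; linarith)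
    have h4 := ih (by omega)
    rw [e]
    push_cast
    linarith

end

/-- The four boundary cases, as an inequality between real numbers. -/
theorem core_cases {G e κ σ γ r pen a3 R2 b r0 c t ξ : ℝ} (hσ : 0 < σ) (hγ1 : 1 ≤ γ)
    (hγ : γ ≤ 1 + σ) (hR2 : 0 ≤ R2) (ha3 : 21 * R2 ≤ a3) (hr : r0 / 2 ≤ r) (hr3 : r ≤ 3)
    (hr00 : 0 ≤ r0) (hr01 : r0 ≤ 1) (hG : G ≤ γ * r) (he : e ≤ 3 * κ + 21 * R2) (hc : 0 < c)
    (hξ : 0 ≤ ξ) (hpen : pen = σ * (2 * a3 + 12) * (ξ ^ 2 + t ^ 2) / c ^ 2)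
    (hr0 : σ * (8 * a3 + 30) ≤ r0) (hb : 2 * a3 + 8 ≤ 2 * b)
    (hin : r < r0 → r / 2 < G → e ≤ 3 * κ + 21 * R2 - 2 * b)
    (hcase : ¬ (|t| ≤ c ∧ ξ ≤ c ∧ r0 ≤ r ∧ r ≤ 2)) :
    G + σ * e - ((γ + σ * (a3 + 6)) * r - σ * r ^ 2 / 2) - pen
      ≤ 1 - (γ + σ * (a3 + 6)) + σ * (3 * κ + 21 * R2 - a3) := by
  have ha0 : 0 ≤ a3 := by linarith
  have hr' : 0 ≤ r := by linarith
  have hpen0 : 0 ≤ pen := by rw [hpen]; positivity
  have he' := mul_le_mul_of_nonneg_left he hσ.le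
  have h9 : σ * r ^ 2 ≤ σ * 9 := mul_le_mul_of_nonneg_left (by nlinarith) hσ.le
  have hΛ : 0 ≤ σ * (a3 + 6) * r := by positivity
  have lat : c ^ 2 ≤ ξ ^ 2 + t ^ 2 → σ * (2 * a3 + 12) ≤ pen := by
    intro h
    rw [hpen, le_div_iff₀ (by positivity)]
    exact mul_le_mul_of_nonneg_left h (by positivity)
  by_cases h1 : |t| ≤ c
  · by_cases h2 : ξ ≤ c
    · by_cases h3 : r0 ≤ r
      · have h4 : 2 < r := by
          by_contra h
          exact hcase ⟨h1, h2, h3, not_lt.1 h⟩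
        have h5 : σ * (a3 + 6) * 2 ≤ σ * (a3 + 6) * r :=
          mul_le_mul_of_nonneg_left h4.le (by positivity)
        linarith
      · push Not at h3
        have h6 : σ * r ^ 2 ≤ σ * 1 := mul_le_mul_of_nonneg_left (by nlinarith) hσ.le
        by_cases h4 : r / 2 < G
        · have h5 := mul_le_mul_of_nonneg_left (hin h3 h4) hσ.le
          have h7 := mul_le_mul_of_nonneg_left hb hσ.le
          linarith
        · push Not at h4
          have h5 : 1 * r ≤ γ * r := mul_le_mul_of_nonneg_right hγ1 hr'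
          linarith
    · push Not at h2
      have := lat (by nlinarith [sq_nonneg t])
      linarith
  · push Not at h1
    have h2 : c ^ 2 ≤ t ^ 2 := by
      rw [← sq_abs t]
      exact pow_le_pow_left₀ hc.le h1.le 2
    have := lat (by nlinarith [sq_nonneg ξ])
    linarith

section
variable {E : Type*} [NormedAddCommGroup E] [InnerProductSpace ℝ E] [FiniteDimensional ℝ E]
variable {ι : Type} [Fintype ι] [Nonempty ι]

omit [FiniteDimensional ℝ E] in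
theorem core_bd {u : E → ℝ} {L C R D γ κ σ r0 P a3 δ mg : ℝ} {p : E} {J1 m : ℕ}
    (hPk : Pk u L C R (2 * R * P) D) (hc : Cyl u C R (2 * R * P) 0 p κ) (hP2 : 2 ≤ P)
    (hD : 2 * UU ι L (2 * R * P) ≤ D) (hG : Gb ι u γ D 4) (hσ0 : 0 < σ) (hγ1 : 1 ≤ γ)
    (hγσ : γ ≤ 1 + σ) (ha30 : 21 * R ^ 2 ≤ a3) (hr01 : r0 ≤ 1)
    (hσa : σ * (8 * a3 + 30) ≤ r0) (hmg : mg ≤ r0 / 2) (hb : 2 * a3 + 8 ≤ 2 * (m * δ))
    (e1 : (2 : ℝ) ^ (J1 * m) * r0 = 1)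
    (hflat : ∀ (τ : ℝ) (B : ι → E), 0 < τ → 2 ^ J1 * τ ≤ 1 →
        ‖cen B‖ + UU ι L (2 * R * P) ≤ D →
        ep (-u) (2 ^ J1 * τ) (cen B) - ep (-u) τ (cen B) ≤ δ → rms B ≤ τ → GN u B ≤ rms B / 2)
    (B : ι → E) (t : ℝ) (hN' : Near R (2 * R * P) 0 p B)
    (h1 : Reg 0 p (P / 2 + mg) (r0 - mg) (2 + mg) B t) (h2 : ¬ Reg 0 p (P / 2) r0 2 B t) :
    Psi u σ (γ + σ * (a3 + 6)) σ (σ * (2 * a3 + 12)) (P / 2) 0 p B t
      ≤ 1 - (γ + σ * (a3 + 6)) + σ * (3 * κ + 21 * R ^ 2 - a3) := by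
  have hR := hPk.four_le
  have hL := hPk.hL
  have hρ : 0 < 2 * R * P := by positivity
  have hUU : 0 ≤ UU ι L (2 * R * P) := by unfold UU; positivity
  have hD' : ‖(0 : E)‖ + UU ι L (2 * R * P) ≤ D := by rw [norm_zero]; linarith
  have e2R : 2 * R * P / (2 * R) = P := by field_simp
  have ha0 : 0 ≤ a3 := le_trans (by positivity) ha30
  have hσ1 : σ * 30 ≤ r0 := by linarith [mul_nonneg hσ0.le ha0]
  have hcD := hN'.cen_le_D hPk hc hρ le_rfl hD'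
  have hcU : ‖cen B‖ + UU ι L (2 * R * P) ≤ D := by
    have h3 := hN'.cen_le hPk hc hρ le_rfl
    have h4 : 0 ≤ 2 * R * P * (L / 2) := by positivity
    have h5 : 2 * R * P * (L + 2) ≤ UU ι L (2 * R * P) := by
      unfold UU; linarith [Real.sqrt_nonneg (Fintype.card ι : ℝ)]
    rw [norm_zero] at h3
    linarith
  unfold Psi
  refine core_cases (b := m * δ) (r0 := r0) hσ0 hγ1 hγσ (by positivity) ha30
    (by linarith [h1.2.2.1]) (by linarith [h1.2.2.2]) (by linarith) hr01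
    (hG B hcD (by linarith [h1.2.2.2]))
    (hN'.es_le hPk hc hρ le_rfl hD' hσ0 (by rw [e2R]; linarith)) (by linarith)
    (norm_nonneg _) rfl hσa hb ?_ h2
  intro h3 h4
  have h5 := core_chain (v := -u) (x := cen B) (δ := δ) (J1 := J1) (m := m) (by linarith) e1.le
    (fun τ h6 h7 => by
      by_contra h8
      push Not at h8
      have := hflat τ B (by linarith) h7 hcU h8.le (by linarith)
      linarith) m le_rfl
  rw [e1] at h5
  have h6 := hN'.ep_cen_le hPk hc hρ le_rfl hD' one_pos (by rw [e2R]; linarith)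
  have h7 := hN'.av_ep_le hPk hc hρ le_rfl hD' hσ0 (by rw [e2R]; linarith)
  have h8 := hPk.monoN _ hcD (2 * σ) r0 (by linarith) (by linarith) (by nlinarith)
  unfold es
  linarith

theorem core_mp {u : E → ℝ} {L C R D γ κ σ r0 P a3 δ A : ℝ} {p : E} {J1 m k : ℕ}
    (hPk : Pk u L C R (2 * R * P) D) (hc : Cyl u C R (2 * R * P) 0 p κ) (hP2 : 2 ≤ P)
    (hD : 2 * UU ι L (2 * R * P) ≤ D) (hG : Gb ι u γ D 4) (hσ0 : 0 < σ) (hγ1 : 1 ≤ γ)
    (hγσ : γ ≤ 1 + σ) (ha30 : 21 * R ^ 2 ≤ a3) (hr01 : r0 ≤ 1)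
    (hσa : σ * (8 * a3 + 30) ≤ r0) (hσA : σ * A ≤ r0 / 2) (hb : 2 * a3 + 8 ≤ 2 * (m * δ))
    (e1 : (2 : ℝ) ^ (J1 * m) * r0 = 1)
    (hflat : ∀ (τ : ℝ) (B : ι → E), 0 < τ → 2 ^ J1 * τ ≤ 1 →
        ‖cen B‖ + UU ι L (2 * R * P) ≤ D →
        ep (-u) (2 ^ J1 * τ) (cen B) - ep (-u) τ (cen B) ≤ δ → rms B ≤ τ → GN u B ≤ rms B / 2)
    (hk : 2 * R * P / (R * 2 ^ (k + 2)) ≤ 2 * σ) (hA : 25 * R * (k + 1) ≤ A)
    (n3 : 8 * (2 * a3 + 12) ^ 2 + 4 * (2 * a3 + 12) * (A ^ 2 + 1) < (P / 2) ^ 2)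
    (B : ι → E) (hB : cen B = 0) (hr : rms B = 1) :
    GN u B + σ * es u σ B ≤ 1 + σ * (3 * κ + 21 * R ^ 2 - a3) := by
  have hR := hPk.four_le
  have hL := hPk.hL
  have hρ : 0 < 2 * R * P := by positivity
  have hUU : 0 ≤ UU ι L (2 * R * P) := by unfold UU; positivity
  have hD' : ‖(0 : E)‖ + UU ι L (2 * R * P) ≤ D := by rw [norm_zero]; linarith
  have e2R : 2 * R * P / (2 * R) = P := by field_simp
  have ha0 : 0 ≤ a3 := le_trans (by positivity) ha30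
  have hσa0 := mul_nonneg hσ0.le ha0
  have hA3 : 3 ≤ A := by
    have : 0 ≤ R * k := by positivity
    linarith
  have hσA0 : 0 < σ * A := by positivity
  have h5 : P ≤ 2 * R * P := le_mul_of_one_le_left (by linarith) (by linarith)
  have h6 : 4 ≤ 2 * R * P := by nlinarith
  have hnear : ∀ (B : ι → E) (t : ℝ), Reg 0 p (P / 2 + σ * A) (r0 - σ * A) (2 + σ * A) B t →
      Near R (2 * R * P) 0 p B := by
    rintro B t ⟨h1, h2, -, h4⟩
    exact ⟨t, cen B - 0 - t • p, by rw [e2R]; linarith, by linarith, by abel, by linarith,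
      by linarith⟩
  have hmp := mpw (ι := ι) (n := k) (σ := σ) (A := A) (lam := γ + σ * (a3 + 6))
    (μ := σ) (h := σ * (2 * a3 + 12)) (c := P / 2) (l0 := 1) (r0 := r0) (r1 := 2)
    (β := 1 - (γ + σ * (a3 + 6)) + σ * (3 * κ + 21 * R ^ 2 - a3)) (x := 0) (w := p)
    hPk hc hρ le_rfl hD' hk
    (by rw [e2R]; linarith) (by rw [sub_self, norm_zero]; linarith) hA
    (by linarith) hσ0.le (by positivity) (by linarith)
    zero_le_one (by linarith) (by linarith)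
    (by
      have := mul_lt_mul_of_pos_left n3 (by positivity : 0 < σ ^ 2)
      linarith)
    (fun B t h => hnear B t ⟨by linarith [h.1], by linarith [h.2.1], by linarith [h.2.2.1],
      by linarith [h.2.2.2]⟩)
    (fun B t h1 h2 => core_bd hPk hc hP2 hD hG hσ0 hγ1 hγσ ha30 hr01 hσa hσA hb e1 hflat B t
      (hnear B t h1) h1 h2)
    B 0 ⟨by rw [abs_zero]; linarith, by rw [hB]; simp; linarith, by linarith, by linarith⟩
  unfold Psi at hmp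
  rw [hB, hr] at hmp
  simp only [zero_smul, sub_self, norm_zero, ne_eq, OfNat.ofNat_ne_zero, not_false_eq_true,
    zero_pow, add_zero, mul_zero, zero_div] at hmp
  linarith

end

theorem core (E : Type*) [NormedAddCommGroup E] [InnerProductSpace ℝ E] [FiniteDimensional ℝ E]
    (C R : ℝ) : ∃ (N0 : ℕ) (ρ1 γ0 : ℝ), 1 ≤ ρ1 ∧ 1 < γ0 ∧
      ∀ (ι : Type) [Fintype ι] [Nonempty ι] (u : E → ℝ) (L D γ : ℝ) (B : ι → E),
        N0 ≤ Fintype.card ι → Pk u L C R ρ1 D → 1 ≤ γ → γ ≤ γ0 → 2 * UU ι L ρ1 ≤ D →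
        Gb ι u γ D 4 → cen B = 0 → rms B = 1 → GN u B ≤ 1 := by
  by_cases hR : 4 ≤ R
  swap
  · exact ⟨0, 1, 2, le_rfl, by norm_num, fun ι _ _ u L D γ B _ hP => absurd hP.four_le hR⟩
  obtain ⟨δ, J1, hδ, hJ1, hflat⟩ := flat E R
  obtain ⟨J2, hJ2⟩ := exists_nat_ge (200 * R ^ 2 / δ)
  rw [div_le_iff₀ hδ] at hJ2
  have hR2 : 16 ≤ R ^ 2 := by nlinarith
  have hJ2' : 1 ≤ J2 := by
    rcases Nat.eq_zero_or_pos J2 with h | h
    · rw [h] at hJ2; simp only [Nat.cast_zero, zero_mul] at hJ2; linarith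
    · exact h
  obtain ⟨J, hJ⟩ : ∃ J, J = J1 * J2 := ⟨_, rfl⟩
  have hJ1' : 1 ≤ J := by rw [hJ]; exact Nat.mul_pos hJ1 hJ2'
  have hJr : (1 : ℝ) ≤ J := by exact_mod_cast hJ1'
  obtain ⟨n, hn1, hn⟩ := core_exists_n
    (K := 10 ^ 7 * R ^ 4 * ((J : ℝ) + 2) ^ 2 * 2 ^ J) (by positivity)
  have hnr : (1 : ℝ) ≤ n := by exact_mod_cast hn1
  obtain ⟨n1, n2, n4, n3⟩ := core_num hR hJr (one_le_pow₀ (by norm_num)) hnr hn
  clear hn
  obtain ⟨σ, hσ⟩ : ∃ σ : ℝ, σ = 1 / 2 ^ (n + n * J) := ⟨_, rfl⟩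
  obtain ⟨r0, hr0⟩ : ∃ r0 : ℝ, r0 = 1 / 2 ^ (n * J) := ⟨_, rfl⟩
  have hP2 : (2 : ℝ) ≤ 2 ^ n := by
    calc (2 : ℝ) = 2 ^ 1 := by norm_num
      _ ≤ 2 ^ n := pow_le_pow_right₀ (by norm_num) hn1
  have hσ0 : 0 < σ := by rw [hσ]; positivity
  have hr01 : r0 ≤ 1 := by
    rw [hr0, div_le_one (by positivity)]; exact one_le_pow₀ (by norm_num)
  have hσP : σ * 2 ^ n = r0 := by rw [hσ, hr0, pow_add]; field_simp
  have hρ4 : 4 * R ≤ 2 * R * 2 ^ n := by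
    linarith [mul_le_mul_of_nonneg_left hP2 (by linarith : 0 ≤ 2 * R)]
  refine ⟨⌈16 * C ^ 2 * J * 4 ^ J⌉₊, 2 * R * 2 ^ n, 1 + σ / (4 * J), by linarith,
    lt_add_of_pos_right _ (by positivity), ?_⟩
  intro ι _ _ u L D γ B hN hPk hγ1 hγ hD hG hB hr
  by_contra hGB
  push Not at hGB
  have hL := hPk.hL
  have hUU : 0 ≤ UU ι L (2 * R * 2 ^ n) := by unfold UU; positivity
  obtain ⟨p, κ, hc⟩ := hPk.cyl 0 (by rw [norm_zero]; linarith) _ (by positivity) le_rfl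
  have hσA := mul_le_mul_of_nonneg_left n2 hσ0.le
  rw [hσP] at hσA
  have hσa := mul_le_mul_of_nonneg_left n4 hσ0.le
  rw [hσP] at hσa
  have hσA0 : 0 ≤ σ * (R * (2 * n + n * J + 1)) := by positivity
  have hσRn : 0 ≤ σ * (R ^ 2 * n) := by positivity
  have hσR : 0 ≤ σ * R ^ 2 := by positivity
  have hγσ : γ ≤ 1 + σ := by
    have : σ / (4 * J) ≤ σ := div_le_self hσ0.le (by linarith)
    linarith
  have href := ref_es (σ := σ) hPk hc le_rfl hD hγ1 hG hJ1'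
    ((Nat.le_ceil _).trans (by exact_mod_cast hN)) n1 hσ (by linarith) hγ hB hr hGB.le
  have hRn : R ^ 2 ≤ R ^ 2 * n := le_mul_of_one_le_right (by positivity) hnr
  have hG2 : Gb ι u 2 D 4 := fun B h1 h2 => (hG B h1 h2).trans
    (mul_le_mul_of_nonneg_right (by linarith) (rms_nonneg B))
  have hb := mul_le_mul_of_nonneg_left hJ2 (by linarith : (0 : ℝ) ≤ n)
  have hmp := core_mp (a3 := 96 * (R ^ 2 * (n + 1))) (A := 25 * R * (2 * n + n * J + 1))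
    (J1 := J1) (m := n * J2) (k := 2 * n + n * J) (δ := δ) (r0 := r0)
    hPk hc hP2 hD hG hσ0 hγ1 hγσ (by linarith) hr01 (by linarith) (by linarith)
    (by push_cast; linarith)
    (by rw [hr0, hJ, show J1 * (n * J2) = n * (J1 * J2) by ring]; field_simp)
    (fun τ B h1 h2 h3 h4 h5 => hflat ι u L C _ D τ B hPk hρ4 hG2 h1 h2 h3 h4 h5)
    (by
      have : 2 * R * 2 ^ n / (R * 2 ^ (2 * n + n * J + 2)) = σ / 2 := by
        rw [hσ]; field_simp; ring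
      rw [this]; linarith)
    (by push_cast; exact le_rfl) (by linarith) B hB hr
  have h1 := mul_le_mul_of_nonneg_left href hσ0.le
  linarith

end Vale.Agent.P080
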