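import Vale.Agent.P080.Basic

/-!
# P080: consequences of the package `Pk` for optimal velocities and growth rates
-/

namespace Vale.Agent.P080

open scoped RealInnerProductSpace

section
variable {E : Type*} [NormedAddCommGroup E] [InnerProductSpace ℝ E]
variable {u : E → ℝ} {L C R ρ ρ1 D s κ t τ : ℝ} {x p a y : E} {n : ℕ}

theorem half_add {ρ R t s : ℝ} (hR : 0 < R) (ht : |t| ≤ ρ / (2 * R)) (hs : |s| ≤ ρ / (2 * R)) :
    |t + s| ≤ ρ / R := by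
  have h : ρ / (2 * R) + ρ / (2 * R) = ρ / R := by field_simp; ring
  linarith [abs_add_le t s]

theorem Cyl.up_a (hc : Cyl u C R ρ x p κ) (hC : 1 ≤ C) (hR : 4 * C ≤ R) (hρ : 0 < ρ)
    (ht : |t| ≤ ρ / (2 * R)) (hs : 0 < s) (hs' : s ≤ ρ / (2 * R)) (y a : E) :
    u (x + t • p + y + s • a) - s * ‖a‖ ^ 2 / 2 ≤ u x + ⟪p, y⟫ + (t + s) * κ + t * ‖p‖ ^ 2 / 2
      - s * ‖a - p‖ ^ 2 / 4 + 2 * C * (ρ + ‖y‖ ^ 2 / ρ) := by
  have hR0 : 0 < R := by linarith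
  have h1 := (abs_le.1 (hc (t + s) (y + s • (a - p))
    (half_add hR0 ht (by rwa [abs_of_pos hs])))).2
  have e1 : x + (t + s) • p + (y + s • (a - p)) = x + t • p + y + s • a := by module
  rw [e1, inner_add_right, inner_smul_right] at h1
  have e2 : ‖a‖ ^ 2 = ‖p‖ ^ 2 + 2 * ⟪p, a - p⟫ + ‖a - p‖ ^ 2 := by
    rw [← norm_add_sq_real, add_sub_cancel]
  have e3 : ‖y + s • (a - p)‖ ^ 2 ≤ 2 * ‖y‖ ^ 2 + 2 * (s ^ 2 * ‖a - p‖ ^ 2) := by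
    have := norm_add_le y (s • (a - p))
    rw [norm_smul, Real.norm_eq_abs, abs_of_pos hs] at this
    have h2 := pow_le_pow_left₀ (norm_nonneg _) this 2
    nlinarith [sq_nonneg (‖y‖ - s * ‖a - p‖)]
  have e4 : ‖y + s • (a - p)‖ ^ 2 / ρ ≤ 2 * (‖y‖ ^ 2 / ρ) + 2 * (s / ρ) * (s * ‖a - p‖ ^ 2) := by
    calc _ ≤ (2 * ‖y‖ ^ 2 + 2 * (s ^ 2 * ‖a - p‖ ^ 2)) / ρ := div_le_div_of_nonneg_right e3 hρ.le
      _ = _ := by ring
  have e5 : C * (s / ρ) ≤ 1 / 8 := by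
    rw [le_div_iff₀ (by positivity)] at hs'
    rw [← mul_div_assoc, div_le_iff₀ hρ]
    nlinarith
  have e6 : C * (s / ρ) * (s * ‖a - p‖ ^ 2) ≤ 1 / 8 * (s * ‖a - p‖ ^ 2) :=
    mul_le_mul_of_nonneg_right e5 (by positivity)
  have e7 := mul_le_mul_of_nonneg_left e4 (by linarith : 0 ≤ C)
  have e8 : 0 ≤ C * ρ := by positivity
  rw [e2]
  nlinarith

theorem Cyl.low_p (hc : Cyl u C R ρ x p κ) (hR0 : 0 < R)
    (ht : |t| ≤ ρ / (2 * R)) (hs : 0 < s) (hs' : s ≤ ρ / (2 * R)) (y : E) :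
    u x + ⟪p, y⟫ + (t + s) * κ + t * ‖p‖ ^ 2 / 2 - C * (ρ + ‖y‖ ^ 2 / ρ)
      ≤ u (x + t • p + y + s • p) - s * ‖p‖ ^ 2 / 2 := by
  have h1 := (abs_le.1 (hc (t + s) y (half_add hR0 ht (by rwa [abs_of_pos hs])))).1
  have e1 : x + (t + s) • p + y = x + t • p + y + s • p := by module
  rw [e1] at h1
  linarith

theorem Cyl.at (hc : Cyl u C R ρ x p κ) (hR0 : 0 < R) (hρ : 0 < ρ)
    (ht : |t| ≤ ρ / (2 * R)) (y : E) :
    |u (x + t • p + y) - u x - ⟪p, y⟫ - t * (κ + ‖p‖ ^ 2 / 2)| ≤ C * (ρ + ‖y‖ ^ 2 / ρ) := by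
  refine hc t y (ht.trans ?_)
  exact div_le_div_of_nonneg_left hρ.le hR0 (by linarith)

theorem scale_aux {C R ρ s e k : ℝ} (hC : 1 ≤ C) (hR : 4 * C ≤ R) (hρ : 0 < ρ) (he : 0 ≤ e)
    (hk : 0 ≤ k) (hs : ρ / (4 * R) ≤ s) : k * C * (ρ + e / ρ) ≤ s * (k * R ^ 2 * (1 + e / ρ ^ 2)) := by
  have hR0 : 0 < R := by linarith
  rw [div_le_iff₀ (by positivity)] at hs
  have h1 : ρ + e / ρ = ρ * (1 + e / ρ ^ 2) := by field_simp
  have h2 : 0 ≤ 1 + e / ρ ^ 2 := by positivity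
  have hs0 : 0 ≤ s := by
    by_contra h
    push Not at h
    nlinarith
  have h3 : C * ρ ≤ s * R ^ 2 := by nlinarith [mul_nonneg hs0 hR0.le]
  rw [h1]
  have := mul_le_mul_of_nonneg_left h3 (mul_nonneg hk h2)
  nlinarith

theorem Cyl.vel0 (hc : Cyl u C R ρ x p κ) (hu : Lip u L) (hC : 1 ≤ C) (hR : 4 * C ≤ R)
    (hρ : 0 < ρ) (ht : |t| ≤ ρ / (2 * R)) (hs : ρ / (4 * R) ≤ s) (hs' : s ≤ ρ / (2 * R))
    (ha : Opt u s (x + t • p + y) a) : ‖a - p‖ ^ 2 ≤ 12 * R ^ 2 * (1 + ‖y‖ ^ 2 / ρ ^ 2) := by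
  have hR0 : 0 < R := by linarith
  have hs0 : 0 < s := lt_of_lt_of_le (by positivity) hs
  have h1 := hc.up_a hC hR hρ ht hs0 hs' y a
  have h2 := hc.low_p hR0 ht hs0 hs' y
  have h3 := hu.le_Tp hs0 (x + t • p + y) p
  unfold Opt at ha
  have h4 := scale_aux hC hR hρ (sq_nonneg ‖y‖) (by norm_num : (0 : ℝ) ≤ 12) hs
  exact le_of_mul_le_mul_left (by linarith) hs0

theorem Cyl.up0 (hc : Cyl u C R ρ x p κ) (hC : 1 ≤ C) (hR : 4 * C ≤ R)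
    (hρ : 0 < ρ) (ht : |t| ≤ ρ / (2 * R)) (hs : ρ / (4 * R) ≤ s) (hs' : s ≤ ρ / (2 * R)) (y : E) :
    ep u s (x + t • p + y) ≤ κ + 3 * R ^ 2 * (1 + ‖y‖ ^ 2 / ρ ^ 2) := by
  have hR0 : 0 < R := by linarith
  have hs0 : 0 < s := lt_of_lt_of_le (by positivity) hs
  refine ep_le_of hs0 fun a => ?_
  have h1 := hc.up_a hC hR hρ ht hs0 hs' y a
  have h2 := (abs_le.1 (hc.at hR0 hρ ht y)).1
  have h4 := scale_aux hC hR hρ (sq_nonneg ‖y‖) (by norm_num : (0 : ℝ) ≤ 3) hs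
  have h5 : 0 ≤ s * ‖a - p‖ ^ 2 := by positivity
  linarith

theorem Cyl.low0 (hc : Cyl u C R ρ x p κ) (hu : Lip u L) (hC : 1 ≤ C) (hR : 4 * C ≤ R)
    (hρ : 0 < ρ) (ht : |t| ≤ ρ / (2 * R)) (hs : ρ / (4 * R) ≤ s) (hs' : s ≤ ρ / (2 * R)) (y : E) :
    κ - 3 * R ^ 2 * (1 + ‖y‖ ^ 2 / ρ ^ 2) ≤ ep u s (x + t • p + y) := by
  have hR0 : 0 < R := by linarith
  have hs0 : 0 < s := lt_of_lt_of_le (by positivity) hs
  have h1 := hc.low_p hR0 ht hs0 hs' y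
  have h2 := (abs_le.1 (hc.at hR0 hρ ht y)).2
  have h3 := hu.le_ep hs0 (x + t • p + y) p
  have h4 := scale_aux hC hR hρ (sq_nonneg ‖y‖) (by norm_num : (0 : ℝ) ≤ 3) hs
  have h5 : 0 ≤ C * (ρ + ‖y‖ ^ 2 / ρ) := by positivity
  exact le_of_mul_le_mul_left (by linarith) hs0

theorem Cyl.half {p' : E} {κ' : ℝ} (hc : Cyl u C R ρ x p κ) (hc' : Cyl u C R (ρ / 2) x p' κ')
    (hC : 1 ≤ C) (hR : 4 * C ≤ R) (hρ : 0 < ρ) : ‖p' - p‖ ≤ 2 * R := by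
  have hR0 : 0 < R := by linarith
  have h1 : ρ / 2 * ‖p' - p‖ ≤ ρ / 2 * (2 * R) := by
    refine norm_le_of_inner (by positivity) (by positivity) fun y hy => ?_
    have h2 := (abs_le.1 (hc.zero hρ hR0 y)).2
    have h3 := (abs_le.1 (hc'.zero (by positivity) hR0 y)).1
    rw [hy] at h2 h3
    have e1 : (ρ / 2) ^ 2 / ρ = ρ / 4 := by field_simp; ring
    have e2 : (ρ / 2) ^ 2 / (ρ / 2) = ρ / 2 := by field_simp
    rw [e1] at h2
    rw [e2] at h3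
    rw [inner_sub_left]
    nlinarith
  exact le_of_mul_le_mul_left h1 (by positivity)

theorem Cyl.shift {p' : E} {κ' Q : ℝ} (hc : Cyl u C R ρ x p κ)
    (hc' : Cyl u C R ρ (x + t • p + y) p' κ') (hC : 1 ≤ C) (hR : 4 * C ≤ R) (hρ : 0 < ρ)
    (ht : |t| ≤ ρ / (2 * R)) (hQ : 1 ≤ Q) (hQ2 : Q ^ 2 = 1 + ‖y‖ ^ 2 / ρ ^ 2) :
    ‖p' - p‖ ≤ 2 * R * Q := by
  have hR0 : 0 < R := by linarith
  have hy : ‖y‖ ^ 2 / ρ = ρ * (Q ^ 2 - 1) := by rw [hQ2]; field_simp; ring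
  have h1 : ρ * Q * ‖p' - p‖ ≤ ρ * Q * (2 * R * Q) := by
    refine norm_le_of_inner (by positivity) (by positivity) fun v hv => ?_
    have h2 := (abs_le.1 (hc.at hR0 hρ ht y)).1
    have h3 := (abs_le.1 (hc.at hR0 hρ ht (y + v))).2
    have h4 := (abs_le.1 (hc'.zero hρ hR0 v)).1
    rw [← add_assoc, inner_add_right] at h3
    have e1 : ‖v‖ ^ 2 / ρ = ρ * Q ^ 2 := by rw [hv]; field_simp
    have e2 : ‖y + v‖ ^ 2 / ρ ≤ 2 * (‖y‖ ^ 2 / ρ) + 2 * (‖v‖ ^ 2 / ρ) := by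
      have h5 := pow_le_pow_left₀ (norm_nonneg _) (norm_add_le y v) 2
      have h6 : ‖y + v‖ ^ 2 ≤ 2 * ‖y‖ ^ 2 + 2 * ‖v‖ ^ 2 := by nlinarith [sq_nonneg (‖y‖ - ‖v‖)]
      calc _ ≤ (2 * ‖y‖ ^ 2 + 2 * ‖v‖ ^ 2) / ρ := div_le_div_of_nonneg_right h6 hρ.le
        _ = _ := by ring
    have e3 := mul_le_mul_of_nonneg_left e2 (by linarith : 0 ≤ C)
    rw [hy, e1] at e3
    rw [hy] at h2
    rw [e1] at h4
    rw [inner_sub_left]
    have e4 : 0 ≤ (R - 4 * C) * (ρ * Q ^ 2) := mul_nonneg (by linarith) (by positivity)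
    have e5 : 0 ≤ C * (ρ * Q ^ 2) := by positivity
    nlinarith
  exact le_of_mul_le_mul_left h1 (by positivity)

theorem vel_self (hP : Pk u L C R ρ1 D) (hx : ‖x‖ ≤ D) (ha : Opt u s x a) (n : ℕ) :
    ∀ (ρ : ℝ) (p : E) (κ : ℝ), Cyl u C R ρ x p κ → 0 < ρ → ρ ≤ ρ1 →
      ρ / (R * 2 ^ (n + 2)) ≤ s → s ≤ ρ / (2 * R) → ‖a - p‖ ≤ (4 + 2 * n) * R := by
  have hR4 := hP.four_le
  have hR0 : 0 < R := by linarith
  have base : ∀ (ρ : ℝ) (p : E) (κ : ℝ), Cyl u C R ρ x p κ → 0 < ρ →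
      ρ / (4 * R) ≤ s → s ≤ ρ / (2 * R) → ‖a - p‖ ≤ 4 * R := by
    intro ρ p κ hc hρ h1 h2
    have h3 := hc.vel0 (t := 0) (y := 0) (a := a) hP.lip hP.hC hP.hR hρ
      (by rw [abs_zero]; positivity) h1 h2 (by simpa using ha)
    simp only [norm_zero, ne_eq, OfNat.ofNat_ne_zero, not_false_eq_true, zero_pow, zero_div,
      add_zero, mul_one] at h3
    exact (pow_le_pow_iff_left₀ (norm_nonneg _) (by positivity) two_ne_zero).1 (by nlinarith)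
  induction n with
  | zero =>
    intro ρ p κ hc hρ _ h1 h2
    have := base ρ p κ hc hρ (by convert h1 using 2; ring) h2
    simpa using this
  | succ n ih =>
    intro ρ p κ hc hρ hρ1 h1 h2
    have hn : (0 : ℝ) ≤ n := Nat.cast_nonneg n
    push_cast
    by_cases h : ρ / (4 * R) ≤ s
    · have := base ρ p κ hc hρ h h2
      nlinarith
    · push Not at h
      obtain ⟨p', κ', hc'⟩ := hP.cyl x hx (ρ / 2) (by positivity) (by linarith)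
      have h3 := ih (ρ / 2) p' κ' hc' (by positivity) (by linarith)
        (by convert h1 using 1; field_simp; ring)
        (by refine h.le.trans (le_of_eq ?_); field_simp; ring)
      have h4 := hc.half hc' hP.hC hP.hR hρ
      have h5 : a - p = (a - p') + (p' - p) := by abel
      rw [h5]
      linarith [norm_add_le (a - p') (p' - p)]

/-- Optimal velocities are close to the direction of the frame. -/
theorem vel (hP : Pk u L C R ρ1 D) (hc : Cyl u C R ρ x p κ) (hρ : 0 < ρ) (hρ1 : ρ ≤ ρ1)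
    (ht : |t| ≤ ρ / (2 * R)) (hX : ‖x + t • p + y‖ ≤ D)
    (hs : ρ / (R * 2 ^ (n + 2)) ≤ s) (hs' : s ≤ ρ / (2 * R)) (ha : Opt u s (x + t • p + y) a) :
    ‖a - p‖ ^ 2 ≤ (9 * R * (n + 1)) ^ 2 * (1 + ‖y‖ ^ 2 / ρ ^ 2) := by
  have hR4 := hP.four_le
  obtain ⟨p', κ', hc'⟩ := hP.cyl _ hX ρ hρ hρ1
  have h1 := vel_self hP hX ha n ρ p' κ' hc' hρ hρ1 hs hs'
  have hq : (1 : ℝ) ≤ 1 + ‖y‖ ^ 2 / ρ ^ 2 := le_add_of_nonneg_right (by positivity)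
  set Q := √(1 + ‖y‖ ^ 2 / ρ ^ 2) with hQ
  have hQ2 : Q ^ 2 = 1 + ‖y‖ ^ 2 / ρ ^ 2 := Real.sq_sqrt (by linarith)
  have hQ1 : 1 ≤ Q := Real.one_le_sqrt.2 hq
  have h2 := hc.shift hc' hP.hC hP.hR hρ ht hQ1 hQ2
  have hn : (0 : ℝ) ≤ n := Nat.cast_nonneg n
  have h3 : ‖a - p‖ ≤ 9 * R * (n + 1) * Q := by
    have h5 : a - p = (a - p') + (p' - p) := by abel
    rw [h5]
    have h6 := norm_add_le (a - p') (p' - p)
    have h7 : (4 + 2 * n) * R ≤ (4 + 2 * n) * R * Q :=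
      le_mul_of_one_le_right (by positivity) hQ1
    have h8 : 0 ≤ R * Q := by positivity
    have h9 : 0 ≤ n * (R * Q) := by positivity
    nlinarith
  rw [← hQ2, ← mul_pow]
  exact pow_le_pow_left₀ (norm_nonneg _) h3 2

theorem neg_frame (x p y : E) (t : ℝ) : x + t • p + y = x + (-t) • (-p) + y := by simp

theorem vel_neg (hP : Pk u L C R ρ1 D) (hc : Cyl u C R ρ x p κ) (hρ : 0 < ρ) (hρ1 : ρ ≤ ρ1)
    (ht : |t| ≤ ρ / (2 * R)) (hX : ‖x + t • p + y‖ ≤ D)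
    (hs : ρ / (R * 2 ^ (n + 2)) ≤ s) (hs' : s ≤ ρ / (2 * R))
    (ha : Opt (-u) s (x + t • p + y) a) :
    ‖a + p‖ ^ 2 ≤ (9 * R * (n + 1)) ^ 2 * (1 + ‖y‖ ^ 2 / ρ ^ 2) := by
  rw [neg_frame] at hX ha
  have := vel hP.neg hc.neg hρ hρ1 (by rwa [abs_neg]) hX hs hs' ha
  rwa [sub_neg_eq_add] at this

theorem Pk.half_le (hP : Pk u L C R ρ1 D) (hρ : 0 < ρ) (hρ1 : ρ ≤ ρ1) : ρ / (2 * R) ≤ ρ1 := by
  have hR4 := hP.four_le
  refine le_trans ?_ hρ1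
  exact div_le_self hρ.le (by linarith)

theorem Pk.quarter_le (hP : Pk u L C R ρ1 D) (hρ : 0 < ρ) : ρ / (4 * R) ≤ ρ / (2 * R) := by
  have hR4 := hP.four_le
  exact div_le_div_of_nonneg_left hρ.le (by linarith) (by linarith)

theorem ep_up (hP : Pk u L C R ρ1 D) (hc : Cyl u C R ρ x p κ) (hρ : 0 < ρ) (hρ1 : ρ ≤ ρ1)
    (ht : |t| ≤ ρ / (2 * R)) (hX : ‖x + t • p + y‖ ≤ D) (hs : 0 < s) (hs' : s ≤ ρ / (2 * R)) :
    ep u s (x + t • p + y) ≤ κ + 3 * R ^ 2 * (1 + ‖y‖ ^ 2 / ρ ^ 2) :=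
  (hP.mono _ hX s _ hs hs' (hP.half_le hρ hρ1)).trans
    (hc.up0 hP.hC hP.hR hρ ht (hP.quarter_le hρ) le_rfl y)

theorem ep_up_neg (hP : Pk u L C R ρ1 D) (hc : Cyl u C R ρ x p κ) (hρ : 0 < ρ) (hρ1 : ρ ≤ ρ1)
    (ht : |t| ≤ ρ / (2 * R)) (hX : ‖x + t • p + y‖ ≤ D) (hs : 0 < s) (hs' : s ≤ ρ / (2 * R)) :
    ep (-u) s (x + t • p + y) ≤ κ + 3 * R ^ 2 * (1 + ‖y‖ ^ 2 / ρ ^ 2) := by
  rw [neg_frame] at hX ⊢
  exact ep_up hP.neg hc.neg hρ hρ1 (by rwa [abs_neg]) hX hs hs'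

theorem Cyl.ep_self (hc : Cyl u C R (4 * R * s) x p κ) (hu : Lip u L) (hC : 1 ≤ C)
    (hR : 4 * C ≤ R) (hs : 0 < s) {s' : ℝ} (h2 : s ≤ s') (h3 : s' ≤ 2 * s) :
    κ - 3 * R ^ 2 ≤ ep u s' x ∧ ep u s' x ≤ κ + 3 * R ^ 2 := by
  have hR0 : 0 < R := by linarith
  have hρ : 0 < 4 * R * s := by positivity
  have e1 : 4 * R * s / (4 * R) ≤ s' := by rwa [mul_div_cancel_left₀ _ (by positivity)]
  have e2 : s' ≤ 4 * R * s / (2 * R) := by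
    refine h3.trans (le_of_eq ?_); field_simp; ring
  have ht : |(0 : ℝ)| ≤ 4 * R * s / (2 * R) := by rw [abs_zero]; positivity
  have h4 := hc.low0 hu hC hR hρ ht e1 e2 0
  have h5 := hc.up0 hC hR hρ ht e1 e2 0
  simp only [zero_smul, add_zero, norm_zero, ne_eq, OfNat.ofNat_ne_zero, not_false_eq_true,
    zero_pow, zero_div, mul_one] at h4 h5
  exact ⟨h4, h5⟩

/-- Growth rates of `u` at comparable times are comparable. -/
theorem ep_near (hP : Pk u L C R ρ1 D) (hx : ‖x‖ ≤ D) (hs : 0 < s) (h1 : 4 * R * s ≤ ρ1)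
    {s' s'' : ℝ} (h2 : s ≤ s') (h3 : s' ≤ 2 * s) (h4 : s ≤ s'') (h5 : s'' ≤ 2 * s) :
    ep u s' x ≤ ep u s'' x + 6 * R ^ 2 := by
  have hR4 := hP.four_le
  obtain ⟨p, κ, hc⟩ := hP.cyl x hx (4 * R * s) (by positivity) h1
  linarith [(hc.ep_self hP.lip hP.hC hP.hR hs h2 h3).2, (hc.ep_self hP.lip hP.hC hP.hR hs h4 h5).1]

/-- Growth rates of `u` and `-u` at comparable times are comparable. -/
theorem ep_near_neg (hP : Pk u L C R ρ1 D) (hx : ‖x‖ ≤ D) (hs : 0 < s) (h1 : 4 * R * s ≤ ρ1)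
    {s' s'' : ℝ} (h2 : s ≤ s') (h3 : s' ≤ 2 * s) (h4 : s ≤ s'') (h5 : s'' ≤ 2 * s) :
    ep u s' x ≤ ep (-u) s'' x + 6 * R ^ 2 := by
  have hR4 := hP.four_le
  obtain ⟨p, κ, hc⟩ := hP.cyl x hx (4 * R * s) (by positivity) h1
  linarith [(hc.ep_self hP.lip hP.hC hP.hR hs h2 h3).2,
    (hc.neg.ep_self hP.lip.neg hP.hC hP.hR hs h4 h5).1]

theorem ep_dy (hP : Pk u L C R ρ1 D) (hx : ‖x‖ ≤ D) (hs : 0 < s) (h1 : 2 * R * s ≤ ρ1) (J : ℕ) :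
    ep u s x ≤ ep u (s / 2 ^ J) x + 6 * R ^ 2 * J := by
  have hR4 := hP.four_le
  induction J with
  | zero => simp
  | succ J ih =>
    have h2 : (1 : ℝ) ≤ 2 ^ J := one_le_pow₀ (by norm_num)
    have e1 : s / 2 ^ J = 2 * (s / 2 ^ (J + 1)) := by field_simp; ring
    have h3 : s / 2 ^ J ≤ s := div_le_self hs.le h2
    have h4 : 0 < s / 2 ^ (J + 1) := by positivity
    have h5 := ep_near hP hx h4 (by nlinarith) (s' := s / 2 ^ J) (s'' := s / 2 ^ (J + 1))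
      (by linarith) e1.le le_rfl (by linarith)
    push_cast
    linarith

theorem ep_low (hP : Pk u L C R ρ1 D) (hc : Cyl u C R ρ x p κ) (hρ : 0 < ρ) (hρ1 : ρ ≤ ρ1)
    (ht : |t| ≤ ρ / (2 * R)) (hX : ‖x + t • p + y‖ ≤ D)
    (hs : ρ / (R * 2 ^ (n + 2)) ≤ s) (hs' : s ≤ ρ / (2 * R)) :
    κ - 3 * R ^ 2 * (1 + ‖y‖ ^ 2 / ρ ^ 2) - 6 * R ^ 2 * n ≤ ep u s (x + t • p + y) := by
  have hR4 := hP.four_le
  have h1 := hc.low0 hP.lip hP.hC hP.hR hρ ht le_rfl (hP.quarter_le hρ) y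
  have h2 := ep_dy hP hX (s := ρ / (4 * R)) (by positivity)
    (by
      have : 2 * R * (ρ / (4 * R)) = ρ / 2 := by field_simp; ring
      linarith) n
  have e1 : ρ / (4 * R) / 2 ^ n = ρ / (R * 2 ^ (n + 2)) := by field_simp; ring
  rw [e1] at h2
  have h3 := hP.mono _ hX _ s (by positivity) hs (hs'.trans (hP.half_le hρ hρ1))
  linarith

theorem ep_low_neg (hP : Pk u L C R ρ1 D) (hc : Cyl u C R ρ x p κ) (hρ : 0 < ρ) (hρ1 : ρ ≤ ρ1)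
    (ht : |t| ≤ ρ / (2 * R)) (hX : ‖x + t • p + y‖ ≤ D)
    (hs : ρ / (R * 2 ^ (n + 2)) ≤ s) (hs' : s ≤ ρ / (2 * R)) :
    κ - 3 * R ^ 2 * (1 + ‖y‖ ^ 2 / ρ ^ 2) - 6 * R ^ 2 * n ≤ ep (-u) s (x + t • p + y) := by
  rw [neg_frame] at hX ⊢
  exact ep_low hP.neg hc.neg hρ hρ1 (by rwa [abs_neg]) hX hs hs'

end

section
variable {E : Type*} [NormedAddCommGroup E] [InnerProductSpace ℝ E] [FiniteDimensional ℝ E]
variable {u : E → ℝ} {L C R ρ ρ1 D s κ t τ : ℝ} {x p a y : E} {n : ℕ}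

/-- The backward rate at a small time is almost below the forward rate at a larger time. -/
theorem cross (hP : Pk u L C R ρ1 D) (hτ : 0 < τ) (h1 : 4 * R * (2 ^ n * τ) ≤ ρ1)
    (hx : ‖x‖ + 2 * L * τ ≤ D) :
    ep (-u) τ x ≤ ep u (2 ^ n * τ) x + 400 * R ^ 2 * (n + 1) ^ 2 / 2 ^ n := by
  have hR4 := hP.four_le
  have hL := hP.hL
  have hn1 : (n : ℝ) + 1 ≤ 2 ^ n := by exact_mod_cast Nat.lt_two_pow_self
  have hn0 : (0 : ℝ) ≤ n := Nat.cast_nonneg n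
  have h2n : (1 : ℝ) ≤ 2 ^ n := by linarith
  set S := 2 ^ n * τ with hS
  have hτS : τ ≤ S := le_mul_of_one_le_left hτ.le h2n
  have hS0 : 0 < S := by linarith
  have hx' : ‖x‖ ≤ D := by nlinarith [mul_nonneg hL hτ.le]
  have hρ : 0 < 4 * R * S := by positivity
  obtain ⟨p, κ, hc⟩ := hP.cyl x hx' _ hρ h1
  obtain ⟨b, hb⟩ := hP.lip.neg.exists_opt hL hτ x
  have e2 : 4 * R * S / (2 * R) = 2 * S := by field_simp; ring
  have e4 : 4 * R * S / (4 * R) = S := by field_simp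
  have hb1 : ‖b + p‖ ≤ 9 * R * (n + 1) := by
    have := vel_neg (t := 0) (y := 0) (n := n) (s := τ) (a := b) hP hc hρ h1
      (by rw [abs_zero]; positivity) (by simpa using hx')
      (by rw [hS]; apply le_of_eq; field_simp; ring) (by rw [e2]; linarith) (by simpa using hb)
    simp only [norm_zero, ne_eq, OfNat.ofNat_ne_zero, not_false_eq_true, zero_pow, zero_div,
      add_zero, mul_one] at this
    exact (pow_le_pow_iff_left₀ (norm_nonneg _) (by positivity) two_ne_zero).1 this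
  have hW : ‖x + τ • b‖ ≤ D := by
    have h2 := norm_add_le x (τ • b)
    rw [norm_smul, Real.norm_eq_abs, abs_of_pos hτ] at h2
    have h3 := mul_le_mul_of_nonneg_left (hb.norm_le hP.lip.neg hL hτ) hτ.le
    linarith
  obtain ⟨a, ha⟩ := hP.lip.exists_opt hL (by linarith : 0 < S + τ) (x + τ • b)
  have ha1 : ‖a - p‖ ≤ 9 * R := by
    have eW : x + τ • b = x + (-τ) • p + τ • (b + p) := by module
    have h2 := hc.vel0 (t := -τ) (y := τ • (b + p)) (s := S + τ) (a := a) hP.lip hP.hC hP.hR hρ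
      (by rw [abs_neg, abs_of_pos hτ, e2]; linarith) (by rw [e4]; linarith)
      (by rw [e2]; linarith) (by rwa [← eW])
    have h3 : ‖τ • (b + p)‖ ≤ 9 / 4 * (4 * R * S) := by
      rw [norm_smul, Real.norm_eq_abs, abs_of_pos hτ]
      calc τ * ‖b + p‖ ≤ τ * (9 * R * (n + 1)) := mul_le_mul_of_nonneg_left hb1 hτ.le
        _ ≤ τ * (9 * R * 2 ^ n) := by gcongr
        _ = 9 / 4 * (4 * R * S) := by rw [hS]; ring
    have h4 : ‖τ • (b + p)‖ ^ 2 / (4 * R * S) ^ 2 ≤ (9 / 4) ^ 2 := by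
      rw [div_le_iff₀ (by positivity), ← mul_pow]
      exact pow_le_pow_left₀ (norm_nonneg _) h3 2
    refine (pow_le_pow_iff_left₀ (norm_nonneg _) (by positivity) two_ne_zero).1 ?_
    nlinarith [mul_le_mul_of_nonneg_left h4 (sq_nonneg R), sq_nonneg R]
  have hab : ‖a + b‖ ^ 2 ≤ 400 * R ^ 2 * (n + 1) ^ 2 := by
    have h2 : a + b = (a - p) + (b + p) := by abel
    have h3 : ‖a + b‖ ≤ 20 * R * (n + 1) := by
      rw [h2]
      nlinarith [norm_add_le (a - p) (b + p), mul_nonneg (by linarith : 0 ≤ R) hn0]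
    have := pow_le_pow_left₀ (norm_nonneg _) h3 2
    nlinarith
  have k1 := hb.eq hτ
  have k2 := hP.lip.le_ep hτ (x + τ • b) (-b)
  have e5 : x + τ • b + τ • (-b) = x := by module
  rw [e5, norm_neg] at k2
  simp only [Pi.neg_apply] at k1
  have k2' : ep (-u) τ x ≤ ep u τ (x + τ • b) := le_of_mul_le_mul_left (by linarith) hτ
  have k3 := hP.mono _ hW τ (S + τ) hτ (by linarith) (by nlinarith)
  have k4 := ha.eq (by linarith : 0 < S + τ)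
  have k5 := hP.lip.le_ep hS0 x (a + (τ / S) • (a + b))
  have e6 : x + S • (a + (τ / S) • (a + b)) = x + τ • b + (S + τ) • a := by
    rw [smul_add, smul_smul, mul_div_cancel₀ _ hS0.ne']
    module
  rw [e6, norm_add_sq_real, inner_smul_right, norm_smul, Real.norm_eq_abs,
    abs_of_pos (div_pos hτ hS0)] at k5
  have e7 : ‖b‖ ^ 2 = ‖a + b‖ ^ 2 - 2 * ⟪a, a + b⟫ + ‖a‖ ^ 2 := by
    rw [real_inner_comm, ← norm_sub_sq_real, add_sub_cancel_left]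
  have e8 : S * (‖a‖ ^ 2 + 2 * (τ / S * ⟪a, a + b⟫) + (τ / S * ‖a + b‖) ^ 2) / 2
      = S * ‖a‖ ^ 2 / 2 + τ * ⟪a, a + b⟫ + (τ / S) * (τ * ‖a + b‖ ^ 2) / 2 := by
    field_simp
  rw [e8] at k5
  have k6 : (τ / S) * (τ * ‖a + b‖ ^ 2) ≤ τ * ‖a + b‖ ^ 2 :=
    mul_le_of_le_one_left (by positivity) ((div_le_one hS0).2 hτS)
  have k7 := mul_le_mul_of_nonneg_left (k2'.trans k3) (by linarith : 0 ≤ S + τ)
  have k8 : S * ep (-u) τ x ≤ S * ep u S x + τ * ‖a + b‖ ^ 2 := by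
    rw [e7] at k1
    nlinarith
  have k9 : S * (400 * R ^ 2 * (n + 1) ^ 2 / 2 ^ n) = τ * (400 * R ^ 2 * (n + 1) ^ 2) := by
    rw [hS]; field_simp
  have k10 := mul_le_mul_of_nonneg_left hab hτ.le
  exact le_of_mul_le_mul_left (by linarith) hS0

theorem good_aux {C R a m d : ℝ} (hC : 1 ≤ C) (hR : 4 * C ≤ R) (ha : 0 < a) (hm : 4 * R ≤ m)
    (hd : d ≤ R) : d * (a * m) + C * (4 * R * a + (a * m) ^ 2 / (4 * R * a)) ≤ a * m ^ 2 / 2 := by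
  have hR0 : 0 < R := by linarith
  have hm0 : 0 < m := by linarith
  have hk : 0 ≤ a * m ^ 2 := by positivity
  have e5 : (a * m) ^ 2 / (4 * R * a) = a * m ^ 2 / (4 * R) := by field_simp
  have e6 : C * (a * m ^ 2 / (4 * R)) ≤ a * m ^ 2 / 16 := by
    rw [← mul_div_assoc, div_le_div_iff₀ (by positivity) (by norm_num)]
    nlinarith
  have e7 : C * (4 * R * a) ≤ a * m ^ 2 / 16 := by
    have h1 : 4 * C * R ≤ R * R := mul_le_mul_of_nonneg_right hR hR0.le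
    have h2 : 4 * R * (4 * R) ≤ m * m := mul_le_mul hm hm (by positivity) hm0.le
    have h3 : 4 * C * R ≤ m ^ 2 / 16 := by nlinarith
    nlinarith [mul_le_mul_of_nonneg_left h3 ha.le]
  have e8 : d * (a * m) ≤ m / 4 * (a * m) :=
    mul_le_mul_of_nonneg_right (by linarith) (by positivity)
  rw [e5]
  nlinarith

omit [FiniteDimensional ℝ E] in
theorem good_up {z P q : E} {c a e : ℝ} (hc : Cyl u C R (4 * R * a) z P κ) (hC : 1 ≤ C)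
    (hR : 4 * C ≤ R) (ha0 : 0 < a) (hc0 : 0 ≤ c) (hPq : ‖P - q‖ ≤ R)
    (h : ∀ v : E, ‖v‖ ≤ 4 * R * a → u (z + v) - u z ≤ ⟪q, v⟫ + c)
    (he : a * e = u z - u (z + a • (-q)) - a * ‖q‖ ^ 2 / 2) :
    ep u a (z + a • (-q)) ≤ e + c / a := by
  have hR0 : 0 < R := by linarith
  refine ep_le_of ha0 fun b => ?_
  have e1 : z + a • (-q) + a • b = z + a • (b - q) := by module
  have e2 : ‖b‖ ^ 2 = ‖q‖ ^ 2 + 2 * ⟪q, b - q⟫ + ‖b - q‖ ^ 2 := by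
    rw [← norm_add_sq_real, add_sub_cancel]
  have e3 : a * (e + c / a) = a * e + c := by field_simp
  rw [e1, e2, e3, he]
  have e4 : ‖a • (b - q)‖ = a * ‖b - q‖ := by
    rw [norm_smul, Real.norm_eq_abs, abs_of_pos ha0]
  by_cases hv : ‖a • (b - q)‖ ≤ 4 * R * a
  · have h1 := h _ hv
    rw [inner_smul_right] at h1
    nlinarith [mul_nonneg ha0.le (sq_nonneg ‖b - q‖)]
  · push Not at hv
    have h1 := (abs_le.1 (hc.zero (by positivity) hR0 (a • (b - q)))).2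
    have h2 := real_inner_le_norm (P - q) (a • (b - q))
    rw [inner_sub_left, inner_smul_right q] at h2
    rw [e4] at hv h1 h2
    have hm4 : 4 * R ≤ ‖b - q‖ := le_of_mul_le_mul_left (by linarith) ha0
    have h3 := good_aux hC hR ha0 hm4 hPq
    linarith

omit [FiniteDimensional ℝ E] in
theorem good_low {z P q : E} {a e : ℝ} (hc : Cyl u C R (4 * R * a) z P κ) (hC : 1 ≤ C)
    (hR : 4 * C ≤ R) (ha0 : 0 < a) (hPq : ‖P - q‖ ≤ R)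
    (he : a * e = u z - u (z + a • (-q)) - a * ‖q‖ ^ 2 / 2) : κ - 2 * R ^ 2 ≤ e := by
  have hR0 : 0 < R := by linarith
  have h1 := (abs_le.1 (hc (-a) (a • (P - q)) (by
    rw [abs_neg, abs_of_pos ha0, le_div_iff₀ hR0]; nlinarith))).2
  have e1 : z + (-a) • P + a • (P - q) = z + a • (-q) := by module
  rw [e1, inner_smul_right, norm_smul, Real.norm_eq_abs, abs_of_pos ha0] at h1
  have e2 : ‖q‖ ^ 2 = ‖P‖ ^ 2 - 2 * ⟪P, P - q⟫ + ‖P - q‖ ^ 2 := by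
    rw [← norm_sub_sq_real, sub_sub_cancel]
  have h2 : ‖P - q‖ ^ 2 ≤ R ^ 2 := pow_le_pow_left₀ (norm_nonneg _) hPq 2
  have e3 : (a * ‖P - q‖) ^ 2 / (4 * R * a) ≤ a * R / 4 := by
    rw [div_le_iff₀ (by positivity)]
    nlinarith [mul_le_mul_of_nonneg_left h2 (sq_nonneg a)]
  have e4 := mul_le_mul_of_nonneg_left e3 (by linarith : 0 ≤ C)
  have e5 : C * (a * R) ≤ R / 4 * (a * R) := mul_le_mul_of_nonneg_right (by linarith)
    (by positivity)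
  have e6 := mul_le_mul_of_nonneg_left h2 ha0.le
  refine le_of_mul_le_mul_left ?_ ha0
  rw [he, e2]
  nlinarith [mul_pos ha0 (mul_pos hR0 hR0)]

omit [FiniteDimensional ℝ E] in
/-- A point touched from above by an affine function keeps its backward rate. -/
theorem good (hP : Pk u L C R ρ1 D) {z q : E} {c : ℝ} (hs : 0 < s) (hs1 : s ≤ ρ1)
    (hz : ‖z‖ + s * (L + 1) ≤ D) (hc0 : 0 ≤ c) (hcs : c ≤ s)
    (h : ∀ v : E, ‖v‖ ≤ s → u (z + v) - u z ≤ ⟪q, v⟫ + c) (hτ : 0 < τ) (hτ' : τ ≤ s / (4 * R)) :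
    ep (-u) (s / (4 * R)) z - 5 * R ^ 2 - c / τ ≤ ep (-u) τ z := by
  have hR4 := hP.four_le
  have hR0 : 0 < R := by linarith
  have hL := hP.hL
  have hC := hP.hC
  have hR := hP.hR
  have hz' : ‖z‖ ≤ D := by nlinarith
  obtain ⟨P, κ, hc⟩ := hP.cyl z hz' s hs hs1
  obtain ⟨a, ha⟩ : ∃ a, a = s / (4 * R) := ⟨_, rfl⟩
  have has : s = 4 * R * a := by rw [ha]; field_simp
  have ha0 : 0 < a := by rw [ha]; positivity
  rw [← ha] at hτ' ⊢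
  rcases eq_or_lt_of_le hτ' with h0 | h0
  · rw [h0]
    have : 0 ≤ c / a := by positivity
    nlinarith
  have hPq : ‖P - q‖ ≤ R := by
    have h1 : s * ‖P - q‖ ≤ s * R := by
      refine norm_le_of_inner hs (by positivity) fun v hv => ?_
      have h2 := (abs_le.1 (hc.zero hs hR0 v)).1
      have h3 := h v hv.le
      have e1 : ‖v‖ ^ 2 / s = s := by rw [hv]; field_simp
      rw [e1] at h2
      rw [inner_sub_left]
      nlinarith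
    exact le_of_mul_le_mul_left h1 hs
  have hq : ‖q‖ ≤ L + 2 * R := by
    have h1 := hc.norm_le hP.lip hL (by linarith) hs hR0
    have h2 : q = P - (P - q) := by abel
    have h3 := norm_sub_le P (P - q)
    rw [← h2] at h3
    linarith
  have hW : ‖z + a • (-q)‖ ≤ D := by
    have h2 := norm_add_le z (a • (-q))
    rw [norm_smul, Real.norm_eq_abs, abs_of_pos ha0, norm_neg] at h2
    have h3 := mul_le_mul_of_nonneg_left hq ha0.le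
    have h4 : a * L ≤ s * L := mul_le_mul_of_nonneg_right (by nlinarith) hL
    nlinarith
  obtain ⟨e, he⟩ : ∃ e, a * e = u z - u (z + a • (-q)) - a * ‖q‖ ^ 2 / 2 :=
    ⟨(u z - u (z + a • (-q)) - a * ‖q‖ ^ 2 / 2) / a, by field_simp⟩
  rw [has] at hc h
  have k1 := good_low hc hC hR ha0 hPq he
  have k2 : ep (-u) a z ≤ κ + 3 * R ^ 2 :=
    (hc.neg.ep_self hP.lip.neg hC hR ha0 le_rfl (by linarith)).2
  have k3 := good_up hc hC hR ha0 hc0 hPq h he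
  have k4 := hP.mono _ hW (a - τ) a (by linarith) (by linarith) (by nlinarith)
  have k5 := hP.lip.le_ep (by linarith : 0 < a - τ) (z + a • (-q)) q
  have e9 : z + a • (-q) + (a - τ) • q = z + τ • (-q) := by module
  rw [e9] at k5
  have k6 := hP.lip.neg.le_ep hτ z (-q)
  simp only [Pi.neg_apply, norm_neg] at k6
  have k7 := mul_le_mul_of_nonneg_left (k4.trans k3) (by linarith : 0 ≤ a - τ)
  have k8 : (a - τ) * (c / a) ≤ c := by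
    rw [← mul_div_assoc, div_le_iff₀ ha0]
    nlinarith
  have k9 : τ * (e - c / τ) = τ * e - c := by field_simp
  have k10 : e - c / τ ≤ ep (-u) τ z := le_of_mul_le_mul_left (by nlinarith) hτ
  linarith

end

section
variable {E : Type*} [NormedAddCommGroup E] [InnerProductSpace ℝ E]
variable {u : E → ℝ} {L C R ρ ρ1 D s κ : ℝ} {p : E} {n : ℕ}
variable {ι : Type} [Fintype ι] [Nonempty ι] {x0 : E} {B : ι → E}

omit [Nonempty ι] in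
theorem Near.cen_le (hP : Pk u L C R ρ1 D) (hc : Cyl u C R ρ x0 p κ) (hρ : 0 < ρ) (hρ1 : ρ ≤ ρ1)
    (hB : Near R ρ x0 p B) : ‖cen B‖ + ρ1 * (L / 2) ≤ ‖x0‖ + ρ1 * (L + 2) := by
  obtain ⟨t, y, ht, hy, hB, -, -⟩ := hB
  have hR4 := hP.four_le
  have hL := hP.hL
  have hC := hP.hC
  have hR := hP.hR
  have h1 := hc.norm_le hP.lip hL (by linarith) hρ (by linarith)
  have h2 : ‖t • p‖ ≤ ρ1 * (L / 2 + 1) := by
    rw [norm_smul, Real.norm_eq_abs]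
    rw [le_div_iff₀ (by linarith)] at ht
    have h3 : |t| * (2 * R) * (L / 2 + 1) ≤ ρ1 * (L / 2 + 1) :=
      mul_le_mul_of_nonneg_right (by linarith) (by linarith)
    have h4 : |t| * ‖p‖ ≤ |t| * (2 * R * (L / 2 + 1)) :=
      mul_le_mul_of_nonneg_left (by nlinarith) (abs_nonneg t)
    linarith
  rw [hB]
  linarith [norm_add_le (x0 + t • p) y, norm_add_le x0 (t • p)]

theorem Near.norm_le (hP : Pk u L C R ρ1 D) (hc : Cyl u C R ρ x0 p κ) (hρ : 0 < ρ) (hρ1 : ρ ≤ ρ1)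
    (hB : Near R ρ x0 p B) (i : ι) : ‖B i‖ + ρ1 * (L / 2) ≤ ‖x0‖ + UU ι L ρ1 := by
  have h1 := hB.cen_le hP hc hρ hρ1
  obtain ⟨t, y, -, -, -, -, h4⟩ := hB
  have h2 := norm_le_nrm (fun i => B i - cen B) i
  have h3 : √(Fintype.card ι : ℝ) * rms B ≤ √(Fintype.card ι : ℝ) * 4 :=
    mul_le_mul_of_nonneg_left h4 (Real.sqrt_nonneg _)
  have h5 := norm_add_le (B i - cen B) (cen B)
  rw [sub_add_cancel] at h5
  unfold UU
  change ‖B i - cen B‖ ≤ √(Fintype.card ι : ℝ) * rms B at h2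
  linarith

omit [Nonempty ι] in
theorem Near.cen_le_D (hP : Pk u L C R ρ1 D) (hc : Cyl u C R ρ x0 p κ) (hρ : 0 < ρ)
    (hρ1 : ρ ≤ ρ1) (hD : ‖x0‖ + UU ι L ρ1 ≤ D) (hB : Near R ρ x0 p B) : ‖cen B‖ ≤ D := by
  have h1 := hB.cen_le hP hc hρ hρ1
  have h2 : 0 ≤ ρ1 * (L / 2) := mul_nonneg (by linarith) (by linarith [hP.hL])
  unfold UU at hD
  linarith [Real.sqrt_nonneg (Fintype.card ι : ℝ)]

theorem Near.norm_le_D (hP : Pk u L C R ρ1 D) (hc : Cyl u C R ρ x0 p κ) (hρ : 0 < ρ)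
    (hρ1 : ρ ≤ ρ1) (hD : ‖x0‖ + UU ι L ρ1 ≤ D) (hB : Near R ρ x0 p B) (i : ι) : ‖B i‖ ≤ D := by
  have h1 := hB.norm_le hP hc hρ hρ1 i
  have h2 : 0 ≤ ρ1 * (L / 2) := mul_nonneg (by linarith) (by linarith [hP.hL])
  linarith

theorem Near.dec (hρ : 0 < ρ) (hB : Near R ρ x0 p B) : ∃ (t : ℝ) (y : E) (Y : ι → E),
    |t| ≤ ρ / (2 * R) ∧ cen B = x0 + t • p + y ∧ 1 + ‖y‖ ^ 2 / ρ ^ 2 ≤ 2 ∧
    (∀ i, B i = x0 + t • p + Y i) ∧ (av fun i => 1 + ‖Y i‖ ^ 2 / ρ ^ 2) ≤ 3 := by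
  obtain ⟨t, y, ht, hy, hB, hr, -⟩ := hB
  have hy2 : ‖y‖ ^ 2 ≤ ρ ^ 2 := pow_le_pow_left₀ (norm_nonneg _) hy 2
  have hr2 : rms B ^ 2 ≤ ρ ^ 2 := pow_le_pow_left₀ (rms_nonneg _) hr 2
  refine ⟨t, y, fun i => B i - (x0 + t • p), ht, hB, ?_, fun i => by simp, ?_⟩
  · have : ‖y‖ ^ 2 / ρ ^ 2 ≤ 1 := (div_le_one (by positivity)).2 hy2
    linarith
  · have h1 := av_sq_sub B (x0 + t • p)
    rw [hB, add_sub_cancel_left] at h1
    have h2 : (fun i => 1 + ‖B i - (x0 + t • p)‖ ^ 2 / ρ ^ 2)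
        = fun i => 1 + (ρ ^ 2)⁻¹ * ‖B i - (x0 + t • p)‖ ^ 2 := by
      funext i; ring
    rw [h2, av_add, av_const, av_mul, h1]
    have : (ρ ^ 2)⁻¹ * (rms B ^ 2 + ‖y‖ ^ 2) ≤ 2 := by
      rw [inv_mul_le_iff₀ (by positivity)]; linarith
    linarith

theorem Near.av_ep_le (hP : Pk u L C R ρ1 D) (hc : Cyl u C R ρ x0 p κ) (hρ : 0 < ρ)
    (hρ1 : ρ ≤ ρ1) (hD : ‖x0‖ + UU ι L ρ1 ≤ D) (hB : Near R ρ x0 p B) (hs : 0 < s)
    (hs' : s ≤ ρ / (2 * R)) : (av fun i => ep u s (B i)) ≤ κ + 9 * R ^ 2 := by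
  have hn := hB.norm_le_D hP hc hρ hρ1 hD
  obtain ⟨t, y, Y, ht, -, -, hY, h3⟩ := hB.dec hρ
  have h1 : (av fun i => ep u s (B i)) ≤ av fun i => κ + 3 * R ^ 2 * (1 + ‖Y i‖ ^ 2 / ρ ^ 2) :=
    av_mono fun i => by
      have := hn i
      rw [hY i] at this ⊢
      exact ep_up hP hc hρ hρ1 ht this hs hs'
  rw [av_add, av_const, av_mul] at h1
  nlinarith [sq_nonneg R]

theorem Near.ep_cen_le (hP : Pk u L C R ρ1 D) (hc : Cyl u C R ρ x0 p κ) (hρ : 0 < ρ)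
    (hρ1 : ρ ≤ ρ1) (hD : ‖x0‖ + UU ι L ρ1 ≤ D) (hB : Near R ρ x0 p B) (hs : 0 < s)
    (hs' : s ≤ ρ / (2 * R)) : ep (-u) s (cen B) ≤ κ + 6 * R ^ 2 := by
  have hn := hB.cen_le_D hP hc hρ hρ1 hD
  obtain ⟨t, y, Y, ht, hy, h2, -, -⟩ := hB.dec hρ
  rw [hy] at hn ⊢
  have := ep_up_neg hP hc hρ hρ1 ht hn hs hs'
  nlinarith [sq_nonneg R]

theorem Near.es_le (hP : Pk u L C R ρ1 D) (hc : Cyl u C R ρ x0 p κ) (hρ : 0 < ρ)
    (hρ1 : ρ ≤ ρ1) (hD : ‖x0‖ + UU ι L ρ1 ≤ D) (hB : Near R ρ x0 p B) (hs : 0 < s)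
    (hs' : 2 * s ≤ ρ / (2 * R)) : es u s B ≤ 3 * κ + 21 * R ^ 2 := by
  have h1 := hB.av_ep_le hP hc hρ hρ1 hD hs (by linarith)
  have h2 := hB.ep_cen_le hP hc hρ hρ1 hD (by linarith : 0 < 2 * s) hs'
  unfold es
  linarith

theorem Near.le_es (hP : Pk u L C R ρ1 D) (hc : Cyl u C R ρ x0 p κ) (hρ : 0 < ρ)
    (hρ1 : ρ ≤ ρ1) (hD : ‖x0‖ + UU ι L ρ1 ≤ D) (hB : Near R ρ x0 p B)
    (hs : ρ / (R * 2 ^ (n + 2)) ≤ s) (hs' : 2 * s ≤ ρ / (2 * R)) :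
    3 * κ - 21 * R ^ 2 - 18 * R ^ 2 * n ≤ es u s B := by
  have hR4 := hP.four_le
  have hs0 : 0 < s := lt_of_lt_of_le (by positivity) hs
  have hn := hB.norm_le_D hP hc hρ hρ1 hD
  have hn' := hB.cen_le_D hP hc hρ hρ1 hD
  obtain ⟨t, y, Y, ht, hy, h2, hY, h3⟩ := hB.dec hρ
  have h1 : (av fun i => κ - 3 * R ^ 2 * (1 + ‖Y i‖ ^ 2 / ρ ^ 2) - 6 * R ^ 2 * n)
      ≤ av fun i => ep u s (B i) :=
    av_mono fun i => by
      have := hn i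
      rw [hY i] at this ⊢
      exact ep_low hP hc hρ hρ1 ht this hs (by linarith)
  rw [av_sub, av_sub, av_const, av_const, av_mul] at h1
  unfold es
  rw [hy] at hn' ⊢
  have h4 := ep_low_neg (n := n) (s := 2 * s) hP hc hρ hρ1 ht hn' (by linarith) hs'
  nlinarith [sq_nonneg R]

theorem Near.le_av_ep_neg (hP : Pk u L C R ρ1 D) (hc : Cyl u C R ρ x0 p κ) (hρ : 0 < ρ)
    (hρ1 : ρ ≤ ρ1) (hD : ‖x0‖ + UU ι L ρ1 ≤ D) (hB : Near R ρ x0 p B)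
    (hs : ρ / (R * 2 ^ (n + 2)) ≤ s) (hs' : s ≤ ρ / (2 * R)) :
    κ - 9 * R ^ 2 - 6 * R ^ 2 * n ≤ av fun i => ep (-u) s (B i) := by
  have hn := hB.norm_le_D hP hc hρ hρ1 hD
  obtain ⟨t, y, Y, ht, -, -, hY, h3⟩ := hB.dec hρ
  have h1 : (av fun i => κ - 3 * R ^ 2 * (1 + ‖Y i‖ ^ 2 / ρ ^ 2) - 6 * R ^ 2 * n)
      ≤ av fun i => ep (-u) s (B i) :=
    av_mono fun i => by
      have := hn i
      rw [hY i] at this ⊢
      exact ep_low_neg hP hc hρ hρ1 ht this hs hs'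
  rw [av_sub, av_sub, av_const, av_const, av_mul] at h1
  nlinarith [sq_nonneg R]

theorem Near.vel (hP : Pk u L C R ρ1 D) (hc : Cyl u C R ρ x0 p κ) (hρ : 0 < ρ)
    (hρ1 : ρ ≤ ρ1) (hD : ‖x0‖ + UU ι L ρ1 ≤ D) (hB : Near R ρ x0 p B)
    (hs : ρ / (R * 2 ^ (n + 2)) ≤ s) (hs' : s ≤ ρ / (2 * R)) {A : ι → E}
    (hA : ∀ i, Opt u s (B i) (A i)) : nrm (fun i => A i - p) ≤ 16 * R * (n + 1) := by
  have hR4 := hP.four_le
  have hn := hB.norm_le_D hP hc hρ hρ1 hD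
  obtain ⟨t, y, Y, ht, -, -, hY, h3⟩ := hB.dec hρ
  refine nrm_le_of_sq (by positivity) ?_
  have h1 : (av fun i => ‖A i - p‖ ^ 2)
      ≤ av fun i => (9 * R * (n + 1)) ^ 2 * (1 + ‖Y i‖ ^ 2 / ρ ^ 2) :=
    av_mono fun i => by
      have h4 := hn i
      have h5 := hA i
      rw [hY i] at h4 h5
      exact P080.vel hP hc hρ hρ1 ht h4 hs hs' h5
  rw [av_mul] at h1
  nlinarith [sq_nonneg (R * (n + 1))]

theorem Near.vel_cen (hP : Pk u L C R ρ1 D) (hc : Cyl u C R ρ x0 p κ) (hρ : 0 < ρ)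
    (hρ1 : ρ ≤ ρ1) (hD : ‖x0‖ + UU ι L ρ1 ≤ D) (hB : Near R ρ x0 p B)
    (hs : ρ / (R * 2 ^ (n + 2)) ≤ s) (hs' : s ≤ ρ / (2 * R)) {b : E}
    (hb : Opt (-u) s (cen B) b) : ‖b + p‖ ≤ 16 * R * (n + 1) := by
  have hR4 := hP.four_le
  have hn := hB.cen_le_D hP hc hρ hρ1 hD
  obtain ⟨t, y, Y, ht, hy, h2, -, -⟩ := hB.dec hρ
  rw [hy] at hn hb
  have h1 := vel_neg hP hc hρ hρ1 ht hn hs hs' hb
  refine (pow_le_pow_iff_left₀ (norm_nonneg _) (by positivity) two_ne_zero).1 ?_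
  nlinarith [sq_nonneg (R * (n + 1))]

end

end Vale.Agent.P080
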