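import Vale.Agent.P080.Zyg

/-!
# P080: a decaying Zygmund bound gives a Hölder continuous derivative
-/

namespace Vale.Agent.P080

open scoped RealInnerProductSpace
open Filter Topology

theorem holder_slope (E : Type*) [NormedAddCommGroup E] [InnerProductSpace ℝ E]
    [FiniteDimensional ℝ E] {γ M : ℝ} (hγ : 1 < γ) (hM : 0 ≤ M) :
    ∃ C : ℝ, 0 ≤ C ∧ ∀ u : E → ℝ, Lip u 1 →
      (∀ (k : ℕ) (x h : E), ‖x‖ ≤ 1 / 2 → ‖h‖ ≤ (1 / 4) ^ k →
        |u (x + h) + u (x - h) - 2 * u x| ≤ M / γ ^ k * ‖h‖) →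
      ∀ x : E, ‖x‖ ≤ 1 / 4 → ∃ p : E, ∀ (k : ℕ) (y : E), ‖y‖ ≤ (1 / 4) ^ (k + 1) →
        |u (x + y) - u x - ⟪p, y⟫| ≤ C * γ⁻¹ ^ k * (1 / 4) ^ (k + 1) := by
  have : CompleteSpace E := FiniteDimensional.complete ℝ E
  obtain ⟨C0, hC0, H⟩ := slope_of_zyg E
  have q0 : 0 < γ⁻¹ := by positivity
  have q1 : γ⁻¹ < 1 := inv_lt_one_of_one_lt₀ hγ
  have A0 : 0 ≤ C0 * M := by positivity
  have B0 : 0 ≤ 5 * (C0 * M) / (1 - γ⁻¹) := div_nonneg (by positivity) (by linarith)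
  refine ⟨C0 * M + 5 * (C0 * M) / (1 - γ⁻¹), by positivity, fun u hu h x hx => ?_⟩
  have hP : ∀ k : ℕ, ∃ p : E, ∀ y : E, ‖y‖ ≤ (1 / 4) ^ (k + 1) →
      |u (x + y) - u x - ⟪p, y⟫| ≤ C0 * M * γ⁻¹ ^ k * (1 / 4) ^ (k + 1) := by
    intro k
    obtain ⟨p, hp⟩ := H u x ((1 / 4) ^ (k + 1)) (M / γ ^ (k + 1)) (hu.continuous zero_le_one)
      (by positivity) (by positivity) fun x' v h1 h2 => h (k + 1) x' v (by
        have a1 : ((1 : ℝ) / 4) ^ (k + 1) ≤ (1 / 4) ^ 1 :=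
          pow_le_pow_of_le_one (by norm_num) (by norm_num) (by omega)
        linarith [norm_le_insert' x' x]) h2
    refine ⟨p, fun y hy => (hp y hy).trans ?_⟩
    rw [div_eq_mul_inv, ← inv_pow, ← mul_assoc]
    gcongr _ * ?_ * _
    exact pow_le_pow_of_le_one q0.le q1.le (by omega)
  choose P hP using hP
  have hd : ∀ k, dist (P k) (P (k + 1)) ≤ 5 * (C0 * M) * γ⁻¹ ^ k := by
    intro k
    have r0 : (0 : ℝ) < (1 / 4) ^ (k + 1 + 1) := by positivity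
    have e : ((1 : ℝ) / 4) ^ (k + 1) = 4 * (1 / 4) ^ (k + 1 + 1) := by ring
    have a0 : C0 * M * γ⁻¹ ^ (k + 1) * (1 / 4) ^ (k + 1 + 1) ≤
        C0 * M * γ⁻¹ ^ k * (1 / 4) ^ (k + 1 + 1) := by
      gcongr _ * ?_ * _
      exact pow_le_pow_of_le_one q0.le q1.le (by omega)
    rw [dist_eq_norm]
    refine le_of_mul_le_mul_left (norm_le_of_inner r0 (by positivity) fun y hy => ?_) r0
    have a1 := (abs_le.mp (hP k y (by rw [hy, e]; linarith))).1
    have a2 := (abs_le.mp (hP (k + 1) y hy.le)).2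
    rw [e] at a1
    rw [inner_sub_left]
    linarith
  obtain ⟨p, hp⟩ := cauchySeq_tendsto_of_complete (cauchySeq_of_le_geometric _ _ q1 hd)
  refine ⟨p, fun k y hy => ?_⟩
  have a1 := dist_le_of_le_geometric_of_tendsto _ _ q1 hd hp k
  have a2 := abs_le.mp (hP k y hy)
  have a3 := abs_le.mp ((abs_real_inner_le_norm (P k - p) y).trans
    (mul_le_mul (by rwa [dist_eq_norm] at a1) hy (norm_nonneg _) (dist_nonneg.trans a1)))
  rw [inner_sub_left] at a3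
  have e : (C0 * M + 5 * (C0 * M) / (1 - γ⁻¹)) * γ⁻¹ ^ k * (1 / 4) ^ (k + 1) =
      C0 * M * γ⁻¹ ^ k * (1 / 4) ^ (k + 1) +
        5 * (C0 * M) * γ⁻¹ ^ k / (1 - γ⁻¹) * (1 / 4) ^ (k + 1) := by ring
  rw [e]
  exact abs_le.mpr ⟨by linarith [a2.1, a3.1], by linarith [a2.2, a3.2]⟩

theorem holder (E : Type*) [NormedAddCommGroup E] [InnerProductSpace ℝ E]
    [FiniteDimensional ℝ E] {γ M : ℝ} (hγ : 1 < γ) (hγ2 : γ ≤ 2) (hM : 0 ≤ M) :
    ∃ α C : ℝ, 0 < α ∧ α ≤ 1 ∧ 0 ≤ C ∧ ∀ u : E → ℝ, Lip u 1 →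
      (∀ (k : ℕ) (x h : E), ‖x‖ ≤ 1 / 2 → ‖h‖ ≤ (1 / 4) ^ k →
        |u (x + h) + u (x - h) - 2 * u x| ≤ M / γ ^ k * ‖h‖) →
      (∀ x : E, ‖x‖ ≤ 1 / 4 → DifferentiableAt ℝ u x) ∧
      ∀ x y : E, ‖x‖ ≤ 1 / 4 → ‖y‖ ≤ 1 / 4 →
        ‖fderiv ℝ u x - fderiv ℝ u y‖ ≤ C * ‖x - y‖ ^ α := by
  obtain ⟨C, hC, H⟩ := holder_slope E hγ hM
  obtain ⟨α, α0, α1, hα⟩ : ∃ α : ℝ, 0 < α ∧ α ≤ 1 ∧ (1 / 4 : ℝ) ^ α = γ⁻¹ := by
    refine ⟨Real.logb 4 γ, Real.logb_pos (by norm_num) hγ, ?_, ?_⟩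
    · rw [Real.logb_le_iff_le_rpow (by norm_num) (by linarith), Real.rpow_one]
      linarith
    · rw [one_div, Real.inv_rpow (by norm_num), Real.rpow_logb (by norm_num) (by norm_num)
        (by linarith)]
  refine ⟨α, 768 * C + 16, α0, α1, by positivity, fun u hu h => ?_⟩
  have key : ∀ x : E, ‖x‖ ≤ 1 / 4 → ∃ p : E, HasFDerivAt u (innerSL ℝ p) x ∧
      ∀ r : ℝ, 0 < r → r ≤ 1 / 4 → ∀ y, ‖y‖ ≤ r →
        |u (x + y) - u x - ⟪p, y⟫| ≤ 64 * C * r ^ α * r := by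
    intro x hx
    obtain ⟨p, hp⟩ := H u hu h x hx
    have hq : ∀ r : ℝ, 0 < r → r ≤ 1 / 4 → ∀ y, ‖y‖ ≤ r →
        |u (x + y) - u x - ⟪p, y⟫| ≤ 64 * C * r ^ α * r := by
      intro r r0 r1 y hy
      obtain ⟨k, k1, k2⟩ := exists_nat_pow_near_of_lt_one (x := 4 * r) (y := (1 / 4 : ℝ))
        (by linarith) (by linarith) (by norm_num) (by norm_num)
      refine (hp k y (by rw [pow_succ]; linarith)).trans ?_
      have a1 : γ⁻¹ ^ k ≤ 16 * r ^ α := by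
        rw [← hα, ← Real.rpow_natCast, ← Real.rpow_mul (by norm_num), mul_comm α,
          Real.rpow_mul (by norm_num), Real.rpow_natCast]
        calc ((1 / 4 : ℝ) ^ k) ^ α ≤ (16 * r) ^ α :=
              Real.rpow_le_rpow (by positivity) (by rw [pow_succ] at k1; linarith) α0.le
          _ = 16 ^ α * r ^ α := Real.mul_rpow (by norm_num) r0.le
          _ ≤ _ := by
              gcongr
              exact (Real.rpow_le_rpow_of_exponent_le (by norm_num) α1).trans_eq (Real.rpow_one _)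
      calc C * γ⁻¹ ^ k * (1 / 4) ^ (k + 1) ≤ C * (16 * r ^ α) * (4 * r) := by gcongr
        _ = _ := by ring
    refine ⟨p, ?_, hq⟩
    rw [hasFDerivAt_iff_isLittleO_nhds_zero, Asymptotics.isLittleO_iff]
    intro ε hε
    have hc : Tendsto (fun y : E => 64 * C * ‖y‖ ^ α) (𝓝 0) (𝓝 0) := by
      have : Continuous fun y : E => 64 * C * ‖y‖ ^ α :=
        continuous_const.mul (continuous_norm.rpow_const fun _ => Or.inr α0.le)
      simpa [Real.zero_rpow α0.ne'] using this.tendsto 0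
    filter_upwards [hc.eventually (ge_mem_nhds hε),
      Metric.closedBall_mem_nhds (0 : E) (show (0 : ℝ) < 1 / 4 by norm_num)] with y h1 h2
    rcases (norm_nonneg y).eq_or_lt with e | e
    · simp [norm_eq_zero.mp e.symm]
    · exact (hq _ e (mem_closedBall_zero_iff.mp h2) y le_rfl).trans
        (mul_le_mul_of_nonneg_right h1 e.le)
  refine ⟨fun x hx => (key x hx).choose_spec.1.differentiableAt, fun x x' hx hx' => ?_⟩
  obtain ⟨p, d1, hp⟩ := key x hx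
  obtain ⟨p', d2, hp'⟩ := key x' hx'
  have z : 0 ≤ ‖x - x'‖ ^ α := by positivity
  rcases le_or_gt ‖x - x'‖ (1 / 8) with e | e
  · rcases (norm_nonneg (x - x')).eq_or_lt with e0 | e0
    · rw [sub_eq_zero.mp (norm_eq_zero.mp e0.symm), sub_self, norm_zero]
      positivity
    rw [d1.fderiv, d2.fderiv, ← map_sub, innerSL_apply_norm]
    set δ := ‖x - x'‖ with hδ
    have n1 : ‖x' - x‖ = δ := norm_sub_rev _ _
    have a0 : (2 * δ) ^ α ≤ 2 * δ ^ α := by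
      rw [Real.mul_rpow (by norm_num) e0.le]
      gcongr
      exact (Real.rpow_le_rpow_of_exponent_le (by norm_num) α1).trans_eq (Real.rpow_one _)
    have a1 : δ * ‖p - p'‖ ≤ 3 * (64 * C * (2 * δ) ^ α * (2 * δ)) := by
      refine norm_le_of_inner e0 (by positivity) fun y hy => ?_
      have b1 := (abs_le.mp (hp (2 * δ) (by linarith) (by linarith) (x' - x + y)
        (by linarith [norm_add_le (x' - x) y]))).1
      have b2 := (abs_le.mp (hp (2 * δ) (by linarith) (by linarith) (x' - x) (by linarith))).2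
      have b3 := (abs_le.mp (hp' (2 * δ) (by linarith) (by linarith) y (by linarith))).2
      rw [← add_assoc, add_sub_cancel, inner_add_right] at b1
      rw [add_sub_cancel] at b2
      rw [inner_sub_left]
      linarith
    refine le_of_mul_le_mul_left (a1.trans ?_) e0
    calc 3 * (64 * C * (2 * δ) ^ α * (2 * δ)) ≤ 3 * (64 * C * (2 * δ ^ α) * (2 * δ)) := by gcongr
      _ = δ * (768 * C * δ ^ α) := by ring
      _ ≤ _ := by gcongr; linarith
  · have hb : ∀ w, ‖fderiv ℝ u w‖ ≤ 1 := fun w =>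
      norm_fderiv_le_of_lip' ℝ zero_le_one (Eventually.of_forall fun y => hu.abs_le y w)
    have a1 : ‖x - x'‖ ≤ ‖x - x'‖ ^ α :=
      Real.self_le_rpow_of_le_one (norm_nonneg _) (by linarith [norm_sub_le x x']) α1
    have a2 := norm_sub_le (fderiv ℝ u x) (fderiv ℝ u x')
    nlinarith [hb x, hb x', mul_nonneg hC z]

end Vale.Agent.P080
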