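import Vale.Agent.P080.Core
import Vale.Agent.P080.Coh

/-!
# P080: induction on scales
-/

namespace Vale.Agent.P080

open scoped RealInnerProductSpace

section
variable {E : Type*} [NormedAddCommGroup E] [InnerProductSpace ℝ E]

/-- The balanced two-point configuration. -/
def selBal (n : ℕ) (x h : E) : Fin (n + 1) × Bool → E := fun j => if j.2 then x + h else x - h

theorem sel_av (n : ℕ) (a b : ℝ) :
    av (fun j : Fin (n + 1) × Bool => if j.2 then a else b) = (a + b) / 2 := by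
  unfold av
  rw [Fintype.sum_prod_type]
  simp only [Fintype.sum_bool, if_true, Bool.false_eq_true, if_false, Finset.sum_const,
    Finset.card_univ, Fintype.card_fin, Fintype.card_prod, Fintype.card_bool, nsmul_eq_mul]
  push_cast
  field_simp

theorem sel_av' (n : ℕ) (f : E → ℝ) (x h : E) :
    av (fun j => f (selBal n x h j)) = (f (x + h) + f (x - h)) / 2 := by
  rw [← sel_av n]
  congr 1
  funext j
  unfold selBal
  split_ifs <;> rfl

theorem sel_cen (n : ℕ) (x h : E) : cen (selBal n x h) = x := by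
  refine ext_inner_left ℝ fun v => ?_
  rw [← av_inner, sel_av' n (fun z => ⟪v, z⟫), inner_add_right, inner_sub_right]
  ring

theorem sel_rms (n : ℕ) (x h : E) : rms (selBal n x h) = ‖h‖ := by
  have h1 : rms (selBal n x h) ^ 2 = ‖h‖ ^ 2 := by
    rw [rms_sq, sel_cen, sel_av' n (fun z => ‖z - x‖ ^ 2), add_sub_cancel_left,
      sub_sub_cancel_left, norm_neg]
    ring
  exact (sq_eq_sq₀ (rms_nonneg _) (norm_nonneg _)).1 h1

theorem sel_d2 (n : ℕ) {u : E → ℝ} {x h : E} {c : ℝ} (h1 : GN u (selBal n x h) ≤ c)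
    (h2 : GN (-u) (selBal n x h) ≤ c) : |u (x + h) + u (x - h) - 2 * u x| ≤ 2 * c := by
  rw [GN_neg] at h2
  unfold GN at h1 h2
  rw [sel_av', sel_cen] at h1 h2
  rw [abs_le]
  constructor <;> linarith

/-- Rescaling of a function. -/
def selRs (u : E → ℝ) (x : E) (r c : ℝ) : E → ℝ := fun ξ => c * u (x + r • ξ)

theorem selRs_neg (u : E → ℝ) (x : E) (r c : ℝ) : -selRs u x r c = selRs (-u) x r c := by
  funext ξ
  simp [selRs]

theorem selRs_lip {u : E → ℝ} (hu : Lip u 1) (x : E) {r c : ℝ} (hr : 0 ≤ r) (hc : 0 ≤ c) :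
    Lip (selRs u x r c) (c * r) := by
  intro ξ η
  have h1 := hu (x + r • ξ) (x + r • η)
  rw [add_sub_add_left_eq_sub, ← smul_sub, norm_smul, Real.norm_of_nonneg hr, one_mul] at h1
  have h2 := mul_le_mul_of_nonneg_left h1 hc
  unfold selRs
  linarith

theorem selRs_sub {u : E → ℝ} (hu : Sub u 1 1) {x : E} {r c D : ℝ} (hr : 0 < r) (hc : 0 < c)
    (hD : ‖x‖ + r * D ≤ 1) : Sub (selRs u x r c) D (1 / r) := by
  intro ξ hξ s hs hs1 m hm y hy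
  have hx : ‖x + r • ξ‖ ≤ 1 := by
    refine (norm_add_le _ _).trans ?_
    rw [norm_smul, Real.norm_of_nonneg hr.le]
    have := mul_le_mul_of_nonneg_left hξ hr.le
    linarith
  have hrs : r * s ≤ 1 := by
    rw [le_div_iff₀ hr] at hs1
    linarith
  have hn : ∀ z : E, ‖x + r • z - (x + r • ξ)‖ = r * ‖z - ξ‖ := by
    intro z
    rw [add_sub_add_left_eq_sub, ← smul_sub, norm_smul, Real.norm_of_nonneg hr.le]
  have h1 := hu (x + r • ξ) hx (r * s) (mul_pos hr hs) hrs (m / c) ?_ (x + r • y) ?_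
  · rw [hn] at h1
    have h2 : s * (u (x + r • y) - u (x + r • ξ)) ≤ ‖y - ξ‖ * (m / c - u (x + r • ξ)) := by
      refine le_of_mul_le_mul_left ?_ hr
      linarith
    have h3 := mul_le_mul_of_nonneg_left h2 hc.le
    have h4 : c * (‖y - ξ‖ * (m / c - u (x + r • ξ))) = ‖y - ξ‖ * (m - c * u (x + r • ξ)) := by
      field_simp
    unfold selRs
    linarith
  · intro z hz
    have e : z = x + r • (r⁻¹ • (z - x)) := by
      rw [smul_smul, mul_inv_cancel₀ hr.ne', one_smul]; abel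
    rw [e, hn] at hz
    have h2 := hm (r⁻¹ • (z - x)) (le_of_mul_le_mul_left hz hr)
    unfold selRs at h2
    rw [← e] at h2
    rw [le_div_iff₀ hc]
    linarith
  · rw [hn]
    exact mul_le_mul_of_nonneg_left hy hr.le

variable {ι : Type} [Fintype ι] [Nonempty ι]

theorem selRs_GN (u : E → ℝ) (x : E) (r c : ℝ) (B : ι → E) :
    GN (selRs u x r c) B = c * GN u (fun i => x + r • B i) := by
  unfold GN selRs
  rw [av_mul, cen_affine]
  ring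

/-- The inductive claim at scale `k`. -/
def SelCl (ι : Type) [Fintype ι] (E : Type*) [NormedAddCommGroup E] [InnerProductSpace ℝ E]
    (γ M : ℝ) (k : ℕ) : Prop :=
  ∀ u : E → ℝ, Lip u 1 → Sub u 1 1 → Sub (-u) 1 1 → ∀ B : ι → E,
    ‖cen B‖ ≤ 1 / 2 + 1 / 2 ^ (k + 2) → rms B ≤ 1 / 4 ^ k → GN u B ≤ M / γ ^ k * rms B

theorem sel_conf {γ M r c : ℝ} {k i : ℕ} (hγ : 0 < γ) (hi : 1 ≤ i) (hCl : SelCl ι E γ M k)
    {u : E → ℝ} (hu : Lip u 1) (hs : Sub u 1 1) (hs' : Sub (-u) 1 1) {x : E}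
    (hx : ‖x‖ ≤ 1 / 2 + 1 / 2 ^ (k + i + 2)) (hr : 0 < r) (hr1 : r ≤ 1 / 4 ^ (k + i))
    (hc : 0 < c) (hcM : c * r * M = γ ^ (k + i)) (B : ι → E)
    (hB : ‖cen B‖ ≤ 2 ^ (k + i) / 12 * (1 + 2 ^ i)) (hB' : rms B ≤ 4 ^ i) :
    GN (selRs u x r c) B ≤ γ ^ i * rms B := by
  have h2i : (2 : ℝ) ≤ 2 ^ i := by
    calc (2 : ℝ) = 2 ^ 1 := by norm_num
      _ ≤ 2 ^ i := pow_le_pow_right₀ (by norm_num) hi
  have e4 : ∀ j : ℕ, (4 : ℝ) ^ j = 2 ^ j * 2 ^ j := fun j => by rw [← mul_pow]; norm_num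
  have h1 := hCl u hu hs hs' (fun j => x + r • B j) ?_ ?_
  · rw [rms_affine, abs_of_pos hr] at h1
    rw [selRs_GN]
    refine (mul_le_mul_of_nonneg_left h1 hc.le).trans (le_of_eq ?_)
    have : c * (M / γ ^ k * (r * rms B)) = c * r * M / γ ^ k * rms B := by ring
    rw [this, hcM, pow_add]
    field_simp
  · rw [cen_affine]
    refine (norm_add_le _ _).trans ?_
    rw [norm_smul, Real.norm_of_nonneg hr.le]
    have h2 : r * ‖cen B‖ ≤ 1 / 4 ^ (k + i) * (2 ^ (k + i) / 12 * (1 + 2 ^ i)) :=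
      mul_le_mul hr1 hB (norm_nonneg _) (by positivity)
    have h3 : (1 : ℝ) / 2 ^ (k + i + 2) + 1 / 4 ^ (k + i) * (2 ^ (k + i) / 12 * (1 + 2 ^ i))
        ≤ 1 / 2 ^ (k + 2) := by
      rw [e4, pow_add, pow_add, pow_add]
      have ha : (0 : ℝ) < 2 ^ k := by positivity
      generalize (2 : ℝ) ^ k = a at ha
      generalize (2 : ℝ) ^ i = b at h2i
      have hb : 0 < b := by linarith
      have e : 1 / (a * 2 ^ 2) - (1 / (a * b * 2 ^ 2)
          + 1 / (a * b * (a * b)) * (a * b / 12 * (1 + b))) = (2 * b - 4) / (12 * a * b) := by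
        field_simp
        ring
      have : 0 ≤ (2 * b - 4) / (12 * a * b) := div_nonneg (by linarith) (by positivity)
      linarith
    linarith
  · rw [rms_affine, abs_of_pos hr]
    have h2 : r * rms B ≤ 1 / 4 ^ (k + i) * 4 ^ i :=
      mul_le_mul hr1 hB' (rms_nonneg _) (by positivity)
    refine h2.trans (le_of_eq ?_)
    rw [pow_add]
    field_simp

end

theorem sel_step {E : Type*} [NormedAddCommGroup E] [InnerProductSpace ℝ E]
    {C R ρ1 γ0 γ : ℝ} {N0 i1 k0 j : ℕ}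
    (hpk : ∀ (u : E → ℝ) (L γ Dst ρ1 rad : ℝ) (K i1 : ℕ),
      Lip u L → 0 ≤ L → 1 ≤ γ → γ ^ (i1 + 1) ≤ 3 / 2 → L ≤ γ ^ K → i1 ≤ K → ρ1 ≤ 4 ^ i1 →
      R * 2 ^ K ≤ Dst → 4 * 4 ^ K ≤ rad → 2 * L * ρ1 ≤ rad →
      Sub u (Dst * (1 + 2 ^ K)) rad → Sub (-u) (Dst * (1 + 2 ^ K)) rad →
      (∀ i : ℕ, 1 ≤ i → i ≤ K + 1 → ∀ x h : E, ‖x‖ ≤ Dst * (1 + 2 ^ i) → ‖h‖ ≤ 4 ^ i →
        |u (x + h) + u (x - h) - 2 * u x| ≤ 2 * γ ^ i * ‖h‖) →
      Pk u L C R ρ1 Dst)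
    (hcore : ∀ (ι : Type) [Fintype ι] [Nonempty ι] (u : E → ℝ) (L D γ : ℝ) (B : ι → E),
        N0 ≤ Fintype.card ι → Pk u L C R ρ1 D → 1 ≤ γ → γ ≤ γ0 → 2 * UU ι L ρ1 ≤ D →
        Gb ι u γ D 4 → cen B = 0 → rms B = 1 → GN u B ≤ 1)
    (hρ1 : 1 ≤ ρ1) (hγ1 : 1 ≤ γ) (hγ2 : γ ≤ 2) (hγ0 : γ ≤ γ0) (hγi : γ ^ (i1 + 1) ≤ 3 / 2)
    (hi1 : ρ1 ≤ 4 ^ i1) (hk0 : 1 ≤ k0) (hR : R ≤ 2 ^ k0 / 12)
    (hU : 6 * ρ1 + 8 * √(Fintype.card (Fin (N0 + 1) × Bool) : ℝ) ≤ 2 ^ k0 / 12)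
    (ih : ∀ k < k0 + i1 + j, SelCl (Fin (N0 + 1) × Bool) E γ (γ ^ (k0 + i1)) k) :
    SelCl (Fin (N0 + 1) × Bool) E γ (γ ^ (k0 + i1)) (k0 + i1 + j) := by
  intro u hu hs hs' B hB hB'
  have hγ : 0 < γ := by linarith
  rcases (rms_nonneg B).eq_or_lt with h0 | h0
  · rw [GN_eq_zero u h0.symm, ← h0, mul_zero]
  obtain ⟨n, hn⟩ : ∃ n, n = k0 + i1 + j := ⟨_, rfl⟩
  obtain ⟨r, hr⟩ : ∃ r, r = rms B := ⟨_, rfl⟩
  obtain ⟨x, hx⟩ : ∃ x, x = cen B := ⟨_, rfl⟩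
  rw [← hn] at hB hB' ih
  rw [← hr] at h0 hB' ⊢
  rw [← hx] at hB
  obtain ⟨c, hc⟩ : ∃ c, c = γ ^ j / r := ⟨_, rfl⟩
  have hc0 : 0 < c := by rw [hc]; positivity
  have hcr : c * r = γ ^ j := by rw [hc]; field_simp
  have hcM : c * r * γ ^ (k0 + i1) = γ ^ n := by rw [hcr, hn, pow_add γ (k0 + i1)]; ring
  have hconf : ∀ w : E → ℝ, Lip w 1 → Sub w 1 1 → Sub (-w) 1 1 → ∀ i : ℕ, 1 ≤ i → i ≤ n →
      ∀ B' : Fin (N0 + 1) × Bool → E, ‖cen B'‖ ≤ 2 ^ n / 12 * (1 + 2 ^ i) → rms B' ≤ 4 ^ i →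
        GN (selRs w x r c) B' ≤ γ ^ i * rms B' := by
    intro w hw hw1 hw2 i hi hin B' h1 h2
    obtain ⟨k, rfl⟩ : ∃ k, n = k + i := ⟨n - i, by omega⟩
    exact sel_conf hγ hi (ih k (by omega)) hw hw1 hw2 hB h0 hB' hc0 hcM B' h1 h2
  have e4 : ∀ j : ℕ, (4 : ℝ) ^ j = 2 ^ j * 2 ^ j := fun j => by rw [← mul_pow]; norm_num
  have hrad : (4 : ℝ) ^ n ≤ 1 / r := by
    rw [le_div_iff₀ h0]
    rw [le_div_iff₀ (by positivity)] at hB'
    linarith
  have hL2 : γ ^ j ≤ 2 ^ j := pow_le_pow_left₀ hγ.le hγ2 j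
  have hjK : (2 : ℝ) ^ j ≤ 2 ^ (i1 + j) := pow_le_pow_right₀ (by norm_num) (by omega)
  have h1K : (1 : ℝ) ≤ 2 ^ (i1 + j) := one_le_pow₀ (by norm_num)
  have hKn : (2 : ℝ) ^ (i1 + j) ≤ 2 ^ n := pow_le_pow_right₀ (by norm_num) (by omega)
  have e2 : (2 : ℝ) ^ n / 12 = 2 ^ k0 / 12 * 2 ^ (i1 + j) := by
    rw [hn, add_assoc, pow_add]; ring
  have hD : ‖x‖ + r * (2 ^ n / 12 * (1 + 2 ^ (i1 + j))) ≤ 1 := by
    have h1 : r * (2 ^ n / 12 * (1 + 2 ^ (i1 + j))) ≤ 1 / 4 ^ n * (2 ^ n / 12 * (2 * 2 ^ n)) :=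
      mul_le_mul hB' (mul_le_mul_of_nonneg_left (by linarith) (by positivity)) (by positivity)
        (by positivity)
    have h2 : (1 : ℝ) / 4 ^ n * (2 ^ n / 12 * (2 * 2 ^ n)) = 1 / 6 := by
      rw [e4]; field_simp; norm_num
    have h3 : (1 : ℝ) / 2 ^ (n + 2) ≤ 1 / 2 ^ 2 :=
      one_div_le_one_div_of_le (by positivity) (pow_le_pow_right₀ (by norm_num) (by omega))
    linarith
  have hs'' : Sub (-(-u)) 1 1 := by rwa [neg_neg]
  have hP : Pk (selRs u x r c) (γ ^ j) C R ρ1 (2 ^ n / 12) := by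
    refine hpk _ _ γ _ _ (1 / r) (i1 + j) i1 (hcr ▸ selRs_lip hu x h0.le hc0.le) (by positivity)
      hγ1 hγi (pow_le_pow_right₀ hγ1 (by omega)) (by omega) hi1 ?_ ?_ ?_
      (selRs_sub hs h0 hc0 hD) ?_ ?_
    · rw [e2]
      exact mul_le_mul_of_nonneg_right hR (by positivity)
    · refine le_trans ?_ hrad
      rw [← pow_succ']
      exact pow_le_pow_right₀ (by norm_num) (by omega)
    · refine le_trans ?_ hrad
      have h1 : γ ^ j * ρ1 ≤ 4 ^ j * 4 ^ i1 :=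
        mul_le_mul (pow_le_pow_left₀ hγ.le (by linarith) j) hi1 (by linarith) (by positivity)
      have h2 : (4 : ℝ) ^ (j + i1 + 1) ≤ 4 ^ n := pow_le_pow_right₀ (by norm_num) (by omega)
      rw [pow_succ, pow_add] at h2
      have h3 : (0 : ℝ) ≤ 4 ^ j * 4 ^ i1 := by positivity
      linarith
    · rw [selRs_neg]
      exact selRs_sub hs' h0 hc0 hD
    · intro i hi hiK ξ h h1 h2
      rw [mul_assoc]
      refine sel_d2 N0 ?_ ?_
      · have := hconf u hu hs hs' i hi (by omega) (selBal N0 ξ h) (by rwa [sel_cen])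
          (by rwa [sel_rms])
        rwa [sel_rms] at this
      · have := hconf (-u) hu.neg hs' hs'' i hi (by omega) (selBal N0 ξ h) (by rwa [sel_cen])
          (by rwa [sel_rms])
        rwa [sel_rms, ← selRs_neg] at this
  have hG : Gb (Fin (N0 + 1) × Bool) (selRs u x r c) γ (2 ^ n / 12) 4 := by
    intro B' h1 h2
    have := hconf u hu hs hs' 1 le_rfl (by omega) B'
      (h1.trans (le_mul_of_one_le_right (by positivity) (by norm_num))) (by simpa using h2)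
    rwa [pow_one] at this
  have hUU : 2 * UU (Fin (N0 + 1) × Bool) (γ ^ j) ρ1 ≤ 2 ^ n / 12 := by
    unfold UU
    rw [e2]
    have hq : 0 ≤ √(Fintype.card (Fin (N0 + 1) × Bool) : ℝ) := Real.sqrt_nonneg _
    generalize √(Fintype.card (Fin (N0 + 1) × Bool) : ℝ) = q at hU hq
    refine le_trans ?_ (mul_le_mul_of_nonneg_right hU (by positivity))
    have h1 : ρ1 * γ ^ j ≤ ρ1 * 2 ^ (i1 + j) :=
      mul_le_mul_of_nonneg_left (hL2.trans hjK) (by linarith)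
    have h2 : ρ1 * 1 ≤ ρ1 * 2 ^ (i1 + j) := mul_le_mul_of_nonneg_left h1K (by linarith)
    have h3 : q * 1 ≤ q * 2 ^ (i1 + j) := mul_le_mul_of_nonneg_left h1K hq
    linarith
  have hfin := hcore (Fin (N0 + 1) × Bool) (selRs u x r c) (γ ^ j) (2 ^ n / 12) γ
    (fun i => -(r⁻¹ • x) + r⁻¹ • B i)
    (by rw [Fintype.card_prod, Fintype.card_fin, Fintype.card_bool]; omega) hP hγ1 hγ0 hUU hG
    (by rw [cen_affine, ← hx, neg_add_cancel])
    (by rw [rms_affine, ← hr, abs_of_pos (inv_pos.2 h0), inv_mul_cancel₀ h0.ne'])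
  rw [selRs_GN] at hfin
  have eB : (fun i => x + r • (-(r⁻¹ • x) + r⁻¹ • B i)) = B := by
    funext i
    rw [smul_add, smul_neg, smul_smul, smul_smul, mul_inv_cancel₀ h0.ne', one_smul, one_smul]
    abel
  rw [eB] at hfin
  refine le_of_mul_le_mul_left (hfin.trans (le_of_eq ?_)) hc0
  have : c * (γ ^ (k0 + i1) / γ ^ (k0 + i1 + j) * r)
      = c * r * γ ^ (k0 + i1) / γ ^ (k0 + i1 + j) := by ring
  rw [this, hcM, hn, div_self (by positivity)]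

theorem zyg_decay (E : Type*) [NormedAddCommGroup E] [InnerProductSpace ℝ E]
    [FiniteDimensional ℝ E] :
    ∃ γ M : ℝ, 1 < γ ∧ γ ≤ 2 ∧ 0 ≤ M ∧ ∀ u : E → ℝ, Lip u 1 → Sub u 1 1 → Sub (-u) 1 1 →
      ∀ (k : ℕ) (x h : E), ‖x‖ ≤ 1 / 2 → ‖h‖ ≤ (1 / 4) ^ k →
        |u (x + h) + u (x - h) - 2 * u x| ≤ M / γ ^ k * ‖h‖ := by
  obtain ⟨C, R, -, -, hpk⟩ := pk_of E
  obtain ⟨N0, ρ1, γ0, hρ1, hγ0, hcore⟩ := core E C R
  obtain ⟨i1, hi1⟩ := pow_unbounded_of_one_lt ρ1 (by norm_num : (1 : ℝ) < 4)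
  obtain ⟨γ, hγ1, hγ2, hγ3, hγ4⟩ : ∃ γ : ℝ, 1 < γ ∧ γ ≤ 2 ∧ γ ≤ γ0 ∧ γ ^ (i1 + 1) ≤ 3 / 2 := by
    have h1 : (1 : ℝ) < (3 / 2 : ℝ) ^ (((i1 + 1 : ℕ) : ℝ)⁻¹) :=
      Real.one_lt_rpow (by norm_num) (by positivity)
    refine ⟨min (min 2 γ0) ((3 / 2 : ℝ) ^ (((i1 + 1 : ℕ) : ℝ)⁻¹)),
      lt_min (lt_min (by norm_num) hγ0) h1, (min_le_left _ _).trans (min_le_left _ _),
      (min_le_left _ _).trans (min_le_right _ _), ?_⟩
    refine (pow_le_pow_left₀ ?_ (min_le_right _ _) _).trans (le_of_eq ?_)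
    · exact (lt_min (lt_min (by norm_num) (by linarith)) (by linarith)).le
    · exact Real.rpow_inv_natCast_pow (by norm_num) (by omega)
  obtain ⟨k, hk⟩ := pow_unbounded_of_one_lt
    (12 * (|R| + (6 * ρ1 + 8 * √(Fintype.card (Fin (N0 + 1) × Bool) : ℝ))))
    (by norm_num : (1 : ℝ) < 2)
  have hq : 0 ≤ √(Fintype.card (Fin (N0 + 1) × Bool) : ℝ) := Real.sqrt_nonneg _
  have hk' : (2 : ℝ) ^ k ≤ 2 ^ (k + 1) := pow_le_pow_right₀ (by norm_num) (by omega)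
  have hRa := le_abs_self R
  have hRb := abs_nonneg R
  have hall : ∀ n, SelCl (Fin (N0 + 1) × Bool) E γ (γ ^ (k + 1 + i1)) n := by
    intro n
    induction n using Nat.strong_induction_on with
    | _ n ih =>
      rcases le_total n (k + 1 + i1) with hn | hn
      · intro u hu _ _ B _ _
        refine (hu.GN_le zero_le_one B).trans (mul_le_mul_of_nonneg_right ?_ (rms_nonneg _))
        rw [le_div_iff₀ (by positivity), one_mul]
        exact pow_le_pow_right₀ hγ1.le hn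
      · obtain ⟨j, rfl⟩ := Nat.exists_eq_add_of_le hn
        exact sel_step hpk hcore hρ1 hγ1.le hγ2 hγ3 hγ4 hi1.le (by omega) (by linarith)
          (by linarith) ih
  refine ⟨γ, 2 * γ ^ (k + 1 + i1), hγ1, hγ2, by positivity, fun u hu hs hs' n x h hx hh => ?_⟩
  have hx' : ‖cen (selBal N0 x h)‖ ≤ 1 / 2 + 1 / 2 ^ (n + 2) := by
    rw [sel_cen]
    have : (0 : ℝ) ≤ 1 / 2 ^ (n + 2) := by positivity
    linarith
  have hh' : rms (selBal N0 x h) ≤ 1 / 4 ^ n := by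
    rw [sel_rms, ← one_pow n, ← div_pow]
    simpa using hh
  have h1 := hall n u hu hs hs' _ hx' hh'
  have h2 := hall n (-u) hu.neg hs' (by rwa [neg_neg]) _ hx' hh'
  rw [sel_rms] at h1 h2
  refine (sel_d2 N0 h1 h2).trans (le_of_eq ?_)
  ring

end Vale.Agent.P080
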