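import Vale.Agent.P080.Visc
import Vale.Agent.P080.Select
import Vale.Agent.P080.Holder

/-!
# P080: the interior estimate
-/

namespace Vale.Agent.P080

open Metric
open scoped Gradient
open Filter Topology

section
variable {d : ℕ} {Ω : Set (EuclideanSpace ℝ (Fin d))} {u : EuclideanSpace ℝ (Fin d) → ℝ}

theorem fin_lip (hu : IsInfHarmonic Ω u) {x0 x : EuclideanSpace ℝ (Fin d)} {r M : ℝ} (hr : 0 < r)
    (hΩ : ball x0 r ⊆ Ω) (hM : ∀ y ∈ ball x0 r, ∀ z ∈ ball x0 r, u y - u z ≤ M)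
    (hx : x ∈ ball x0 (r / 2)) {y y' : EuclideanSpace ℝ (Fin d)} (hy : y ∈ closedBall x (r / 8))
    (hy' : y' ∈ closedBall x (r / 8)) : u y' - u y ≤ 4 * (M / r) * ‖y' - y‖ := by
  rw [mem_ball] at hx
  rw [mem_closedBall] at hy hy'
  have hs : closedBall y (r / 4) ⊆ ball x0 r :=
    closedBall_subset_ball' (by linarith [dist_triangle y x x0])
  have h := hu.cone (x := y) (r := r / 4) (m := u y + M) (by linarith) (hs.trans hΩ)
    (fun z hz => by
      linarith [hM z (hs (by rwa [mem_closedBall, dist_eq_norm])) y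
        (hs (mem_closedBall_self (by linarith)))]) y'
    (by rw [← dist_eq_norm]; linarith [dist_triangle_right y' y x])
  refine le_of_mul_le_mul_left (h.trans_eq ?_) (show 0 < r / 4 by linarith)
  field_simp
  ring

theorem fin_sub (hu : IsInfHarmonic Ω u) {x : EuclideanSpace ℝ (Fin d)} {s k : ℝ} (hs : 0 < s)
    (hk : 0 < k) (hΩ : closedBall x (2 * s) ⊆ Ω) {w : EuclideanSpace ℝ (Fin d) → ℝ}
    (hw : Set.EqOn u w (closedBall x (2 * s))) : Sub (fun ξ => k * w (x + s • ξ)) 1 1 := by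
  intro ξ hξ ρ hρ hρ1 m hm η hη
  have hsub : closedBall (x + s • ξ) (s * ρ) ⊆ closedBall x (2 * s) := by
    refine closedBall_subset_closedBall' ?_
    rw [dist_eq_norm, add_sub_cancel_left, norm_smul, Real.norm_of_nonneg hs.le]
    nlinarith
  have e : ‖x + s • η - (x + s • ξ)‖ = s * ‖η - ξ‖ := by
    rw [add_sub_add_left_eq_sub, ← smul_sub, norm_smul, Real.norm_of_nonneg hs.le]
  have hη' : ‖x + s • η - (x + s • ξ)‖ ≤ s * ρ := by rw [e]; gcongr
  have h := hu.cone (x := x + s • ξ) (r := s * ρ) (m := m / k) (by positivity) (hsub.trans hΩ)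
    (fun z hz => by
      have h1 := hm (s⁻¹ • (z - x)) (by
        rw [show s⁻¹ • (z - x) - ξ = s⁻¹ • (z - (x + s • ξ)) by
          rw [← sub_sub, smul_sub _ (z - x), inv_smul_smul₀ hs.ne'], norm_smul,
          Real.norm_of_nonneg (inv_nonneg.mpr hs.le), inv_mul_le_iff₀ hs]
        exact hz)
      simp only [smul_inv_smul₀ hs.ne', add_sub_cancel] at h1
      rw [hw (hsub (by rwa [mem_closedBall, dist_eq_norm])), le_div_iff₀' hk]
      exact h1) _ hη'
  rw [e, hw (hsub (by rwa [mem_closedBall, dist_eq_norm])),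
    hw (hsub (mem_closedBall_self (by positivity)))] at h
  refine le_of_mul_le_mul_left ?_ (show 0 < s / k by positivity)
  refine le_trans (le_of_eq ?_) (h.trans_eq ?_) <;> field_simp

end

theorem fin_back {E : Type*} [NormedAddCommGroup E] [NormedSpace ℝ E] {u v : E → ℝ} {x y : E}
    {k s : ℝ} (h : u =ᶠ[𝓝 y] fun y => k * v (s • (y - x)))
    (hv : DifferentiableAt ℝ v (s • (y - x))) :
    HasFDerivAt u ((k * s) • fderiv ℝ v (s • (y - x))) y := by
  have h1 : HasFDerivAt (fun y => s • (y - x)) (s • ContinuousLinearMap.id ℝ E) y :=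
    ((hasFDerivAt_id y).sub_const x).const_smul s
  have h2 := (HasFDerivAt.comp (f := fun y => s • (y - x)) y hv.hasFDerivAt h1).const_mul k
  refine (h2.congr_fderiv ?_).congr_of_eventuallyEq h
  ext w
  simp [mul_assoc]

theorem fin_near (d : ℕ) : ∃ α C : ℝ, 0 < α ∧ α ≤ 1 ∧ 0 ≤ C ∧
    ∀ (Ω : Set (EuclideanSpace ℝ (Fin d))) (u : EuclideanSpace ℝ (Fin d) → ℝ),
      IsInfHarmonic Ω u → ∀ (x0 : EuclideanSpace ℝ (Fin d)) (r M : ℝ), 0 < r → 0 < M →
        ball x0 r ⊆ Ω → (∀ y ∈ ball x0 r, ∀ z ∈ ball x0 r, u y - u z ≤ M) →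
        ∀ x ∈ ball x0 (r / 2), DifferentiableAt ℝ u x ∧ ∀ y, ‖x - y‖ ≤ r / 64 →
          ‖fderiv ℝ u x - fderiv ℝ u y‖ ≤ C * (M / r) * (‖x - y‖ / r) ^ α := by
  obtain ⟨γ, M0, g1, g2, g3, HZ⟩ := zyg_decay (EuclideanSpace ℝ (Fin d))
  obtain ⟨α, C, α0, α1, hC, HH⟩ := holder (EuclideanSpace ℝ (Fin d)) g1 g2 g3
  refine ⟨α, 64 * C, α0, α1, by positivity, fun Ω u hu x0 r M hr hM hΩ ho x hx => ?_⟩
  have hL : LipschitzOnWith ⟨4 * (M / r), by positivity⟩ u (closedBall x (r / 8)) :=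
    LipschitzOnWith.of_le_add_mul _ fun y hy y' hy' => by
      have := fin_lip hu hr hΩ ho hx hy' hy
      rw [dist_eq_norm]
      change u y ≤ u y' + 4 * (M / r) * ‖y - y'‖
      linarith
  obtain ⟨w, hw, hw'⟩ := hL.extend_real
  have hb : closedBall x (2 * (r / 16)) ⊆ Ω :=
    (closedBall_subset_ball' (by rw [mem_ball] at hx; linarith)).trans hΩ
  have e8 : 2 * (r / 16) = r / 8 := by ring
  let v : EuclideanSpace ℝ (Fin d) → ℝ := fun ξ => 4 / M * w (x + (r / 16) • ξ)
  have v1 : Lip v 1 := fun ξ η => by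
    have h := (le_abs_self _).trans (hw.dist_le_mul (x + (r / 16) • ξ) (x + (r / 16) • η))
    rw [dist_eq_norm, add_sub_add_left_eq_sub, ← smul_sub, norm_smul,
      Real.norm_of_nonneg (by positivity)] at h
    change _ ≤ 4 * (M / r) * _ at h
    simp only [v]
    rw [← mul_sub]
    refine (mul_le_mul_of_nonneg_left h (by positivity)).trans_eq ?_
    field_simp
    ring
  have v2 : Sub v 1 1 := fin_sub hu (by positivity) (by positivity) hb (by rwa [e8])
  have v3 : Sub (-v) 1 1 := by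
    have := fin_sub hu.neg (k := 4 / M) (w := -w) (by positivity) (by positivity) hb
      (fun y hy => congrArg Neg.neg (hw' (by rwa [e8] at hy)))
    have e : -v = fun ξ => 4 / M * (-w) (x + (r / 16) • ξ) := by
      ext ξ
      simp [v]
    rwa [e]
  obtain ⟨D1, D2⟩ := HH v v1 (HZ v v1 v2 v3)
  have n : ∀ y, ‖(16 / r) • (y - x)‖ = 16 * (‖x - y‖ / r) := fun y => by
    rw [norm_smul, Real.norm_of_nonneg (by positivity), norm_sub_rev]
    ring
  have n' : ∀ y, ‖x - y‖ ≤ r / 64 → ‖(16 / r) • (y - x)‖ ≤ 1 / 4 := fun y hy => by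
    rw [n, ← mul_div_assoc, div_le_iff₀ hr]
    linarith
  have key : ∀ y, ‖x - y‖ ≤ r / 64 →
      HasFDerivAt u ((M / 4 * (16 / r)) • fderiv ℝ v ((16 / r) • (y - x))) y := by
    intro y hy
    refine fin_back ?_ (D1 _ (n' y hy))
    filter_upwards [closedBall_mem_nhds_of_mem (x := y) (c := x) (ε := r / 8) (by
      rw [mem_ball, dist_comm, dist_eq_norm]; linarith)] with z hz
    simp only [v]
    rw [smul_smul, show r / 16 * (16 / r) = 1 by field_simp, one_smul, add_sub_cancel, hw' hz]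
    field_simp
  have hx0 : ‖x - x‖ ≤ r / 64 := by rw [sub_self, norm_zero]; positivity
  refine ⟨(key x hx0).differentiableAt, fun y hy => ?_⟩
  have h := D2 _ _ (n' x hx0) (n' y hy)
  rw [sub_self x, smul_zero, zero_sub, norm_neg, n, Real.mul_rpow (by norm_num) (by positivity)]
    at h
  rw [(key x hx0).fderiv, (key y hy).fderiv, ← smul_sub, norm_smul,
    Real.norm_of_nonneg (by positivity), sub_self x, smul_zero]
  have h16 : (16 : ℝ) ^ α ≤ 16 :=
    (Real.rpow_le_rpow_of_exponent_le (by norm_num) α1).trans_eq (Real.rpow_one _)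
  calc M / 4 * (16 / r) * _ ≤ M / 4 * (16 / r) * (C * (16 * (‖x - y‖ / r) ^ α)) := by
        refine mul_le_mul_of_nonneg_left (h.trans ?_) (by positivity)
        gcongr
    _ = _ := by ring

theorem final (d : ℕ) : ∃ α C : ℝ, 0 < α ∧ 0 < C ∧
    ∀ (Ω : Set (EuclideanSpace ℝ (Fin d))) (u : EuclideanSpace ℝ (Fin d) → ℝ),
      IsOpen Ω → IsInfHarmonic Ω u →
      ContDiffOn ℝ 1 u Ω ∧
      ∀ (x0 : EuclideanSpace ℝ (Fin d)) (r M : ℝ), 0 < r → ball x0 r ⊆ Ω →
        (∀ y ∈ ball x0 r, ∀ z ∈ ball x0 r, u y - u z ≤ M) →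
        (∀ x ∈ ball x0 (r / 2), ‖∇ u x‖ ≤ C * (M / r)) ∧
        ∀ x ∈ ball x0 (r / 2), ∀ y ∈ ball x0 (r / 2),
          ‖∇ u x - ∇ u y‖ ≤ C * (M / r) * (‖x - y‖ / r) ^ α := by
  obtain ⟨α, C, α0, α1, hC, H⟩ := fin_near d
  refine ⟨α, C + 512, α0, by positivity, fun Ω u hΩ hu => ?_⟩
  have key : ∀ (x0 : EuclideanSpace ℝ (Fin d)) (r M : ℝ), 0 < r → ball x0 r ⊆ Ω →
      (∀ y ∈ ball x0 r, ∀ z ∈ ball x0 r, u y - u z ≤ M) →
      (∀ x ∈ ball x0 (r / 2), ‖fderiv ℝ u x‖ ≤ (C + 512) * (M / r)) ∧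
      ∀ x ∈ ball x0 (r / 2), ∀ y ∈ ball x0 (r / 2),
        ‖fderiv ℝ u x - fderiv ℝ u y‖ ≤ (C + 512) * (M / r) * (‖x - y‖ / r) ^ α := by
    intro x0 r M hr hb ho
    have hM : 0 ≤ M := by simpa using ho x0 (mem_ball_self hr) x0 (mem_ball_self hr)
    have hMr : 0 ≤ M / r := by positivity
    have g : ∀ x ∈ ball x0 (r / 2), ‖fderiv ℝ u x‖ ≤ 4 * (M / r) := fun x hx => by
      refine norm_fderiv_le_of_lip' ℝ (by positivity) ?_
      filter_upwards [closedBall_mem_nhds x (show 0 < r / 8 by positivity)] with y hy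
      have h0 := mem_closedBall_self (x := x) (show 0 ≤ r / 8 by positivity)
      have h1 := fin_lip hu hr hb ho hx hy h0
      rw [norm_sub_rev] at h1
      exact abs_le.mpr ⟨by linarith, fin_lip hu hr hb ho hx h0 hy⟩
    refine ⟨fun x hx => (g x hx).trans (by gcongr; linarith), fun x hx y hy => ?_⟩
    have z : 0 ≤ (‖x - y‖ / r) ^ α := by positivity
    have t := norm_sub_le (fderiv ℝ u x) (fderiv ℝ u y)
    rcases hM.eq_or_lt with e | e
    · have h1 := g x hx
      have h2 := g y hy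
      rw [← e] at h1 h2 ⊢
      simp only [zero_div, mul_zero, zero_mul] at h1 h2 ⊢
      linarith
    rcases le_or_gt ‖x - y‖ (r / 64) with e' | e'
    · refine ((H Ω u hu x0 r M hr e hb ho x hx).2 y e').trans ?_
      gcongr
      linarith
    · have a1 : ‖x - y‖ / r ≤ (‖x - y‖ / r) ^ α := by
        refine Real.self_le_rpow_of_le_one (by positivity) ?_ α1
        rw [mem_ball] at hx hy
        rw [div_le_one hr, ← dist_eq_norm]
        linarith [dist_triangle_right x y x0]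
      have a2 : 1 / 64 ≤ ‖x - y‖ / r := by
        rw [le_div_iff₀ hr]
        linarith
      have a3 := mul_le_mul_of_nonneg_left (a2.trans a1) hMr
      nlinarith [g x hx, g y hy, mul_nonneg hC (mul_nonneg hMr z)]
  constructor
  · intro z hz
    obtain ⟨r, hr, hb⟩ := nhds_basis_closedBall.mem_iff.mp (hΩ.mem_nhds hz)
    obtain ⟨K, hK⟩ := (isCompact_closedBall z r).exists_bound_of_continuousOn (hu.1.mono hb)
    have K0 : 0 ≤ K := (norm_nonneg _).trans (hK z (mem_closedBall_self hr.le))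
    have ho : ∀ y ∈ ball z r, ∀ y' ∈ ball z r, u y - u y' ≤ 2 * K + 1 := fun y hy y' hy' => by
      linarith [(abs_le.mp (hK y (ball_subset_closedBall hy))).2,
        (abs_le.mp (hK y' (ball_subset_closedBall hy'))).1]
    have hb' := ball_subset_closedBall.trans hb
    refine ContDiffAt.contDiffWithinAt (contDiffAt_one_iff.mpr ⟨fderiv ℝ u, ball z (r / 2),
      ball_mem_nhds z (by positivity), fun x hx => ?_, fun x hx =>
        (H Ω u hu z r _ hr (by positivity) hb' ho x hx).1.hasFDerivAt⟩)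
    rw [ContinuousWithinAt, tendsto_iff_norm_sub_tendsto_zero]
    have hc : Continuous fun y => (C + 512) * ((2 * K + 1) / r) * (‖y - x‖ / r) ^ α :=
      continuous_const.mul (Continuous.rpow_const (by fun_prop) fun _ => Or.inr α0.le)
    refine squeeze_zero' (Eventually.of_forall fun _ => norm_nonneg _)
      (eventually_nhdsWithin_of_forall fun y hy => (key z r _ hr hb' ho).2 y hy x hx) ?_
    refine Tendsto.mono_left ?_ nhdsWithin_le_nhds
    simpa [Real.zero_rpow α0.ne'] using hc.tendsto x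
  · intro x0 r M hr hb ho
    obtain ⟨k1, k2⟩ := key x0 r M hr hb ho
    unfold gradient
    refine ⟨fun x hx => ?_, fun x hx y hy => ?_⟩
    · rw [LinearIsometryEquiv.norm_map]
      exact k1 x hx
    · rw [← map_sub, LinearIsometryEquiv.norm_map]
      exact k2 x hx y hy

end Vale.Agent.P080
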