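import Vale.Agent.P080.Elem

/-!
# P080: a small increment of the backward rate forces flatness
-/

namespace Vale.Agent.P080

open scoped RealInnerProductSpace

section
variable {E : Type*} [NormedAddCommGroup E] [InnerProductSpace ℝ E] [FiniteDimensional ℝ E]
variable {ι : Type} [Fintype ι] [Nonempty ι]

omit [FiniteDimensional ℝ E] in
theorem f0_convex (a b : E) {s S : ℝ} (hs : 0 < s) (hS : 0 < S) :
    (S + s) * ‖(S + s)⁻¹ • (s • a + S • b)‖ ^ 2 ≤ S * ‖b‖ ^ 2 + s * ‖a‖ ^ 2 := by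
  have hT : 0 < S + s := by linarith
  have h1 : ‖s • a + S • b‖ ≤ s * ‖a‖ + S * ‖b‖ := by
    refine (norm_add_le _ _).trans ?_
    rw [norm_smul, norm_smul, Real.norm_of_nonneg hs.le, Real.norm_of_nonneg hS.le]
  have h2 : ‖s • a + S • b‖ ^ 2 ≤ (s * ‖a‖ + S * ‖b‖) ^ 2 :=
    pow_le_pow_left₀ (norm_nonneg _) h1 2
  rw [norm_smul, Real.norm_of_nonneg (inv_nonneg.2 hT.le), mul_pow]
  have h3 : (S + s) * ((S + s)⁻¹ ^ 2 * ‖s • a + S • b‖ ^ 2)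
      = ‖s • a + S • b‖ ^ 2 / (S + s) := by
    field_simp
  rw [h3, div_le_iff₀ hT]
  nlinarith [mul_nonneg (mul_pos hs hS).le (sq_nonneg (‖a‖ - ‖b‖))]

omit [FiniteDimensional ℝ E] in
theorem f0_step1 {w : E → ℝ} {L ta S lo hi : ℝ} {x a : E} (hw : Lip w L) (hta : 0 < ta)
    (hS : ta ≤ S) (hlo : lo ≤ ep w ta x) (hhi : ep w (S + ta) x ≤ hi) (hlh : lo ≤ hi)
    (ha : Opt w ta x a) : ep w S (x + ta • a) ≤ 2 * hi - lo := by
  have hS0 : 0 < S := lt_of_lt_of_le hta hS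
  have hT : 0 < S + ta := by linarith
  refine ep_le_of hS0 fun b => ?_
  have e1 : x + ta • a + S • b = x + (S + ta) • ((S + ta)⁻¹ • (ta • a + S • b)) := by
    rw [smul_smul, mul_inv_cancel₀ hT.ne', one_smul, add_assoc]
  have h1 := hw.le_ep hT x ((S + ta)⁻¹ • (ta • a + S • b))
  have h2 := ha.eq hta
  have h3 := f0_convex a b hta hS0
  rw [← e1] at h1
  have h4 : (S + ta) * ep w (S + ta) x ≤ (S + ta) * hi := mul_le_mul_of_nonneg_left hhi hT.le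
  have h5 : ta * lo ≤ ta * ep w ta x := mul_le_mul_of_nonneg_left hlo hta.le
  have h6 : ta * (hi - lo) ≤ S * (hi - lo) := mul_le_mul_of_nonneg_right hS (by linarith)
  nlinarith

theorem f0_one {w : E → ℝ} {L C R ρ1 D ta lo hi θ h' : ℝ} {x a : E} {m : ℕ}
    (hP : Pk w L C R ρ1 D) (hρ1 : 4 * R ≤ ρ1) (hta : 0 < ta) (hS : 2 ^ m * (2 * ta) ≤ 1)
    (hta4 : ta ≤ 1 / 4) (hx : ‖x‖ + 6 * L ≤ D) (hlo : lo ≤ ep w ta x)
    (hhi : ep w (2 ^ m * (2 * ta) + ta) x ≤ hi) (hlh : lo ≤ hi)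
    (hh : h' = 2 * hi - lo + 400 * R ^ 2 * (m + 1) ^ 2 / 2 ^ m) (hθ : h' - lo ≤ θ ^ 2)
    (ha : Opt w ta x a) (t : ℝ) (y : E) (ht : |t| ≤ ta / 2) :
    w x + ⟪a, y⟫ + t * (‖a‖ ^ 2 / 2 + h') - ta * θ ^ 2 - ‖y‖ ^ 2 / ta ≤ w (x + t • a + y) := by
  have hR := hP.four_le
  have hL := hP.hL
  have h2m : (1 : ℝ) ≤ 2 ^ m := one_le_pow₀ (by norm_num)
  have hSt : ta ≤ 2 ^ m * (2 * ta) := by nlinarith
  have h1 := f0_step1 hP.lip hta hSt hlo hhi hlh ha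
  have han := ha.norm_le hP.lip hL hta
  have hz : ‖x + ta • a‖ ≤ ‖x‖ + L := by
    refine (norm_add_le _ _).trans ?_
    rw [norm_smul, Real.norm_of_nonneg hta.le]
    nlinarith [norm_nonneg a]
  have h2 := cross (n := m) (τ := 2 * ta) (x := x + ta • a) hP (by linarith)
    (by nlinarith) (by nlinarith)
  have h3 : ep (-w) (2 * ta) (x + ta • a) ≤ h' := by rw [hh]; linarith
  obtain ⟨ht1, ht2⟩ := abs_le.1 ht
  have hs : 0 < ta - t := by linarith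
  have h4 : ep (-w) (ta - t) (x + ta • a) ≤ ep (-w) (2 * ta) (x + ta • a) :=
    hP.monoN _ (by linarith) _ _ hs (by linarith) (by linarith)
  have h5 := hP.lip.neg.le_ep hs (x + ta • a) (-a + (ta - t)⁻¹ • y)
  have e1 : x + ta • a + (ta - t) • (-a + (ta - t)⁻¹ • y) = x + t • a + y := by
    rw [smul_add, smul_smul, mul_inv_cancel₀ hs.ne', one_smul, smul_neg, sub_smul]
    abel
  rw [e1] at h5
  have e2 : (ta - t) * ‖-a + (ta - t)⁻¹ • y‖ ^ 2 / 2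
      = (ta - t) * ‖a‖ ^ 2 / 2 - ⟪a, y⟫ + ‖y‖ ^ 2 / (2 * (ta - t)) := by
    rw [norm_add_sq_real, norm_neg, inner_neg_left, inner_smul_right, norm_smul,
      Real.norm_of_nonneg (inv_nonneg.2 hs.le)]
    field_simp
    ring
  rw [e2] at h5
  have h6 : ‖y‖ ^ 2 / (2 * (ta - t)) ≤ ‖y‖ ^ 2 / ta :=
    div_le_div_of_nonneg_left (sq_nonneg _) hta (by linarith)
  have h7 := ha.eq hta
  have h8 : ta * lo ≤ ta * ep w ta x := mul_le_mul_of_nonneg_left hlo hta.le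
  have h9 : (ta - t) * ep (-w) (ta - t) (x + ta • a) ≤ (ta - t) * h' :=
    mul_le_mul_of_nonneg_left (h4.trans h3) hs.le
  have h10 : ta * (h' - lo) ≤ ta * θ ^ 2 := mul_le_mul_of_nonneg_left hθ hta.le
  simp only [Pi.neg_apply] at h5
  nlinarith

omit [FiniteDimensional ℝ E] in
theorem f0_fin {u : E → ℝ} {ta θ h' : ℝ} {x a b : E} (hta : 0 < ta) (hθ : 0 < θ)
    (hθ1 : θ ≤ 1 / 4)
    (hlow : ∀ (t : ℝ) (y : E), |t| ≤ ta / 2 →
      u x + ⟪a, y⟫ + t * (‖a‖ ^ 2 / 2 + h') - ta * θ ^ 2 - ‖y‖ ^ 2 / ta ≤ u (x + t • a + y))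
    (hup : ∀ (t : ℝ) (y : E), |t| ≤ ta / 2 →
      u (x + t • b + y) ≤ u x + ⟪b, y⟫ + t * (‖b‖ ^ 2 / 2 + h') + ta * θ ^ 2 + ‖y‖ ^ 2 / ta)
    (B : ι → E) (t : ℝ) (y : E)
    (ht : |t| ≤ θ * ta) (hy : ‖y‖ ≤ θ * ta) (hB : cen B = x + t • a + y)
    (hr : rms B ≤ θ * ta) : GN u B ≤ 16 * θ ^ 2 * ta := by
  have hθt : 0 < θ * ta := mul_pos hθ hta
  have hab : ‖a - b‖ ≤ 4 * θ := by
    have h1 : θ * ta * ‖a - b‖ ≤ 4 * ta * θ ^ 2 := by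
      refine norm_le_of_inner hθt (by positivity) fun y hy => ?_
      have h2 := hlow 0 y (by rw [abs_zero]; linarith)
      have h3 := hup 0 y (by rw [abs_zero]; linarith)
      rw [zero_smul] at h2 h3
      have h4 : ‖y‖ ^ 2 / ta = ta * θ ^ 2 := by rw [hy]; field_simp
      rw [inner_sub_left]
      rw [h4] at h2 h3
      linarith
    have h2 : θ * ta * ‖a - b‖ ≤ θ * ta * (4 * θ) := by nlinarith
    exact le_of_mul_le_mul_left h2 hθt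
  have ht2 : |t| ≤ ta / 2 := by nlinarith
  set v : E := x + t • b with hv
  have hcv : cen B - v = t • (a - b) + y := by
    rw [hB, hv, smul_sub]; abel
  have hi : ∀ i, u (B i) ≤ (u x + t * (‖b‖ ^ 2 / 2 + h') + ta * θ ^ 2 - ⟪b, v⟫) + ⟪b, B i⟫
      + ta⁻¹ * ‖B i - v‖ ^ 2 := by
    intro i
    have h1 := hup t (B i - v) ht2
    have e1 : x + t • b + (B i - v) = B i := by rw [hv]; abel
    rw [e1, inner_sub_right] at h1
    have e2 : ‖B i - v‖ ^ 2 / ta = ta⁻¹ * ‖B i - v‖ ^ 2 := by field_simp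
    rw [e2] at h1
    linarith
  have hav := av_mono hi
  rw [av_add, av_add, av_const, av_inner, av_mul, av_sq_sub] at hav
  have hl := hlow t y ht2
  rw [← hB] at hl
  have e3 : ⟪b, cen B⟫ - ⟪b, v⟫ = t * (⟪a, b⟫ - ‖b‖ ^ 2) + ⟪b, y⟫ := by
    rw [← inner_sub_right, hcv, inner_add_right, inner_smul_right, inner_sub_right,
      real_inner_self_eq_norm_sq, real_inner_comm]
  have e4 : ‖a - b‖ ^ 2 = ‖a‖ ^ 2 - 2 * ⟪a, b⟫ + ‖b‖ ^ 2 := norm_sub_sq_real a b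
  have h5 : ⟪b, y⟫ - ⟪a, y⟫ ≤ 4 * θ * (θ * ta) := by
    rw [← inner_sub_left]
    refine (real_inner_le_norm _ _).trans ?_
    rw [norm_sub_rev]
    exact mul_le_mul hab hy (norm_nonneg _) (by positivity)
  have h6 : -(t * ‖a - b‖ ^ 2) ≤ θ * ta * (4 * θ) ^ 2 := by
    have h61 : ‖a - b‖ ^ 2 ≤ (4 * θ) ^ 2 := pow_le_pow_left₀ (norm_nonneg _) hab 2
    have h62 : -t ≤ θ * ta := (neg_le_abs t).trans ht
    calc -(t * ‖a - b‖ ^ 2) = (-t) * ‖a - b‖ ^ 2 := by ring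
      _ ≤ θ * ta * ‖a - b‖ ^ 2 := mul_le_mul_of_nonneg_right h62 (sq_nonneg _)
      _ ≤ _ := mul_le_mul_of_nonneg_left h61 hθt.le
  have h7 : ‖cen B - v‖ ≤ 2 * (θ * ta) := by
    rw [hcv]
    refine (norm_add_le _ _).trans ?_
    rw [norm_smul, Real.norm_eq_abs]
    have h71 : |t| * ‖a - b‖ ≤ θ * ta * 1 :=
      mul_le_mul ht (by linarith) (norm_nonneg _) hθt.le
    linarith
  have h8 : ‖cen B - v‖ ^ 2 ≤ (2 * (θ * ta)) ^ 2 := pow_le_pow_left₀ (norm_nonneg _) h7 2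
  have h9 : rms B ^ 2 ≤ (θ * ta) ^ 2 := pow_le_pow_left₀ (rms_nonneg _) hr 2
  have h10 : ‖y‖ ^ 2 ≤ (θ * ta) ^ 2 := pow_le_pow_left₀ (norm_nonneg _) hy 2
  have h11 : ta⁻¹ * (rms B ^ 2 + ‖cen B - v‖ ^ 2) ≤ 5 * θ ^ 2 * ta := by
    have : ta⁻¹ * (rms B ^ 2 + ‖cen B - v‖ ^ 2) ≤ ta⁻¹ * ((θ * ta) ^ 2 + (2 * (θ * ta)) ^ 2) :=
      mul_le_mul_of_nonneg_left (by linarith) (inv_nonneg.2 hta.le)
    refine this.trans (le_of_eq ?_)
    field_simp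
    ring
  have h12 : ‖y‖ ^ 2 / ta ≤ θ ^ 2 * ta := by
    rw [div_le_iff₀ hta]; nlinarith
  have h13 : θ * ta * (4 * θ) ^ 2 ≤ 4 * θ ^ 2 * ta := by
    have : θ ^ 2 * ta * (16 * θ) ≤ θ ^ 2 * ta * 4 :=
      mul_le_mul_of_nonneg_left (by linarith) (by positivity)
    nlinarith
  have h14 : 0 ≤ θ ^ 2 * ta := by positivity
  unfold GN
  have e5 : t * (⟪a, b⟫ - ‖b‖ ^ 2) + t * (‖b‖ ^ 2 / 2 + h') - t * (‖a‖ ^ 2 / 2 + h')
      = -(t * ‖a - b‖ ^ 2) / 2 := by rw [e4]; ring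
  nlinarith

theorem flat0 {u : E → ℝ} {L C R ρ1 D τ δ θ : ℝ} {x a : E} {m : ℕ}
    (hP : Pk u L C R ρ1 D) (hρ1 : 4 * R ≤ ρ1) (hτ : 0 < τ) (hτ1 : 2 ^ (3 * m + 2) * τ ≤ 1)
    (hx : ‖x‖ + 6 * L ≤ D) (hθ : 0 < θ) (hθ1 : θ ≤ 1 / 4)
    (hinc : ep (-u) (2 ^ (3 * m + 2) * τ) x - ep (-u) τ x ≤ δ)
    (hδ : 2 * δ + 2000 * R ^ 2 * (m + 1) ^ 2 / 2 ^ m ≤ θ ^ 2)
    (ha : Opt u (2 ^ m * τ) x a) (B : ι → E) (t : ℝ) (y : E)
    (ht : |t| ≤ θ * (2 ^ m * τ)) (hy : ‖y‖ ≤ θ * (2 ^ m * τ)) (hB : cen B = x + t • a + y)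
    (hr : rms B ≤ θ * (2 ^ m * τ)) : GN u B ≤ 16 * θ ^ 2 * (2 ^ m * τ) := by
  have hR := hP.four_le
  have hL := hP.hL
  have e3 : (2 : ℝ) ^ (3 * m + 2) * τ = 2 ^ m * (4 * 2 ^ m * (2 ^ m * τ)) := by
    rw [pow_add, pow_mul']; ring
  rw [e3] at hτ1 hinc
  have h2m : (1 : ℝ) ≤ 2 ^ m := one_le_pow₀ (by norm_num)
  have hτta : τ ≤ 2 ^ m * τ := le_mul_of_one_le_left hτ.le h2m
  have hta0 : 0 < 2 ^ m * τ := by positivity
  have hc1 := cross (n := m) (τ := τ) (x := x) hP hτ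
  obtain ⟨ta, hta⟩ : ∃ ta : ℝ, ta = 2 ^ m * τ := ⟨_, rfl⟩
  rw [← hta] at hτ1 hinc ha ht hy hr hτta hta0 hc1 ⊢
  have hc2 := cross (n := m) (τ := 4 * 2 ^ m * ta) (x := x) hP.neg (by positivity)
  rw [neg_neg] at hc2
  have hδ' : 2 * δ + 5 * (400 * R ^ 2 * (m + 1) ^ 2 / 2 ^ m) ≤ θ ^ 2 := by
    refine le_trans (le_of_eq ?_) hδ
    ring
  have hsm0 : 0 ≤ 400 * R ^ 2 * ((m : ℝ) + 1) ^ 2 / 2 ^ m := by positivity
  have k1 := fun lo hi h' h1 h2 h3 h4 h5 h6 h7 => f0_one (w := u) (lo := lo) (hi := hi) (m := m)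
    (h' := h') (θ := θ) hP hρ1 hta0 h1 h2 hx h3 h4 h5 h6 h7 ha
  obtain ⟨b0, hb0⟩ := hP.lip.neg.exists_opt hL hta0 x
  have k2 := fun lo hi h' h1 h2 h3 h4 h5 h6 h7 => f0_one (w := -u) (lo := lo) (hi := hi) (m := m)
    (h' := h') (θ := θ) hP.neg hρ1 hta0 h1 h2 hx h3 h4 h5 h6 h7 hb0
  generalize 400 * R ^ 2 * ((m : ℝ) + 1) ^ 2 / 2 ^ m = sm at hc1 hc2 hδ' hsm0 k1 k2
  generalize (2 : ℝ) ^ m = q at hτ1 hinc h2m hc2 k1 k2
  have hqta : ta ≤ q * ta := le_mul_of_one_le_left hta0.le h2m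
  have hq2 : 4 * q * ta ≤ q * (4 * q * ta) := le_mul_of_one_le_left (by positivity) h2m
  have hta4 : ta ≤ 1 / 4 := by linarith
  have hS : q * (2 * ta) ≤ 1 := by linarith
  have hSt : q * (2 * ta) + ta ≤ 4 * q * ta := by linarith
  have hSt0 : 0 < q * (2 * ta) + ta := by positivity
  have hxD : ‖x‖ ≤ D := by linarith
  have hm1 : ep (-u) τ x ≤ ep (-u) ta x := hP.monoN x hxD _ _ hτ hτta (by linarith)
  have hm2 : ep (-u) (q * (2 * ta) + ta) x ≤ ep (-u) (q * (4 * q * ta)) x :=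
    hP.monoN x hxD _ _ hSt0 (by linarith) (by linarith)
  have hm3 : ep (-u) τ x ≤ ep (-u) (q * (4 * q * ta)) x :=
    hP.monoN x hxD _ _ hτ (by linarith) (by linarith)
  have hm4 : ep u (q * (2 * ta) + ta) x ≤ ep u (4 * q * ta) x :=
    hP.mono x hxD _ _ hSt0 hSt (by linarith)
  have b1 : 4 * R * ta ≤ 4 * R * 1 := mul_le_mul_of_nonneg_left (by linarith) (by linarith)
  have b2 : 2 * L * τ ≤ 2 * L * 1 := mul_le_mul_of_nonneg_left (by linarith) (by linarith)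
  have b3 : 4 * R * (q * (4 * q * ta)) ≤ 4 * R * 1 :=
    mul_le_mul_of_nonneg_left hτ1 (by linarith)
  have b4 : 2 * L * (4 * q * ta) ≤ 2 * L * 1 :=
    mul_le_mul_of_nonneg_left (by linarith) (by linarith)
  have hc1' := hc1 (by linarith) (by linarith)
  have hc2' := hc2 (by linarith) (by linarith)
  obtain ⟨lo, hlo⟩ : ∃ lo : ℝ, lo = ep (-u) τ x - sm := ⟨_, rfl⟩
  obtain ⟨hi, hhi⟩ : ∃ hi : ℝ, hi = ep (-u) (q * (4 * q * ta)) x + sm := ⟨_, rfl⟩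
  have hlh : lo ≤ hi := by linarith
  have hθ' : 2 * hi - lo + sm - lo ≤ θ ^ 2 := by linarith
  refine f0_fin (h' := 2 * hi - lo + sm) (b := -b0) hta0 hθ hθ1 ?_ ?_ B t y ht hy hB hr
  · exact k1 lo hi _ hS hta4 (by linarith) (by linarith) hlh rfl hθ'
  · intro t y ht
    have h1 := k2 lo hi _ hS hta4 (by linarith) (by linarith) hlh rfl hθ' (-t) y
      (by rwa [abs_neg])
    simp only [Pi.neg_apply] at h1
    rw [inner_neg_left, norm_neg, smul_neg, ← neg_smul]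
    linarith

end

end Vale.Agent.P080
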