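import Vale.Agent.P080.MP
import Vale.Agent.P080.Flat0

/-!
# P080: flatness propagates to all smaller scales
-/

namespace Vale.Agent.P080

open scoped RealInnerProductSpace

section
variable {E : Type*} [NormedAddCommGroup E] [InnerProductSpace ℝ E] [FiniteDimensional ℝ E]
variable {ι : Type} [Fintype ι] [Nonempty ι]

theorem stage_collar {u : E → ℝ} {L C R ρ ρ1 D κ σ r c lam ε t : ℝ} {x p a z : E} {B : ι → E}
    (hP : Pk u L C R ρ1 D) (hc : Cyl u C R ρ x p κ) (hρ : 0 < ρ) (hρ1 : ρ ≤ ρ1)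
    (hD : ‖x‖ + UU ι L ρ1 ≤ D) (hG : Gb ι u 2 D 4) (hσ0 : 0 < σ) (hσ' : 2 * σ ≤ ρ / (2 * R))
    (hr : 0 < r) (hc0 : 0 < c) (hε : 0 < ε) (hl : 0 ≤ lam) (hN : Near R ρ x p B)
    (e4 : rms B ≤ 2 * r) (h : c < |t| ∨ c < ‖cen B - z - t • a‖ ∨ rms B < ε * r / 64 ∨
      GN u B ≤ lam * rms B) :
    Psi u σ (lam + ε) (ε / r) (4 * r) c z a B t ≤ 2 * (ε * r / 64) + σ * (3 * κ + 21 * R ^ 2) := by
  have e5 := mul_le_mul_of_nonneg_left (hN.es_le hP hc hρ hρ1 hD hσ0 hσ') hσ0.le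
  have e6 : GN u B ≤ 2 * rms B := by
    refine hG B ?_ (let ⟨_, _, h⟩ := hN; h.2.2.2.2)
    have e7 := hN.cen_le hP hc hρ hρ1
    have e8 := Real.sqrt_nonneg (Fintype.card ι : ℝ)
    have e9 : 0 ≤ ρ1 * (L / 2) := mul_nonneg (hρ.le.trans hρ1) (by linarith only [hP.hL])
    unfold UU at hD
    linarith only [e7, e8, e9, hD]
  have e7 := rms_nonneg B
  have e8 : lam * rms B ≤ (lam + ε) * rms B - ε / r * rms B ^ 2 / 2 := by
    have h1 := mul_le_mul_of_nonneg_left e4 (mul_nonneg (div_pos hε hr).le e7)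
    have h2 : ε / r * rms B * (2 * r) = 2 * (ε * rms B) := by field_simp
    linarith only [h1, h2]
  have e9 : 0 ≤ lam * rms B := mul_nonneg hl e7
  have e10 : 0 ≤ 4 * r * (‖cen B - z - t • a‖ ^ 2 + t ^ 2) / c ^ 2 := by positivity
  have e11 : c ^ 2 ≤ ‖cen B - z - t • a‖ ^ 2 + t ^ 2 →
      4 * r ≤ 4 * r * (‖cen B - z - t • a‖ ^ 2 + t ^ 2) / c ^ 2 := by
    intro h
    rw [le_div_iff₀ (by positivity)]
    exact mul_le_mul_of_nonneg_left h (by positivity)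
  have e12 := mul_pos hε hr
  unfold Psi
  rcases h with h | h | h | h
  · have h1 := pow_le_pow_left₀ hc0.le h.le 2
    rw [sq_abs] at h1
    linarith only [e11 (le_add_of_nonneg_of_le (sq_nonneg _) h1), e4, e5, e6, e8, e9, e12]
  · have h1 := pow_le_pow_left₀ hc0.le h.le 2
    linarith only [e11 (le_add_of_le_of_nonneg h1 (sq_nonneg _)), e4, e5, e6, e8, e9, e12]
  · linarith only [h, e5, e6, e8, e9, e10]
  · linarith only [h, e5, e8, e10, e12]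

/-- One stage: the bound passes from the radii `[r, 2 r]` to the radii `[r / 16, r]`. -/
theorem stage_step {u : E → ℝ} {L C R ρ ρ1 D κ σ r c T lam ε : ℝ} {x p a : E} {n : ℕ}
    (hP : Pk u L C R ρ1 D) (hc : Cyl u C R ρ x p κ) (hρ : 0 < ρ) (hρ1 : ρ ≤ ρ1)
    (hD : ‖x‖ + UU ι L ρ1 ≤ D) (hG : Gb ι u 2 D 4) (hσ0 : 0 < σ)
    (hσ : ρ / (R * 2 ^ (n + 2)) ≤ σ) (hσ' : 2 * σ ≤ ρ / (2 * R)) (hw : ‖a - p‖ ≤ 9 * R)
    (hr : 0 < r) (hrc : r ≤ c) (hε : 0 < ε) (hε1 : ε ≤ 1) (hl : 1 / 8 ≤ lam) (hl' : lam ≤ 1)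
    (hA : σ * (64 * R ^ 2 * (n + 1)) ≤ ε * r / 32)
    (hkey : 8 * (4 * r) ^ 2 + 4 * σ * (4 * r) * ((25 * R * (n + 1)) ^ 2 + 1) <
      σ * c ^ 2 * (ε / r) * (1 / 8) ^ 2)
    (hnear : ∀ (B : ι → E) (t : ℝ) (y : E), |t| ≤ T → ‖y‖ ≤ T → cen B = x + t • a + y →
      rms B ≤ 2 * r → Near R ρ x p B)
    (hPj : ∀ (B : ι → E) (t : ℝ) (y : E), |t| ≤ T → ‖y‖ ≤ T → cen B = x + t • a + y →
      r ≤ rms B → rms B ≤ 2 * r → GN u B ≤ lam * rms B)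
    (B0 : ι → E) (t0 : ℝ) (y0 : E) (ht0 : |t0| ≤ T - 2 * c) (hy0 : ‖y0‖ ≤ T - 2 * c)
    (hB0 : cen B0 = x + t0 • a + y0) (h1 : r / 16 ≤ rms B0) (h2 : rms B0 ≤ r) :
    GN u B0 ≤ (lam + 2 * ε) * rms B0 := by
  have hR := hP.four_le
  have hL := hP.hL
  have hc0 : 0 < c := hr.trans_le hrc
  have hn : (0 : ℝ) ≤ n := Nat.cast_nonneg n
  have hεr : ε * r ≤ r := mul_le_of_le_one_left hr.le hε1
  have hεr0 : 0 < ε * r := mul_pos hε hr
  have hA1 : σ * (25 * R * (n + 1)) ≤ ε * r / 64 := by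
    have h3 : σ * (2 * (25 * R * (n + 1))) ≤ σ * (64 * R ^ 2 * (n + 1)) :=
      mul_le_mul_of_nonneg_left (by nlinarith [mul_nonneg (sub_nonneg.2 hR) hn]) hσ0.le
    linarith
  have hA2 : σ * (42 * R ^ 2 + 18 * R ^ 2 * n) ≤ ε * r / 32 :=
    le_trans (mul_le_mul_of_nonneg_left (by nlinarith [mul_nonneg (sq_nonneg R) hn]) hσ0.le) hA
  have hμ : ε / r * r = ε := div_mul_cancel₀ _ hr.ne'
  have hμ0 : 0 ≤ ε / r := by positivity
  have hcen : ∀ (B : ι → E) (t : ℝ), |t| ≤ 2 * c → ‖cen B - cen B0 - t • a‖ ≤ 2 * c →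
      |t0 + t| ≤ T ∧ ‖y0 + (cen B - cen B0 - t • a)‖ ≤ T ∧
        cen B = x + (t0 + t) • a + (y0 + (cen B - cen B0 - t • a)) := by
    intro B t h3 h4
    refine ⟨(abs_add_le _ _).trans (by linarith), (norm_add_le _ _).trans (by linarith), ?_⟩
    rw [hB0]
    module
  have key := mpw (ι := ι) (x := cen B0) (w := a) (n := n) (A := 25 * R * (n + 1))
    (lam := lam + ε) (μ := ε / r) (h := 4 * r) (c := c) (l0 := 1 / 8) (r0 := ε * r / 64) (r1 := r)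
    (β := 2 * (ε * r / 64) + σ * (3 * κ + 21 * R ^ 2)) hP hc hρ hρ1 hD (by linarith) hσ' hw le_rfl
    (by nlinarith) hμ0 (by linarith) hc0 (by norm_num) (by linarith) hA1 hkey
    (fun B t hB => by
      obtain ⟨e1, e2, e3⟩ := hcen B t (by linarith [hB.1]) (by linarith [hB.2.1])
      exact hnear B _ _ e1 e2 e3 (by linarith [hB.2.2.2]))
    (fun B t hB hB' => by
      obtain ⟨e1, e2, e3⟩ := hcen B t (by linarith [hB.1]) (by linarith [hB.2.1])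
      have e4 : rms B ≤ 2 * r := by linarith [hB.2.2.2]
      simp only [Reg, not_and_or, not_le] at hB'
      exact stage_collar hP hc hρ hρ1 hD hG hσ0 hσ' hr hc0 hε (by linarith only [hl])
        (hnear B _ _ e1 e2 e3 e4) e4
        (hB'.imp_right (Or.imp_right (Or.imp_right fun h => hPj B _ _ e1 e2 e3 h.le e4))))
    B0 0 ⟨by simpa using hc0.le, by simpa using hc0.le, by linarith, h2⟩
  have hN := hnear B0 t0 y0 (by linarith) (by linarith) hB0 (by linarith)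
  have e1 := mul_le_mul_of_nonneg_left (hN.le_es hP hc hρ hρ1 hD hσ hσ') hσ0.le
  have e2 : 0 ≤ ε / r * rms B0 ^ 2 / 2 := by positivity
  have e3 := mul_le_mul_of_nonneg_left h1 hε.le
  simp only [Psi, sub_self, zero_smul, norm_zero, zero_pow two_ne_zero, add_zero, mul_zero,
    zero_div] at key
  linarith only [key, e1, e2, e3, hA2]

omit [Nonempty ι] [Fintype ι] in
theorem stage_num {R P Q K J N τ : ℝ} (hR : 4 ≤ R) (hK : 1 ≤ K) (hJ : 1 ≤ J) (hN0 : 1 ≤ N)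
    (hQ : J ≤ Q) (hN : N ≤ 7 * K * J) (hP : 2 ^ 60 * R ^ 2 * K ^ 2 ≤ P) (hτ : 0 < τ) :
    128 * τ / (P ^ 2 * Q ^ 4) ≤ τ / (8 * P * Q) ∧
      τ / (2 * P ^ 3 * Q ^ 6) * (64 * R ^ 2 * N) ≤
        1 / (32 * Q) * (128 * τ / (P ^ 2 * Q ^ 4)) / 32 ∧
      8 * (4 * (128 * τ / (P ^ 2 * Q ^ 4))) ^ 2 + 4 * (τ / (2 * P ^ 3 * Q ^ 6)) *
        (4 * (128 * τ / (P ^ 2 * Q ^ 4))) * ((25 * R * N) ^ 2 + 1) <
      τ / (2 * P ^ 3 * Q ^ 6) * (τ / (8 * P * Q)) ^ 2 *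
        (1 / (32 * Q) / (128 * τ / (P ^ 2 * Q ^ 4))) * (1 / 8) ^ 2 := by
  have hQ1 : 1 ≤ Q := hJ.trans hQ
  have hR2 : 16 ≤ R ^ 2 := by nlinarith
  have hK2 : K ≤ K ^ 2 := by nlinarith
  have hRK : 16 ≤ R ^ 2 * K ^ 2 := by nlinarith
  have hP1 : 2 ^ 60 ≤ P := by nlinarith
  have hP0 : 0 < P := by linarith [show (0 : ℝ) < 2 ^ 60 by positivity]
  have hQ0 : 0 < Q := by linarith
  have hQ3 : 1 ≤ Q ^ 3 := one_le_pow₀ hQ1
  have hNQ : N ≤ 7 * K * Q := hN.trans (by gcongr)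
  refine ⟨?_, ?_, ?_⟩
  · rw [div_le_div_iff₀ (by positivity) (by positivity)]
    have h1 : 1024 ≤ P * Q ^ 3 := by nlinarith
    have h2 := mul_le_mul_of_nonneg_left h1 (by positivity : 0 ≤ τ * P * Q)
    nlinarith
  · have h1 : 256 * R ^ 2 * N ≤ P * Q :=
      calc 256 * R ^ 2 * N ≤ 256 * R ^ 2 * (7 * K ^ 2 * Q) := by
            gcongr; exact hNQ.trans (by gcongr)
        _ = 1792 * (R ^ 2 * K ^ 2) * Q := by ring
        _ ≤ P * Q := by gcongr; nlinarith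
    have h2 : τ / (2 * P ^ 3 * Q ^ 6) * (64 * R ^ 2 * N) =
        τ / (8 * P ^ 3 * Q ^ 6) * (256 * R ^ 2 * N) := by field_simp; ring
    have h3 : 1 / (32 * Q) * (128 * τ / (P ^ 2 * Q ^ 4)) / 32 =
        τ / (8 * P ^ 3 * Q ^ 6) * (P * Q) := by field_simp; ring
    rw [h2, h3]
    gcongr
  · have h1 : (25 * R * N) ^ 2 + 1 ≤ 2 ^ 15 * (R ^ 2 * K ^ 2) * Q ^ 2 := by
      have h2 : (25 * R * N) ^ 2 ≤ (25 * R * (7 * K * Q)) ^ 2 := by gcongr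
      have h3 : 1 ≤ Q ^ 2 := one_le_pow₀ hQ1
      nlinarith
    have h2 : 2 ^ 46 * P * Q ^ 2 + 2 ^ 35 * ((25 * R * N) ^ 2 + 1) < P ^ 2 * Q ^ 5 := by
      have h3 : 2 ^ 35 * ((25 * R * N) ^ 2 + 1) ≤ P * Q ^ 2 :=
        calc 2 ^ 35 * ((25 * R * N) ^ 2 + 1) ≤ 2 ^ 35 * (2 ^ 15 * (R ^ 2 * K ^ 2) * Q ^ 2) := by
              gcongr
          _ = 2 ^ 50 * (R ^ 2 * K ^ 2) * Q ^ 2 := by ring
          _ ≤ P * Q ^ 2 := by gcongr; nlinarith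
      have h4 : 2 ^ 47 ≤ P * Q ^ 3 := by nlinarith
      have h5 := mul_le_mul_of_nonneg_left h4 (by positivity : 0 ≤ P * Q ^ 2)
      have h6 : 0 < P * Q ^ 2 := by positivity
      nlinarith
    have h3 : 8 * (4 * (128 * τ / (P ^ 2 * Q ^ 4))) ^ 2 + 4 * (τ / (2 * P ^ 3 * Q ^ 6)) *
        (4 * (128 * τ / (P ^ 2 * Q ^ 4))) * ((25 * R * N) ^ 2 + 1) =
        τ ^ 2 / (2 ^ 25 * P ^ 5 * Q ^ 10) *
          (2 ^ 46 * P * Q ^ 2 + 2 ^ 35 * ((25 * R * N) ^ 2 + 1)) := by field_simp; ring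
    have h4 : τ / (2 * P ^ 3 * Q ^ 6) * (τ / (8 * P * Q)) ^ 2 *
        (1 / (32 * Q) / (128 * τ / (P ^ 2 * Q ^ 4))) * (1 / 8) ^ 2 =
        τ ^ 2 / (2 ^ 25 * P ^ 5 * Q ^ 10) * (P ^ 2 * Q ^ 5) := by field_simp; ring
    rw [h3, h4]
    gcongr

theorem stage_j {u : E → ℝ} {L C R ρ1 D τa κ P : ℝ} {x p a : E} {k j : ℕ}
    (hP : Pk u L C R ρ1 D) (hc : Cyl u C R (2 * R * τa) x p κ) (hρ' : 2 * R * τa ≤ ρ1)
    (hx : ‖x‖ + UU ι L ρ1 ≤ D) (hG : Gb ι u 2 D 4) (hτ : 0 < τa) (hw : ‖a - p‖ ≤ 9 * R)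
    (hPk : P = 2 ^ k) (hk : 2 ^ 60 * R ^ 2 * (k + 1) ^ 2 ≤ P) (hP1 : 256 ≤ P)
    (hnear : ∀ (B : ι → E) (t : ℝ) (y : E), |t| ≤ 1 / P * τa → ‖y‖ ≤ 1 / P * τa →
      cen B = x + t • a + y → rms B ≤ 2 * (128 * τa / P ^ 2) → Near R (2 * R * τa) x p B)
    (hj : ∀ (B : ι → E) (t : ℝ) (y : E),
      |t| ≤ 1 / P * τa * (1 / 2 + 1 / (2 * 2 ^ j)) → ‖y‖ ≤ 1 / P * τa * (1 / 2 + 1 / (2 * 2 ^ j)) →
      cen B = x + t • a + y → 128 * τa / (P ^ 2 * (2 ^ j) ^ 4) ≤ rms B →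
      rms B ≤ 2 * (128 * τa / (P ^ 2 * (2 ^ j) ^ 4)) → GN u B ≤ (1 / 4 - 1 / (8 * 2 ^ j)) * rms B)
    (B : ι → E) (t : ℝ) (y : E) (h1 : |t| ≤ 1 / P * τa * (1 / 2 + 1 / (2 * 2 ^ (j + 1))))
    (h2 : ‖y‖ ≤ 1 / P * τa * (1 / 2 + 1 / (2 * 2 ^ (j + 1)))) (h3 : cen B = x + t • a + y)
    (h4 : 128 * τa / (P ^ 2 * (2 ^ (j + 1)) ^ 4) ≤ rms B)
    (h5 : rms B ≤ 128 * τa / (P ^ 2 * (2 ^ j) ^ 4)) :
    GN u B ≤ (1 / 4 - 1 / (8 * 2 ^ (j + 1))) * rms B := by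
  have hR := hP.four_le
  have hR0 : 0 < R := by linarith only [hR]
  have hP0 : 0 < P := by linarith only [hP1]
  have hk0 : (0 : ℝ) ≤ k := Nat.cast_nonneg k
  have hjQ : (j : ℝ) + 1 ≤ 2 ^ j := by exact_mod_cast Nat.lt_two_pow_self
  have hj0 : (0 : ℝ) ≤ j := Nat.cast_nonneg j
  have hn : (2 : ℝ) ^ (3 * k + 6 * j + 2) = 4 * P ^ 3 * (2 ^ j) ^ 6 := by rw [hPk]; ring
  rw [pow_succ (2 : ℝ) j] at h1 h2 h4 ⊢
  generalize (2 : ℝ) ^ j = Q at hj h1 h2 h4 h5 hjQ hn ⊢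
  have hQ : 1 ≤ Q := by linarith only [hjQ, hj0]
  have hQ0 : 0 < Q := by linarith only [hQ]
  obtain ⟨n1, n2, n3⟩ := stage_num (N := ((3 * k + 6 * j : ℕ) : ℝ) + 1) hR
    (by linarith only [hk0] : (1 : ℝ) ≤ k + 1) (by linarith only [hj0] : (1 : ℝ) ≤ j + 1)
    (by linarith only [Nat.cast_nonneg (α := ℝ) (3 * k + 6 * j)]) hjQ
    (by push_cast; linarith only [mul_nonneg hk0 hj0, hk0, hj0]) hk hτ
  have hT : 1 / P * τa * (1 / 2 + 1 / (2 * Q)) ≤ 1 / P * τa := by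
    refine mul_le_of_le_one_right (by positivity) ?_
    have : 1 / (2 * Q) ≤ 1 / 2 := one_div_le_one_div_of_le (by norm_num) (by linarith only [hQ])
    linarith only [this]
  have hT' : 1 / P * τa * (1 / 2 + 1 / (2 * (Q * 2))) =
      1 / P * τa * (1 / 2 + 1 / (2 * Q)) - 2 * (τa / (8 * P * Q)) := by field_simp; ring
  have hrj : 128 * τa / (P ^ 2 * Q ^ 4) ≤ 128 * τa / P ^ 2 :=
    div_le_div_of_nonneg_left (by positivity) (by positivity)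
      (le_mul_of_one_le_right (by positivity) (one_le_pow₀ hQ))
  have hQ8 : 1 / (8 * Q) ≤ 1 / 8 := one_div_le_one_div_of_le (by norm_num) (by linarith only [hQ])
  have hQ9 : 0 < 1 / (8 * Q) := by positivity
  have hPQ : 1 ≤ P ^ 3 * Q ^ 6 :=
    one_le_mul_of_one_le_of_one_le (one_le_pow₀ (by linarith only [hP1])) (one_le_pow₀ hQ)
  have s1 : 2 * R * τa / (R * 2 ^ (3 * k + 6 * j + 2)) = τa / (2 * P ^ 3 * Q ^ 6) := by
    rw [hn]; field_simp; ring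
  have s2 : 2 * (τa / (2 * P ^ 3 * Q ^ 6)) ≤ 2 * R * τa / (2 * R) := by
    rw [mul_div_cancel_left₀ _ (by positivity), ← mul_div_assoc, div_le_iff₀ (by positivity)]
    linarith only [mul_le_mul_of_nonneg_left hPQ hτ.le]
  have s3 : 1 / (32 * Q) ≤ 1 := by rw [div_le_one (by positivity)]; linarith only [hQ]
  have s4 : 128 * τa / (P ^ 2 * Q ^ 4) / 16 = 128 * τa / (P ^ 2 * (Q * 2) ^ 4) := by
    field_simp; ring
  have s5 : 1 / 4 - 1 / (8 * Q) + 2 * (1 / (32 * Q)) = 1 / 4 - 1 / (8 * (Q * 2)) := by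
    field_simp; ring
  rw [hT'] at h1 h2
  rw [← s5]
  exact stage_step hP hc (by positivity) hρ' hx hG (by positivity) s1.le s2 hw (by positivity) n1
    (by positivity) s3 (by linarith only [hQ8]) (by linarith only [hQ9]) n2 n3
    (fun B t y e1 e2 e3 e4 => hnear B t y (e1.trans hT) (e2.trans hT) e3
      (by linarith only [e4, hrj])) hj B t y h1 h2 h3 (s4.le.trans h4) h5

theorem stages {u : E → ℝ} {L C R ρ1 D τa θ : ℝ} {x a : E} {k : ℕ}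
    (hP : Pk u L C R ρ1 D) (hρ1 : 4 * R ≤ ρ1) (hG : Gb ι u 2 D 4) (hτ : 0 < τa) (hτ1 : τa ≤ 1)
    (hx : ‖x‖ + UU ι L ρ1 ≤ D) (hθ : θ = 1 / 2 ^ k) (hk : 2 ^ 60 * R ^ 2 * (k + 1) ^ 2 ≤ 2 ^ k)
    (ha : Opt u τa x a)
    (hflat : ∀ (B : ι → E) (t : ℝ) (y : E), |t| ≤ θ * τa → ‖y‖ ≤ θ * τa →
      cen B = x + t • a + y → rms B ≤ θ * τa → GN u B ≤ 16 * θ ^ 2 * τa)
    (B : ι → E) (hB : cen B = x) (hr : rms B ≤ 128 * θ ^ 2 * τa) : GN u B ≤ rms B / 4 := by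
  have hR := hP.four_le
  have hL := hP.hL
  have hR0 : 0 < R := by linarith
  have hk0 : (0 : ℝ) ≤ k := Nat.cast_nonneg k
  obtain ⟨P, hPk⟩ : ∃ P : ℝ, P = 2 ^ k := ⟨_, rfl⟩
  rw [← hPk] at hθ hk
  have hP1 : 256 ≤ P := by
    have h1 : 16 ≤ R ^ 2 := by nlinarith
    have h2 : (1 : ℝ) ≤ (k + 1) ^ 2 := by nlinarith
    nlinarith
  have hP0 : 0 < P := by linarith
  subst hθ
  have hρ : 0 < 2 * R * τa := by positivity
  have hρ' : 2 * R * τa ≤ ρ1 := by nlinarith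
  have hρe : 2 * R * τa / (2 * R) = τa := by field_simp
  have hxD : ‖x‖ ≤ D := by
    have e8 := Real.sqrt_nonneg (Fintype.card ι : ℝ)
    have e9 : 0 ≤ ρ1 * (L + 2) := mul_nonneg (by linarith) (by linarith)
    unfold UU at hx
    linarith
  obtain ⟨p, κ, hc⟩ := hP.cyl x hxD _ hρ hρ'
  have hw : ‖a - p‖ ≤ 9 * R := by
    have h1 := vel (n := 0) (t := 0) (y := 0) (s := τa) (a := a) hP hc hρ hρ'
      (by rw [hρe, abs_zero]; exact hτ.le) (by simpa using hxD)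
      (by rw [div_le_iff₀ (by positivity), zero_add]; linarith only [hρ]) hρe.ge (by simpa using ha)
    refine (pow_le_pow_iff_left₀ (norm_nonneg _) (by positivity) two_ne_zero).1 ?_
    simpa using h1
  have hrf : 1 / P * τa ≤ τa / 256 := by
    rw [one_div_mul_eq_div]
    exact div_le_div_of_nonneg_left hτ.le (by norm_num) hP1
  have hr0 : 2 * (128 * τa / P ^ 2) ≤ 1 / P * τa := by
    rw [one_div_mul_eq_div, ← mul_div_assoc, div_le_div_iff₀ (by positivity) hP0]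
    nlinarith [mul_pos hτ hP0]
  have hnear : ∀ (B : ι → E) (t : ℝ) (y : E), |t| ≤ 1 / P * τa → ‖y‖ ≤ 1 / P * τa →
      cen B = x + t • a + y → rms B ≤ 2 * (128 * τa / P ^ 2) → Near R (2 * R * τa) x p B := by
    intro B t y h1 h2 h3 h4
    have h6 := mul_le_mul_of_nonneg_right hR hτ.le
    refine ⟨t, y + t • (a - p), by rw [hρe]; linarith only [h1, hrf, hτ], ?_, by rw [h3]; module,
      by linarith only [h4, hr0, hrf, h6, hτ], by linarith only [h4, hr0, hrf, hτ1]⟩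
    refine (norm_add_le _ _).trans ?_
    rw [norm_smul, Real.norm_eq_abs]
    have h5 := mul_le_mul (h1.trans hrf) hw (norm_nonneg _) (by positivity)
    linarith only [h5, h6, h2, hrf, hτ]
  have step := fun j => stage_j (j := j) hP hc hρ' hx hG hτ hw hPk hk hP1 hnear
  have all : ∀ j : ℕ, ∀ (B : ι → E) (t : ℝ) (y : E),
      |t| ≤ 1 / P * τa * (1 / 2 + 1 / (2 * 2 ^ j)) → ‖y‖ ≤ 1 / P * τa * (1 / 2 + 1 / (2 * 2 ^ j)) →
      cen B = x + t • a + y → 128 * τa / (P ^ 2 * (2 ^ j) ^ 4) ≤ rms B →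
      rms B ≤ 2 * (128 * τa / (P ^ 2 * (2 ^ j) ^ 4)) →
      GN u B ≤ (1 / 4 - 1 / (8 * 2 ^ j)) * rms B := by
    intro j
    induction j with
    | zero =>
      intro B t y h1 h2 h3 h4 h5
      norm_num at h1 h2 h4 h5 ⊢
      have h6 := hflat B t y (by simpa using h1) (by simpa using h2) h3 (h5.trans hr0)
      have h7 : 16 * (1 / P) ^ 2 * τa = 128 * τa / P ^ 2 / 8 := by field_simp; ring
      linarith
    | succ j ih =>
      intro B t y h1 h2 h3 h4 h5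
      refine step j ih B t y h1 h2 h3 h4 (h5.trans ?_)
      have h6 : 2 * (128 * τa / (P ^ 2 * (2 ^ (j + 1)) ^ 4)) =
          128 * τa / (P ^ 2 * (2 ^ j) ^ 4) / 8 := by field_simp; ring
      have h7 : 0 < 128 * τa / (P ^ 2 * (2 ^ j) ^ 4) := by positivity
      linarith
  rcases (rms_nonneg B).eq_or_lt with h0 | h0
  · rw [GN_eq_zero u h0.symm, ← h0, zero_div]
  have hr1 : 0 < 128 * (1 / P) ^ 2 * τa := by positivity
  obtain ⟨j, j1, j2⟩ := exists_nat_pow_near_of_lt_one (div_pos h0 hr1) ((div_le_one hr1).2 hr)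
    (by norm_num : (0 : ℝ) < 1 / 16) (by norm_num)
  have hj : ∀ i : ℕ, 128 * τa / (P ^ 2 * (2 ^ i) ^ 4) = (1 / 16) ^ i * (128 * (1 / P) ^ 2 * τa) := by
    intro i
    rw [← pow_mul, mul_comm i 4, pow_mul, one_div_pow]
    field_simp
    norm_num
  have h1 := step j (all j) B 0 0 (by rw [abs_zero]; positivity) (by rw [norm_zero]; positivity)
    (by simpa using hB) (by rw [hj]; exact ((lt_div_iff₀ hr1).1 j1).le)
    (by rw [hj]; exact (div_le_iff₀ hr1).1 j2)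
  have h2 : 0 ≤ 1 / (8 * (2 : ℝ) ^ (j + 1)) * rms B := by positivity
  linarith

end

theorem flat_ev {ε : ℝ} (hε : 0 < ε) (A : ℝ) :
    ∀ᶠ m : ℕ in Filter.atTop, A * ((m : ℝ) + 1) ^ 2 / 2 ^ m ≤ ε := by
  have h1 := ((tendsto_pow_const_div_const_pow_of_one_lt 2 (r := (2 : ℝ)) one_lt_two).comp
    (Filter.tendsto_add_atTop_nat 1)).const_mul (2 * A)
  rw [mul_zero] at h1
  filter_upwards [h1.eventually_le_const hε] with m hm
  refine le_trans (le_of_eq ?_) hm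
  simp only [Function.comp, Nat.cast_add, Nat.cast_one, pow_succ]
  field_simp

theorem flat (E : Type*) [NormedAddCommGroup E] [InnerProductSpace ℝ E] [FiniteDimensional ℝ E]
    (R : ℝ) : ∃ (δ : ℝ) (J1 : ℕ), 0 < δ ∧ 1 ≤ J1 ∧
      ∀ (ι : Type) [Fintype ι] [Nonempty ι] (u : E → ℝ) (L C ρ1 D τ : ℝ) (B : ι → E),
        Pk u L C R ρ1 D → 4 * R ≤ ρ1 → Gb ι u 2 D 4 → 0 < τ → 2 ^ J1 * τ ≤ 1 →
        ‖cen B‖ + UU ι L ρ1 ≤ D →
        ep (-u) (2 ^ J1 * τ) (cen B) - ep (-u) τ (cen B) ≤ δ → rms B ≤ τ →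
        GN u B ≤ rms B / 2 := by
  obtain ⟨k, hk⟩ := (flat_ev one_pos (2 ^ 60 * R ^ 2)).exists
  rw [div_le_one (by positivity)] at hk
  have hθ : (0 : ℝ) < 1 / 2 ^ k := by positivity
  obtain ⟨m, hm, hm'⟩ := ((flat_ev (ε := (1 / 2 ^ k) ^ 2 / 2) (by positivity) (2000 * R ^ 2)).and
    (Filter.eventually_ge_atTop (2 * k))).exists
  refine ⟨(1 / 2 ^ k) ^ 2 / 4, 3 * m + 2, by positivity, by omega,
    fun ι _ _ u L C ρ1 D τ B hP hρ1 hG hτ hτ1 hx hinc hr => ?_⟩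
  have hR := hP.four_le
  have hL := hP.hL
  have hτa : 0 < 2 ^ m * τ := by positivity
  obtain ⟨a, ha⟩ := hP.lip.exists_opt hL hτa (cen B)
  have h1 : 2 ^ m * τ ≤ 1 := le_trans (mul_le_mul_of_nonneg_right
    (pow_le_pow_right₀ one_le_two (by omega)) hτ.le) hτ1
  have h2 : ‖cen B‖ + 6 * L ≤ D := by
    have e8 := Real.sqrt_nonneg (Fintype.card ι : ℝ)
    unfold UU at hx
    nlinarith
  have h3 : (1 : ℝ) / 2 ^ k ≤ 1 / 4 := by
    refine one_div_le_one_div_of_le (by norm_num) ?_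
    have e1 : 16 ≤ R ^ 2 := by nlinarith
    have e2 : (1 : ℝ) ≤ (k + 1) ^ 2 := by nlinarith [Nat.cast_nonneg (α := ℝ) k]
    nlinarith
  have h4 : τ ≤ 128 * (1 / 2 ^ k) ^ 2 * (2 ^ m * τ) := by
    have e1 : (2 : ℝ) ^ (2 * k) ≤ 2 ^ m := pow_le_pow_right₀ one_le_two hm'
    have e2 : (1 / (2 : ℝ) ^ k) ^ 2 * 2 ^ (2 * k) = 1 := by
      rw [mul_comm 2 k, pow_mul]; field_simp
    have e3 := mul_le_mul_of_nonneg_left e1 (pow_pos hθ 2).le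
    nlinarith
  have h5 := stages hP hρ1 hG hτa h1 hx rfl hk ha
    (fun B' t y e1 e2 e3 e4 => flat0 hP hρ1 hτ hτ1 h2 hθ h3 hinc (by linarith) ha B' t y e1 e2 e3 e4)
    B rfl (hr.trans h4)
  linarith [rms_nonneg B]

end Vale.Agent.P080
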