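import Vale.Agent.P080.Elem

/-!
# P080: the maximum principle for configurations
-/

namespace Vale.Agent.P080

open scoped RealInnerProductSpace

/-- Abstract discrete maximum principle. -/
theorem abstract_mp {X : Type*} {F : X → ℝ} {K K' : X → Prop} {g β M : ℝ} (hg : 0 < g)
    (hK : ∀ x, K x → K' x) (hM : ∀ x, K' x → F x ≤ M)
    (hstep : ∀ x, K x → ∃ y z, K' y ∧ K' z ∧ 2 * F x + g ≤ F y + F z)
    (hbd : ∀ x, K' x → ¬ K x → F x ≤ β) (x : X) (hx : K x) : F x ≤ β := by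
  by_contra hc
  push Not at hc
  have hb : BddAbove (F '' {x | K' x}) := ⟨M, by rintro _ ⟨y, hy, rfl⟩; exact hM y hy⟩
  have hle : ∀ y, K' y → F y ≤ sSup (F '' {x | K' x}) := fun y hy => le_csSup hb ⟨y, hy, rfl⟩
  have h1 : max β (sSup (F '' {x | K' x}) - g / 2) < sSup (F '' {x | K' x}) :=
    max_lt (lt_of_lt_of_le hc (hle x (hK x hx))) (by linarith)
  obtain ⟨_, ⟨y, hy, rfl⟩, h2⟩ := exists_lt_of_lt_csSup (s := F '' {x | K' x})
    ⟨F x, x, hK x hx, rfl⟩ h1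
  have h3 := lt_of_le_of_lt (le_max_left _ _) h2
  have h4 := lt_of_le_of_lt (le_max_right _ _) h2
  have hKy : K y := by
    by_contra h
    linarith [hbd y hy h]
  obtain ⟨a, b, ha, hb', h5⟩ := hstep y hKy
  linarith [hle a ha, hle b hb']

section
variable {E : Type*} [NormedAddCommGroup E] [InnerProductSpace ℝ E]
variable {u : E → ℝ} {L D s0 σ : ℝ}

theorem sub_step (hu : Lip u L) (hm : Mono u D s0) (hσ : 0 < σ) (hs : 2 * σ ≤ s0) {x a : E}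
    (hx : ‖x‖ ≤ D) (ha : Opt u (2 * σ) x a) (c : E) :
    2 * Tp u σ x ≤ Tp u σ (x + σ • a) + Tp u σ (x + (-σ) • c) - σ * ‖a‖ ^ 2 / 2
      + σ * ‖c‖ ^ 2 / 2 := by
  have h1 := hm.two_Tp_le hx hσ hs
  have h2 := hu.le_Tp hσ (x + σ • a) a
  have h3 := hu.le_Tp hσ (x + (-σ) • c) c
  have e1 : x + σ • a + σ • a = x + (2 * σ) • a := by module
  have e2 : x + (-σ) • c + σ • c = x := by module
  rw [e1] at h2
  rw [e2] at h3
  unfold Opt at ha
  linarith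

theorem sup_step (hu : Lip u L) (hm : Mono u D s0) (hσ : 0 < σ) (hs : 2 * σ ≤ s0) {x b : E}
    (hx : ‖x + σ • b‖ ≤ D) (hb : Opt u (2 * σ) x b) (a : E) :
    2 * Tp u (2 * σ) x ≤ Tp u (2 * σ) (x + σ • a) + Tp u (2 * σ) (x + σ • b) - σ * ‖b‖ ^ 2
      + σ * ‖a - b‖ ^ 2 / 4 := by
  have h1 := hm.two_Tp_le hx hσ hs
  have h2 := hu.le_Tp hσ (x + σ • b) b
  have h3 := hu.le_Tp (by linarith : 0 < 2 * σ) (x + σ • a) ((-1 / 2 : ℝ) • (a - b))
  have e1 : x + σ • b + σ • b = x + (2 * σ) • b := by module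
  have e2 : x + σ • a + (2 * σ) • ((-1 / 2 : ℝ) • (a - b)) = x + σ • b := by module
  have e3 : ‖(-1 / 2 : ℝ) • (a - b)‖ = 1 / 2 * ‖a - b‖ := by
    rw [norm_smul, Real.norm_eq_abs]; norm_num
  rw [e1] at h2
  rw [e2, e3] at h3
  unfold Opt at hb
  linarith

variable {ι : Type} [Fintype ι] [Nonempty ι]

/-- The regularized Jensen gap. -/
noncomputable def Phi (u : E → ℝ) (σ : ℝ) (B : ι → E) : ℝ :=
  av (fun i => Tp u σ (B i)) + Tp (-u) (2 * σ) (cen B)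

omit [Nonempty ι] in
theorem Phi_eq (hσ : 0 < σ) (u : E → ℝ) (B : ι → E) : Phi u σ B = GN u B + σ * es u σ B := by
  unfold Phi GN es
  simp only [Tp_eq hσ, Tp_eq (by linarith : 0 < 2 * σ), Pi.neg_apply]
  rw [av_add, av_mul]
  ring

theorem Phi_le (hu : Lip u L) (hL : 0 ≤ L) (hσ : 0 < σ) (B : ι → E) :
    Phi u σ B ≤ L * rms B + 2 * σ * L ^ 2 := by
  have h1 : av (fun i => Tp u σ (B i)) ≤ av fun i => u (B i) + σ * L ^ 2 / 2 :=
    av_mono fun i => hu.Tp_le hσ _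
  rw [av_add, av_const] at h1
  have h2 := hu.neg.Tp_le (by linarith : 0 < 2 * σ) (cen B)
  have h3 := hu.GN_le hL B
  unfold GN at h3
  unfold Phi
  simp only [Pi.neg_apply] at h2
  nlinarith [mul_nonneg hσ.le (sq_nonneg L)]

theorem rms_sub_cen (B : ι → E) : rms (fun i => B i - cen B) = rms B := by
  unfold rms
  rw [cen_sub_cen]
  simp only [sub_zero]

theorem Phi_step (hu : Lip u L) (hm : Mono u D s0) (hm' : Mono (-u) D s0) (hσ : 0 < σ)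
    (hs : 2 * σ ≤ s0) {B a : ι → E} {b : E} (hB : ∀ i, ‖B i‖ ≤ D) (hx : ‖cen B + σ • b‖ ≤ D)
    (ha : ∀ i, Opt u (2 * σ) (B i) (a i)) (hb : Opt (-u) (2 * σ) (cen B) b) (k : ℝ) :
    2 * Phi u σ B ≤ Phi u σ (fun i => B i + σ • a i)
      + Phi u σ (fun i => cen B + σ • b + (1 - σ * k) • (B i - cen B))
      - σ * ‖cen a + b‖ ^ 2 / 4 - σ * rms a ^ 2 / 2 + σ * (k * rms B) ^ 2 / 2 := by
  have h1 : av (fun i => 2 * Tp u σ (B i)) ≤ av fun i => Tp u σ (B i + σ • a i)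
      + Tp u σ (cen B + σ • b + (1 - σ * k) • (B i - cen B)) - σ / 2 * ‖a i - 0‖ ^ 2
      + σ / 2 * ‖(-b + k • (B i - cen B)) - 0‖ ^ 2 := av_mono fun i => by
    have h := sub_step hu hm hσ hs (hB i) (ha i) (-b + k • (B i - cen B))
    have e : B i + (-σ) • (-b + k • (B i - cen B))
        = cen B + σ • b + (1 - σ * k) • (B i - cen B) := by module
    rw [e] at h
    simp only [sub_zero]
    linarith
  rw [av_mul, av_add, av_sub, av_add, av_mul, av_mul, av_sq_sub, av_sq_sub, rms_affine,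
    cen_affine, cen_sub_cen, rms_sub_cen, mul_pow, sq_abs] at h1
  simp only [smul_zero, add_zero, sub_zero, norm_neg] at h1
  have h2 := sup_step hu.neg hm' hσ hs hx hb (cen a)
  unfold Phi
  rw [cen_affine, cen_sub_cen, cen_add, cen_smul]
  simp only [smul_zero, add_zero]
  have h3 := norm_add_sq_real (cen a) b
  have h4 := norm_sub_sq_real (cen a) b
  rw [h4] at h2
  rw [h3]
  nlinarith

end

theorem radial_aux {lam μ σ r rp g l : ℝ} (hμ : 0 ≤ μ) (hg : g = lam - μ * r) (hg0 : 0 ≤ g)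
    (hrp : rp ≤ r + σ * l) :
    (lam * rp - μ * rp ^ 2 / 2) + (lam * (r - σ * g) - μ * (r - σ * g) ^ 2 / 2)
      - 2 * (lam * r - μ * r ^ 2 / 2) ≤ σ * g * l - σ * g ^ 2 - μ * σ ^ 2 * g ^ 2 / 2 := by
  have h1 : g * (rp - r) ≤ g * (σ * l) := mul_le_mul_of_nonneg_left (by linarith) hg0
  have h2 : 0 ≤ μ * (rp - r) ^ 2 := by positivity
  have e : lam = g + μ * r := by linarith
  subst e
  nlinarith

theorem gain_aux {P P1 P2 F F1 F2 N N1 N2 σ m l g μ h c A l0 : ℝ} (hσ : 0 < σ)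
    (k1 : 2 * P ≤ P1 + P2 - σ * m ^ 2 / 4 - σ * l ^ 2 / 2 + σ * g ^ 2 / 2)
    (k2 : F1 + F2 - 2 * F ≤ σ * g * l - σ * g ^ 2 - μ * σ ^ 2 * g ^ 2 / 2)
    (k3 : N1 + N2 - 2 * N ≤ 2 * σ * (c * m) + σ ^ 2 * (2 * A ^ 2 + 2)) (hh : 0 ≤ h)
    (k5 : μ * σ ^ 2 * l0 ^ 2 ≤ μ * σ ^ 2 * g ^ 2) :
    2 * (P - F - h * N / c ^ 2) + (μ * σ ^ 2 * l0 ^ 2 / 2 - 4 * σ * (h / c ^ 2) ^ 2 * c ^ 2
        - σ ^ 2 * (h / c ^ 2) * (2 * A ^ 2 + 2))
      ≤ (P1 - F1 - h * N1 / c ^ 2) + (P2 - F2 - h * N2 / c ^ 2) := by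
  have hH : 0 ≤ h / c ^ 2 := by positivity
  simp only [mul_div_right_comm h]
  generalize h / c ^ 2 = H at *
  have k4 := mul_le_mul_of_nonneg_left k3 hH
  have k6 : 0 ≤ σ * (g - l) ^ 2 := by positivity
  have k7 : 0 ≤ σ * (m / 2 - 2 * H * c) ^ 2 := by positivity
  linarith

section
variable {E : Type*} [NormedAddCommGroup E] [InnerProductSpace ℝ E]

theorem pen_aux {ξ v v' : E} {σ t c A : ℝ} (hσ : 0 < σ) (hξ : ‖ξ‖ ≤ c) (hv : ‖v‖ ≤ A)
    (hv' : ‖v'‖ ≤ A) :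
    (‖ξ + σ • v‖ ^ 2 + (t + σ) ^ 2) + (‖ξ + σ • v'‖ ^ 2 + (t - σ) ^ 2) - 2 * (‖ξ‖ ^ 2 + t ^ 2)
      ≤ 2 * σ * (c * ‖v + v'‖) + σ ^ 2 * (2 * A ^ 2 + 2) := by
  rw [norm_add_sq_real, norm_add_sq_real, inner_smul_right, inner_smul_right, norm_smul,
    norm_smul, Real.norm_eq_abs, abs_of_pos hσ]
  have h1 := real_inner_le_norm ξ (v + v')
  rw [inner_add_right] at h1
  have h2 : ‖ξ‖ * ‖v + v'‖ ≤ c * ‖v + v'‖ := mul_le_mul_of_nonneg_right hξ (norm_nonneg _)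
  have h3 := mul_le_mul_of_nonneg_left (h1.trans h2) hσ.le
  have h4 := mul_le_mul_of_nonneg_left (pow_le_pow_left₀ (norm_nonneg _) hv 2) (sq_nonneg σ)
  have h5 := mul_le_mul_of_nonneg_left (pow_le_pow_left₀ (norm_nonneg _) hv' 2) (sq_nonneg σ)
  nlinarith

end

section
variable {E : Type*} [NormedAddCommGroup E] [InnerProductSpace ℝ E] [FiniteDimensional ℝ E]
variable {ι : Type} [Fintype ι] [Nonempty ι]

omit [FiniteDimensional ℝ E] in
theorem mp_step {u : E → ℝ} {L D s0 σ A lam μ h c l0 r0 r1 : ℝ} {x w b : E} {B a : ι → E} {t : ℝ}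
    (hu : Lip u L) (hm : Mono u D s0) (hm' : Mono (-u) D s0) (hσ : 0 < σ) (hs : 2 * σ ≤ s0)
    (hBD : ∀ i, ‖B i‖ ≤ D) (hx : ‖cen B + σ • b‖ ≤ D)
    (ha : ∀ i, Opt u (2 * σ) (B i) (a i)) (hb : Opt (-u) (2 * σ) (cen B) b)
    (haw : nrm (fun i => a i - w) ≤ A) (hbw : ‖b + w‖ ≤ A) (hA1 : 1 ≤ A)
    (hlam : lam ≤ A) (hμ : 0 ≤ μ) (hh : 0 ≤ h) (hl0 : 0 ≤ l0)
    (hl : l0 ≤ lam - μ * r1) (hr0 : σ * A ≤ r0) (hB : Reg x w c r0 r1 B t) :
    ∃ B1 B2 : ι → E, Reg x w (c + σ * A) (r0 - σ * A) (r1 + σ * A) B1 (t + σ) ∧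
      Reg x w (c + σ * A) (r0 - σ * A) (r1 + σ * A) B2 (t - σ) ∧
      2 * Psi u σ lam μ h c x w B t + (μ * σ ^ 2 * l0 ^ 2 / 2 - 4 * σ * (h / c ^ 2) ^ 2 * c ^ 2
        - σ ^ 2 * (h / c ^ 2) * (2 * A ^ 2 + 2))
        ≤ Psi u σ lam μ h c x w B1 (t + σ) + Psi u σ lam μ h c x w B2 (t - σ) := by
  obtain ⟨ht, hξ, h0, h1⟩ := hB
  have hσA : σ ≤ σ * A := le_mul_of_one_le_right hσ.le hA1
  have hr : 0 < rms B := by linarith
  obtain ⟨g, hg⟩ : ∃ g, g = lam - μ * rms B := ⟨_, rfl⟩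
  have hg1 : l0 ≤ g := by nlinarith
  have hg2 : g ≤ A := by nlinarith
  have hσg : σ * g ≤ σ * A := mul_le_mul_of_nonneg_left hg2 hσ.le
  have hσg0 : 0 ≤ σ * g := mul_nonneg hσ.le (by linarith)
  have hla : rms a ≤ A := (rms_le_nrm_sub a w).trans haw
  have hca : ‖cen a - w‖ ≤ A := (norm_cen_sub_le a w).trans haw
  have hσl : σ * rms a ≤ σ * A := mul_le_mul_of_nonneg_left hla hσ.le
  have c1 : cen (fun i => B i + σ • a i) - x - (t + σ) • w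
      = (cen B - x - t • w) + σ • (cen a - w) := by
    rw [cen_add, cen_smul]; module
  have c2 : cen (fun i => cen B + σ • b + (1 - σ * (g / rms B)) • (B i - cen B)) - x - (t - σ) • w
      = (cen B - x - t • w) + σ • (b + w) := by
    rw [cen_affine, cen_sub_cen]; module
  have r2 : rms (fun i => cen B + σ • b + (1 - σ * (g / rms B)) • (B i - cen B))
      = rms B - σ * g := by
    have e : 1 - σ * (g / rms B) = (rms B - σ * g) / rms B := by field_simp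
    rw [rms_affine, rms_sub_cen, e, abs_of_nonneg (div_nonneg (by linarith) hr.le)]
    field_simp
  have r1u := rms_add_smul_le B a σ
  have r1l := le_rms_add_smul B a σ
  rw [abs_of_pos hσ] at r1u r1l
  have nb : ∀ v : E, ‖v‖ ≤ A → ‖(cen B - x - t • w) + σ • v‖ ≤ c + σ * A := by
    intro v hv
    have h2 := norm_add_le (cen B - x - t • w) (σ • v)
    rw [norm_smul, Real.norm_eq_abs, abs_of_pos hσ] at h2
    linarith [mul_le_mul_of_nonneg_left hv hσ.le]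
  have ht' := abs_le.1 ht
  refine ⟨fun i => B i + σ • a i,
    fun i => cen B + σ • b + (1 - σ * (g / rms B)) • (B i - cen B),
    ⟨abs_le.2 ⟨by linarith, by linarith⟩, by rw [c1]; exact nb _ hca, by linarith, by linarith⟩,
    ⟨abs_le.2 ⟨by linarith, by linarith⟩, by rw [c2]; exact nb _ hbw, by rw [r2]; linarith,
      by rw [r2]; linarith⟩, ?_⟩
  unfold Psi
  rw [← Phi_eq hσ, ← Phi_eq hσ, ← Phi_eq hσ, c1, c2, r2]
  have k1 := Phi_step hu hm hm' hσ hs hBD hx ha hb (g / rms B)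
  rw [div_mul_cancel₀ _ hr.ne'] at k1
  have k2 := radial_aux (σ := σ) hμ hg (by linarith) r1u
  have k3 := pen_aux (t := t) hσ hξ hca hbw
  have e3 : cen a - w + (b + w) = cen a + b := by abel
  rw [e3] at k3
  have k5 : μ * σ ^ 2 * l0 ^ 2 ≤ μ * σ ^ 2 * g ^ 2 :=
    mul_le_mul_of_nonneg_left (pow_le_pow_left₀ hl0 hg1 2) (by positivity)
  exact gain_aux hσ k1 k2 k3 hh k5

/-- Maximum principle: a bound for `Psi` on the collar propagates to the core region. -/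
theorem mpw {u : E → ℝ} {L C R ρ ρ1 D κ σ A lam μ h c l0 r0 r1 β : ℝ} {x0 p x w : E} {n : ℕ}
    (hP : Pk u L C R ρ1 D) (hc : Cyl u C R ρ x0 p κ) (hρ : 0 < ρ) (hρ1 : ρ ≤ ρ1)
    (hD : ‖x0‖ + UU ι L ρ1 ≤ D) (hσ : ρ / (R * 2 ^ (n + 2)) ≤ 2 * σ) (hσ' : 2 * σ ≤ ρ / (2 * R))
    (hw : ‖w - p‖ ≤ 9 * R) (hA : 25 * R * (n + 1) ≤ A) (hlam : lam ≤ A) (hμ : 0 ≤ μ)
    (hh : 0 ≤ h) (hc0 : 0 < c) (hl0 : 0 ≤ l0) (hl : l0 ≤ lam - μ * r1) (hr0 : σ * A ≤ r0)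
    (hkey : 8 * h ^ 2 + 4 * σ * h * (A ^ 2 + 1) < σ * c ^ 2 * μ * l0 ^ 2)
    (hnear : ∀ (B : ι → E) (t : ℝ), Reg x w c r0 r1 B t → Near R ρ x0 p B)
    (hbd : ∀ (B : ι → E) (t : ℝ), Reg x w (c + σ * A) (r0 - σ * A) (r1 + σ * A) B t →
      ¬ Reg x w c r0 r1 B t → Psi u σ lam μ h c x w B t ≤ β)
    (B : ι → E) (t : ℝ) (hB : Reg x w c r0 r1 B t) : Psi u σ lam μ h c x w B t ≤ β := by
  have hR4 := hP.four_le
  have hL := hP.hL
  have hn : (0 : ℝ) ≤ n := Nat.cast_nonneg n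
  have hσ2 : 0 < 2 * σ := lt_of_lt_of_le (by positivity) hσ
  have hσ0 : 0 < σ := by linarith
  have hRn : 0 ≤ R * n := by positivity
  have hA1 : 1 ≤ A := by nlinarith
  have hσA : 0 < σ * A := by positivity
  have hs := hσ'.trans (hP.half_le hρ hρ1)
  have hr1 : 0 ≤ r1 := by linarith [hB.2.2.1, hB.2.2.2]
  have hlam0 : 0 ≤ lam := by nlinarith
  refine abstract_mp (X := (ι → E) × ℝ) (F := fun z => Psi u σ lam μ h c x w z.1 z.2)
    (K := fun z => Reg x w c r0 r1 z.1 z.2)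
    (K' := fun z => Reg x w (c + σ * A) (r0 - σ * A) (r1 + σ * A) z.1 z.2)
    (g := μ * σ ^ 2 * l0 ^ 2 / 2 - 4 * σ * (h / c ^ 2) ^ 2 * c ^ 2
        - σ ^ 2 * (h / c ^ 2) * (2 * A ^ 2 + 2))
    (M := L * (r1 + σ * A) + 2 * σ * L ^ 2 + μ * (r1 + σ * A) ^ 2 / 2)
    ?_ ?_ ?_ ?_ (fun z => hbd z.1 z.2) (B, t) hB
  · have e : μ * σ ^ 2 * l0 ^ 2 / 2 - 4 * σ * (h / c ^ 2) ^ 2 * c ^ 2
        - σ ^ 2 * (h / c ^ 2) * (2 * A ^ 2 + 2)
        = σ / (2 * c ^ 2) * (σ * c ^ 2 * μ * l0 ^ 2 - (8 * h ^ 2 + 4 * σ * h * (A ^ 2 + 1))) := by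
      field_simp; ring
    rw [e]
    exact mul_pos (by positivity) (by linarith)
  · rintro ⟨B, t⟩ ⟨h1, h2, h3, h4⟩
    exact ⟨by linarith, by linarith, by linarith, by linarith⟩
  · rintro ⟨B, t⟩ ⟨-, -, -, h4⟩
    unfold Psi
    rw [← Phi_eq hσ0]
    have h5 := Phi_le hP.lip hL hσ0 B
    have h6 := rms_nonneg B
    have h7 := mul_le_mul_of_nonneg_left h4 hL
    have h8 := mul_le_mul_of_nonneg_left (pow_le_pow_left₀ h6 h4 2) hμ
    have h9 : 0 ≤ h * (‖cen B - x - t • w‖ ^ 2 + t ^ 2) / c ^ 2 := by positivity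
    have h10 := mul_nonneg hlam0 h6
    dsimp only at *
    linarith
  · rintro ⟨B, t⟩ hB
    have hN := hnear B t hB
    choose a ha using fun i => hP.lip.exists_opt hL hσ2 (B i)
    obtain ⟨b, hb⟩ := hP.lip.neg.exists_opt hL hσ2 (cen B)
    have h1 := hN.vel hP hc hρ hρ1 hD hσ hσ' ha
    have h2 := hN.vel_cen hP hc hρ hρ1 hD hσ hσ' hb
    have haw : nrm (fun i => a i - w) ≤ A := by
      have e : (fun i => a i - w) = fun i => (a i - p) + (fun _ : ι => -(w - p)) i := by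
        funext i; beta_reduce; abel
      rw [e]
      have h3 := nrm_add_le (fun i => a i - p) (fun _ : ι => -(w - p))
      rw [nrm_const, norm_neg] at h3
      linarith
    have hbw : ‖b + w‖ ≤ A := by
      have e : b + w = (b + p) + (w - p) := by abel
      rw [e]
      linarith [norm_add_le (b + p) (w - p)]
    have hx : ‖cen B + σ • b‖ ≤ D := by
      have h3 := norm_add_le (cen B) (σ • b)
      rw [norm_smul, Real.norm_eq_abs, abs_of_pos hσ0] at h3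
      have h4 := mul_le_mul_of_nonneg_left (hb.norm_le hP.lip.neg hL hσ2) hσ0.le
      have h5 := hN.cen_le hP hc hρ hρ1
      have h6 : 2 * σ ≤ ρ1 / 2 := by
        refine hσ'.trans ?_
        rw [div_le_iff₀ (by linarith)]
        nlinarith
      have h7 := mul_le_mul_of_nonneg_right h6 hL
      unfold UU at hD
      linarith [Real.sqrt_nonneg (Fintype.card ι : ℝ)]
    obtain ⟨B1, B2, k1, k2, k3⟩ := mp_step (h := h) hP.lip hP.mono hP.monoN hσ0 hs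
      (hN.norm_le_D hP hc hρ hρ1 hD) hx ha hb haw hbw hA1 hlam hμ hh hl0 hl hr0 hB
    exact ⟨(B1, t + σ), (B2, t - σ), k1, k2, k3⟩

end

end Vale.Agent.P080
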