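import Mathlib

/-!
# P080: infinity-harmonic functions
-/

namespace Vale.Agent.P080

open scoped Gradient

/-- The (unnormalized) infinity Laplacian `⟨D²φ ∇φ, ∇φ⟩` at the point `z`. -/
noncomputable def infLap {d : ℕ} (φ : EuclideanSpace ℝ (Fin d) → ℝ)
    (z : EuclideanSpace ℝ (Fin d)) : ℝ :=
  fderiv ℝ (fderiv ℝ φ) z (∇ φ z) (∇ φ z)

/-- `u` is infinity-harmonic on `Ω`: a continuous viscosity solution of `Δ∞ u = 0`. -/
def IsInfHarmonic {d : ℕ} (Ω : Set (EuclideanSpace ℝ (Fin d)))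
    (u : EuclideanSpace ℝ (Fin d) → ℝ) : Prop :=
  ContinuousOn u Ω ∧ ∀ φ : EuclideanSpace ℝ (Fin d) → ℝ, ContDiff ℝ 2 φ → ∀ z ∈ Ω,
    (IsLocalMax (fun y => u y - φ y) z → 0 ≤ infLap φ z) ∧
    (IsLocalMin (fun y => u y - φ y) z → infLap φ z ≤ 0)

end Vale.Agent.P080
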