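import Vale.Agent.P080.Stmt
import Vale.Agent.P080.Basic

/-!
# P080: comparison with cones for viscosity solutions
-/

namespace Vale.Agent.P080

open Metric Filter Topology
open scoped Gradient

theorem infLap_neg {d : ℕ} (φ : EuclideanSpace ℝ (Fin d) → ℝ) (z : EuclideanSpace ℝ (Fin d)) :
    infLap (-φ) z = -infLap φ z := by
  have e1 : fderiv ℝ (-φ) = -fderiv ℝ φ := funext fun y => fderiv_neg
  have e2 : ∇ (-φ) z = -∇ φ z := by
    unfold gradient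
    rw [e1, Pi.neg_apply, map_neg]
  unfold infLap
  rw [e1, e2, fderiv_neg]
  simp

theorem IsInfHarmonic.neg {d : ℕ} {Ω : Set (EuclideanSpace ℝ (Fin d))}
    {u : EuclideanSpace ℝ (Fin d) → ℝ} (hu : IsInfHarmonic Ω u) : IsInfHarmonic Ω (-u) := by
  refine ⟨hu.1.neg, fun φ hφ z hz => ?_⟩
  obtain ⟨h1, h2⟩ := hu.2 (-φ) hφ.neg z hz
  rw [infLap_neg] at h1 h2
  have e : (fun y => u y - (-φ) y) = fun y => -((-u) y - φ y) := by
    ext y
    simp only [Pi.neg_apply]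
    ring
  rw [e] at h1 h2
  exact ⟨fun h => neg_nonpos.mp (h2 h.neg), fun h => neg_nonneg.mp (h1 h.neg)⟩

theorem cone_fderiv {E : Type*} [NormedAddCommGroup E] [InnerProductSpace ℝ E] (c a g : ℝ)
    {x y : E} (h : y ≠ x) : HasFDerivAt (fun y => c + a * ‖y - x‖ - g * ‖y - x‖ ^ 2)
      ((a / ‖y - x‖ - 2 * g) • innerSL ℝ (y - x)) y := by
  have n : ‖y - x‖ ≠ 0 := norm_ne_zero_iff.mpr (sub_ne_zero.mpr h)
  have h1 := ((hasFDerivAt_id y).sub_const x).norm_sq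
  have h2 := h1.sqrt (pow_ne_zero 2 n)
  simp only [id, Real.sqrt_sq (norm_nonneg _)] at h1 h2
  refine (((h2.const_mul a).const_add c).sub (h1.const_mul g)).congr_fderiv ?_
  ext v
  simp
  field_simp

theorem cone_bump {E : Type*} [NormedAddCommGroup E] [InnerProductSpace ℝ E]
    [FiniteDimensional ℝ E] (c a g : ℝ) {x z : E} (h : z ≠ x) :
    ∃ φ : E → ℝ, ContDiff ℝ 2 φ ∧ (φ =ᶠ[𝓝 z] fun y => c + a * ‖y - x‖ - g * ‖y - x‖ ^ 2) := by
  have s0 : 0 < ‖z - x‖ := norm_pos_iff.mpr (sub_ne_zero.mpr h)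
  let b : ContDiffBump z := ⟨‖z - x‖ / 4, ‖z - x‖ / 2, by linarith, by linarith⟩
  refine ⟨fun y => b y * (c + a * ‖y - x‖ - g * ‖y - x‖ ^ 2),
    contDiff_iff_contDiffAt.mpr fun y => ?_, ?_⟩
  · by_cases hy : y = x
    · have : y ∉ tsupport b := by
        rw [b.tsupport_eq, mem_closedBall, dist_eq_norm, hy, norm_sub_rev]
        change ¬ ‖z - x‖ ≤ ‖z - x‖ / 2
        linarith
      refine (contDiffAt_const (c := 0)).congr_of_eventuallyEq ?_
      filter_upwards [notMem_tsupport_iff_eventuallyEq.mp this] with w hw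
      rw [hw, Pi.zero_apply, zero_mul]
    · have hn : ContDiffAt ℝ 2 (fun w => ‖w - x‖) y :=
        (contDiffAt_id.sub contDiffAt_const).norm ℝ (sub_ne_zero.mpr hy)
      have hb : ContDiffAt ℝ 2 b y := (b.contDiff (n := 2)).contDiffAt
      exact hb.mul
        ((contDiffAt_const.add (contDiffAt_const.mul hn)).sub (contDiffAt_const.mul (hn.pow 2)))
  · filter_upwards [b.eventuallyEq_one] with w hw
    rw [hw, Pi.one_apply, one_mul]

theorem cone_hess {E : Type*} [NormedAddCommGroup E] [InnerProductSpace ℝ E] {c a g : ℝ}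
    {x z : E} (h : z ≠ x) {φ : E → ℝ} (hφ : ContDiff ℝ 2 φ)
    (he : φ =ᶠ[𝓝 z] fun y => c + a * ‖y - x‖ - g * ‖y - x‖ ^ 2) :
    fderiv ℝ (fderiv ℝ φ) z (z - x) (z - x) = -(2 * g * ‖z - x‖ ^ 2) := by
  have s0 : 0 < ‖z - x‖ := norm_pos_iff.mpr (sub_ne_zero.mpr h)
  have hl : HasDerivAt (fun t : ℝ => z + t • (z - x)) (z - x) 0 := by
    simpa using ((hasDerivAt_id (0 : ℝ)).smul_const (z - x)).const_add z
  have d1 : HasFDerivAt (fderiv ℝ φ) (fderiv ℝ (fderiv ℝ φ) z) (z + (0 : ℝ) • (z - x)) := by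
    rw [zero_smul, add_zero]
    exact ((hφ.fderiv_right (m := 1) (by norm_num)).differentiable one_ne_zero z).hasFDerivAt
  have d2 : HasDerivAt (fun t : ℝ => fderiv ℝ φ (z + t • (z - x)) (z - x))
      (fderiv ℝ (fderiv ℝ φ) z (z - x) (z - x)) 0 := by
    have d0 : HasDerivAt (fun t : ℝ => fderiv ℝ φ (z + t • (z - x)))
        (fderiv ℝ (fderiv ℝ φ) z (z - x)) 0 :=
      HasFDerivAt.comp_hasDerivAt (f := fun t : ℝ => z + t • (z - x)) (0 : ℝ) d1 hl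
    exact (ContinuousLinearMap.apply ℝ ℝ (z - x)).hasFDerivAt.comp_hasDerivAt (0 : ℝ) d0
  have d3 : HasDerivAt (fun t : ℝ => a * ‖z - x‖ - 2 * g * ‖z - x‖ ^ 2 * (1 + t))
      (-(2 * g * ‖z - x‖ ^ 2)) 0 := by
    simpa using (((hasDerivAt_id (0 : ℝ)).const_add 1).const_mul
      (2 * g * ‖z - x‖ ^ 2)).const_sub (a * ‖z - x‖)
  have ht : Tendsto (fun t : ℝ => z + t • (z - x)) (𝓝 0) (𝓝 z) := by
    simpa using hl.continuousAt.tendsto
  refine d2.unique (d3.congr_of_eventuallyEq ?_)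
  filter_upwards [ht.eventually (he.fderiv (𝕜 := ℝ)), lt_mem_nhds (show (-1 : ℝ) < 0 by norm_num)]
    with t h1 h2
  have e : z + t • (z - x) - x = (1 + t) • (z - x) := by module
  have t0 : 0 < 1 + t := by linarith
  have n : z + t • (z - x) ≠ x := by
    rw [← sub_ne_zero, e]
    exact smul_ne_zero t0.ne' (sub_ne_zero.mpr h)
  rw [h1, (cone_fderiv c a g n).fderiv, e, norm_smul, Real.norm_of_nonneg t0.le]
  simp only [_root_.smul_apply, innerSL_apply_apply, real_inner_smul_left,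
    real_inner_self_eq_norm_sq, smul_eq_mul]
  field_simp

theorem cone_test {d : ℕ} (c : ℝ) {a g : ℝ} {x z : EuclideanSpace ℝ (Fin d)} (h : z ≠ x)
    (hg : 0 < g) (ha : 2 * g * ‖z - x‖ < a) :
    ∃ φ : EuclideanSpace ℝ (Fin d) → ℝ, ContDiff ℝ 2 φ ∧
      (φ =ᶠ[𝓝 z] fun y => c + a * ‖y - x‖ - g * ‖y - x‖ ^ 2) ∧ infLap φ z < 0 := by
  have s0 : 0 < ‖z - x‖ := norm_pos_iff.mpr (sub_ne_zero.mpr h)
  obtain ⟨φ, hφ, he⟩ := cone_bump c a g h
  refine ⟨φ, hφ, he, ?_⟩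
  have e1 : ∇ φ z = (a / ‖z - x‖ - 2 * g) • (z - x) := by
    rw [he.gradient_eq]
    refine HasGradientAt.gradient (hasGradientAt_iff_hasFDerivAt.mpr
      ((cone_fderiv c a g h).congr_fderiv ?_))
    rw [map_smul]
    rfl
  have l0 : 0 < a / ‖z - x‖ - 2 * g := by rwa [sub_pos, lt_div_iff₀ s0]
  unfold infLap
  rw [e1, map_smul, map_smul, _root_.smul_apply, cone_hess h hφ he, smul_eq_mul, smul_eq_mul]
  exact mul_neg_of_pos_of_neg l0 (mul_neg_of_pos_of_neg l0 (neg_lt_zero.mpr (by positivity)))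

theorem IsInfHarmonic.cone {d : ℕ} {Ω : Set (EuclideanSpace ℝ (Fin d))}
    {u : EuclideanSpace ℝ (Fin d) → ℝ} (hu : IsInfHarmonic Ω u) {x : EuclideanSpace ℝ (Fin d)}
    {r m : ℝ} (hr : 0 < r) (hx : closedBall x r ⊆ Ω) (hm : ∀ z, ‖z - x‖ ≤ r → u z ≤ m)
    (y : EuclideanSpace ℝ (Fin d)) (hy : ‖y - x‖ ≤ r) :
    r * (u y - u x) ≤ ‖y - x‖ * (m - u x) := by
  have hm0 : 0 ≤ m - u x := sub_nonneg.mpr (hm x (by simp [hr.le]))
  refine le_of_forall_pos_le_add fun ε hε => ?_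
  obtain ⟨g, hg, hε⟩ : ∃ g, 0 < g ∧ 3 * g * r ^ 3 = ε := ⟨ε / (3 * r ^ 3), by positivity, by
    field_simp⟩
  obtain ⟨a, ha⟩ : ∃ a, r * a = m - u x + 3 * g * r ^ 2 :=
    ⟨(m - u x + 3 * g * r ^ 2) / r, by field_simp⟩
  obtain ⟨z, hz, hmax⟩ := (isCompact_closedBall x r).exists_isMaxOn ⟨x, mem_closedBall_self hr.le⟩
    (f := fun y => u y - (u x + a * ‖y - x‖ - g * ‖y - x‖ ^ 2))
    ((hu.1.mono hx).sub (by fun_prop))
  have hz' : ‖z - x‖ ≤ r := by rwa [mem_closedBall, dist_eq_norm] at hz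
  have key : u z - (u x + a * ‖z - x‖ - g * ‖z - x‖ ^ 2) ≤ 0 := by
    by_cases h1 : z = x
    · simp [h1]
    rcases hz'.eq_or_lt with h2 | h2
    · rw [h2]
      nlinarith [hm z hz', mul_pos hg (pow_pos hr 2)]
    exfalso
    obtain ⟨φ, p1, p2, p3⟩ := cone_test (u x) (a := a) h1 hg (by
      refine lt_of_mul_lt_mul_left ?_ hr.le
      nlinarith [mul_pos hg (pow_pos hr 2), mul_le_mul_of_nonneg_left hz' (mul_pos hg hr).le])
    refine absurd ((hu.2 φ p1 z (hx hz)).1 ?_) (not_le.mpr p3)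
    refine (hmax.isLocalMax (closedBall_mem_nhds_of_mem (by
      rwa [mem_ball, dist_eq_norm]))).congr ?_
    filter_upwards [p2] with w hw
    rw [hw]
  have h1 : u y - (u x + a * ‖y - x‖ - g * ‖y - x‖ ^ 2) ≤ 0 :=
    le_trans (hmax (by rwa [mem_closedBall, dist_eq_norm])) key
  have h2 : u y - u x ≤ a * ‖y - x‖ := by nlinarith [mul_nonneg hg.le (sq_nonneg ‖y - x‖)]
  calc r * (u y - u x) ≤ r * (a * ‖y - x‖) := by gcongr
    _ = ‖y - x‖ * (m - u x) + 3 * g * r ^ 2 * ‖y - x‖ := by rw [← mul_assoc, ha]; ring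
    _ ≤ ‖y - x‖ * (m - u x) + 3 * g * r ^ 2 * r := by gcongr
    _ = _ := by rw [← hε]; ring

end Vale.Agent.P080
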