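import Vale.Agent.P080.Basic

/-!
# P080: affine approximation from bounds on second differences
-/

namespace Vale.Agent.P080

open scoped RealInnerProductSpace

theorem chord_aux {φ : ℝ → ℝ} {a b M : ℝ} (hab : a < b) (hg : ContinuousOn φ (Set.Icc a b))
    (ha : φ a = 0) (hb : φ b = 0)
    (h : ∀ s t : ℝ, 0 ≤ t → a ≤ s - t → s + t ≤ b → 2 * φ s ≤ M + φ (s + t) + φ (s - t)) :
    ∀ s ∈ Set.Icc a b, φ s ≤ M := by
  obtain ⟨s, ⟨h1, h2⟩, hs⟩ := isCompact_Icc.exists_isMaxOn (Set.nonempty_Icc.mpr hab.le) hg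
  refine fun s' hs' => le_trans (hs hs') ?_
  rcases le_total (2 * s) (a + b) with e | e
  · have h3 := h s (s - a) (by linarith) (by linarith) (by linarith)
    have h4 : φ (s + (s - a)) ≤ φ s := hs ⟨by linarith, by linarith⟩
    rw [sub_sub_cancel, ha] at h3
    linarith
  · have h3 := h s (b - s) (by linarith) (by linarith) (by linarith)
    have h4 : φ (s - (b - s)) ≤ φ s := hs ⟨by linarith, by linarith⟩
    rw [add_sub_cancel, hb] at h3
    linarith

/-- A continuous function with second differences at most `M` stays within `M` of its chord. -/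
theorem chord {g : ℝ → ℝ} {a b M : ℝ} (hab : a < b) (hg : ContinuousOn g (Set.Icc a b))
    (h : ∀ s t : ℝ, 0 ≤ t → a ≤ s - t → s + t ≤ b → |g (s + t) + g (s - t) - 2 * g s| ≤ M) :
    ∀ s ∈ Set.Icc a b, |g s - g a - (s - a) / (b - a) * (g b - g a)| ≤ M := by
  have hne : b - a ≠ 0 := by linarith
  have hc : ContinuousOn (fun s => g s - g a - (s - a) / (b - a) * (g b - g a)) (Set.Icc a b) :=
    (hg.sub continuousOn_const).sub (by fun_prop)
  have e : ∀ s t, (s + t - a) / (b - a) + (s - t - a) / (b - a) = 2 * ((s - a) / (b - a)) :=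
    fun s t => by ring
  intro s hs
  refine abs_le.mpr ⟨?_, chord_aux hab hc (by simp) (by simp [hne]) (fun s t h1 h2 h3 => ?_) s hs⟩
  · refine neg_le.mp (chord_aux hab hc.neg (by simp) (by simp [hne]) (fun s t h1 h2 h3 => ?_) s hs)
    have := (abs_le.mp (h s t h1 h2 h3)).2
    simp only [Pi.neg_apply]
    linear_combination this - (g b - g a) * e s t
  · have := (abs_le.mp (h s t h1 h2 h3)).1
    linear_combination this + (g b - g a) * e s t

/-- A Zygmund bound on a ball gives an affine approximation on the ball. -/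
theorem slope_of_zyg (E : Type*) [NormedAddCommGroup E] [InnerProductSpace ℝ E]
    [FiniteDimensional ℝ E] :
    ∃ C0 : ℝ, 1 ≤ C0 ∧ ∀ (u : E → ℝ) (x : E) (ρ z : ℝ), Continuous u → 0 < ρ → 0 ≤ z →
      (∀ x' h : E, ‖x' - x‖ ≤ ρ → ‖h‖ ≤ ρ → |u (x' + h) + u (x' - h) - 2 * u x'| ≤ z * ‖h‖) →
      ∃ p : E, ∀ y : E, ‖y‖ ≤ ρ → |u (x + y) - u x - ⟪p, y⟫| ≤ C0 * z * ρ := by
  classical
  refine ⟨4 * Module.finrank ℝ E + 1, by linarith [Nat.cast_nonneg (α := ℝ) (Module.finrank ℝ E)],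
    fun u x ρ z hu hρ hz h => ?_⟩
  have h' : ∀ x' k : E, ‖x'‖ ≤ ρ → ‖k‖ ≤ ρ →
      |u (x + x' + k) + u (x + x' - k) - 2 * u (x + x')| ≤ z * ρ := fun x' k h1 h2 =>
    (h _ k (by rwa [add_sub_cancel_left]) h2).trans (mul_le_mul_of_nonneg_left h2 hz)
  have hadd : ∀ v w : E, ‖v‖ ≤ ρ → ‖w‖ ≤ ρ →
      |u (x + (v + w)) + u x - u (x + v) - u (x + w)| ≤ 2 * (z * ρ) := by
    intro v w hv hw
    have n1 : ‖(1 / 2 : ℝ) • (v + w)‖ ≤ ρ := by
      rw [norm_smul, Real.norm_of_nonneg (by norm_num)]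
      linarith [norm_add_le v w]
    have n2 : ‖(1 / 2 : ℝ) • (v - w)‖ ≤ ρ := by
      rw [norm_smul, Real.norm_of_nonneg (by norm_num)]
      linarith [norm_sub_le v w]
    have a1 := abs_le.mp (h' _ _ n1 n1)
    have a2 := abs_le.mp (h' _ _ n1 n2)
    rw [show x + (1 / 2 : ℝ) • (v + w) + (1 / 2 : ℝ) • (v + w) = x + (v + w) by module,
      add_sub_cancel_right] at a1
    rw [show x + (1 / 2 : ℝ) • (v + w) + (1 / 2 : ℝ) • (v - w) = x + v by module,
      show x + (1 / 2 : ℝ) • (v + w) - (1 / 2 : ℝ) • (v - w) = x + w by module] at a2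
    exact abs_le.mpr ⟨by linarith [a1.1, a2.2], by linarith [a1.2, a2.1]⟩
  have hline : ∀ e : E, ‖e‖ = 1 → ∃ p : ℝ, ∀ t, |t| ≤ ρ →
      |u (x + t • e) - u x - t * p| ≤ 2 * (z * ρ) := by
    intro e he
    have n : ∀ t : ℝ, |t| ≤ ρ → ‖t • e‖ ≤ ρ := fun t ht => by
      rwa [norm_smul, he, mul_one, Real.norm_eq_abs]
    have hc := chord (g := fun t => u (x + t • e)) (a := -ρ) (b := ρ) (M := z * ρ) (by linarith)
      (by fun_prop) fun s t h1 h2 h3 => by
        have := h' (s • e) (t • e) (n _ (abs_le.mpr ⟨by linarith, by linarith⟩))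
          (n _ (abs_le.mpr ⟨by linarith, by linarith⟩))
        rwa [add_assoc x, add_sub_assoc x, ← add_smul, ← sub_smul] at this
    refine ⟨(u (x + ρ • e) - u (x + (-ρ) • e)) / (ρ - -ρ), fun t ht => ?_⟩
    have a1 := abs_le.mp (hc t (abs_le.mp ht))
    have a2 := abs_le.mp (hc 0 ⟨by linarith, hρ.le⟩)
    simp only [zero_smul, add_zero] at a2
    have e1 : t * ((u (x + ρ • e) - u (x + (-ρ) • e)) / (ρ - -ρ)) =
        (t - -ρ) / (ρ - -ρ) * (u (x + ρ • e) - u (x + (-ρ) • e)) -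
        (0 - -ρ) / (ρ - -ρ) * (u (x + ρ • e) - u (x + (-ρ) • e)) := by ring
    rw [e1]
    exact abs_le.mpr ⟨by linarith [a1.1, a2.2], by linarith [a1.2, a2.1]⟩
  let b := stdOrthonormalBasis ℝ E
  choose p hp using fun j => hline (b j) (b.orthonormal.1 j)
  refine ⟨∑ j, p j • b j, fun y hy => ?_⟩
  have hn : ∀ S : Finset (Fin (Module.finrank ℝ E)), ‖∑ j ∈ S, ⟪b j, y⟫ • b j‖ ≤ ρ := by
    intro S
    refine le_trans ((pow_le_pow_iff_left₀ (norm_nonneg _) (norm_nonneg y) two_ne_zero).mp ?_) hy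
    rw [← real_inner_self_eq_norm_sq, b.orthonormal.inner_sum]
    refine le_trans (le_of_eq ?_) (b.orthonormal.sum_inner_products_le y (s := S))
    simp [sq]
  have key : ∀ S : Finset (Fin (Module.finrank ℝ E)),
      |u (x + ∑ j ∈ S, ⟪b j, y⟫ • b j) - u x - ∑ j ∈ S, ⟪b j, y⟫ * p j| ≤
        4 * S.card * (z * ρ) := by
    intro S
    induction S using Finset.induction_on with
    | empty => simp
    | insert j S hj ih =>
      have n1 : ‖⟪b j, y⟫ • b j‖ ≤ ρ := by simpa using hn {j}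
      have a1 := abs_le.mp (hadd _ _ n1 (hn S))
      have a2 := abs_le.mp (hp j ⟪b j, y⟫ (by
        rwa [norm_smul, b.orthonormal.1 j, mul_one, Real.norm_eq_abs] at n1))
      have a3 := abs_le.mp ih
      rw [Finset.sum_insert hj, Finset.sum_insert hj, Finset.card_insert_of_notMem hj]
      push_cast
      exact abs_le.mpr ⟨by linarith [a1.1, a2.1, a3.1], by linarith [a1.2, a2.2, a3.2]⟩
  have := key Finset.univ
  rw [b.sum_repr', Finset.card_univ, Fintype.card_fin] at this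
  rw [sum_inner]
  simp only [real_inner_smul_left, mul_comm (p _)]
  nlinarith [mul_nonneg hz hρ.le]

end Vale.Agent.P080
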